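import Mathlib

namespace Vale.Agent.P235

open Finset

/-- Elimination tree of width `k` on a finite metric space: vertices are the nodes of a rooted
tree, `S v` is the bag at the time `v` is born. -/
structure Elim (V : Type) [MetricSpace V] (k : ℕ) where
  r : V
  par : V → V
  dep : V → ℕ
  S : V → Finset V
  dep_r : dep r = 0
  par_r : par r = r
  dep_par : ∀ v, v ≠ r → dep v = dep (par v) + 1
  self_mem : ∀ v, v ∈ S v
  S_r : ∀ y ∈ S r, y = r
  sub_par : ∀ v, ∀ y ∈ S v, y ≠ v → y ∈ S (par v)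
  card_le : ∀ v, (S v).card ≤ k + 1
  sep : ∀ v u w, (∃ n, par^[n] u = v) → (¬ ∃ n, par^[n] w = v) →
    ∃ y ∈ S v, y ≠ v ∧ dist u w = dist u y + dist y w

/-- `ρ` is a finite nonnegative combination of line pseudometrics. -/
def IsCut {V : Type} (ρ : V → V → ℝ) : Prop :=
  ∃ (I : Type) (_ : Fintype I) (w : I → ℝ) (σ : V → I → ℝ), (∀ i, 0 ≤ w i) ∧
    ∀ x y, ρ x y = ∑ i, w i * |σ x i - σ y i|

/-- Backward action of the kernels `T` along the `n` steps above `a`:
`back T par n a f s` is the expectation of `f` at `a` given the state `s` at `par^[n] a`. -/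
def back {V Ω : Type} [Fintype Ω] (T : V → Ω → Ω → ℝ) (par : V → V) :
    ℕ → V → (Ω → ℝ) → Ω → ℝ
  | 0, _, f => f
  | n + 1, a, f => fun s => ∑ s', T (par^[n] a) s s' * back T par n a f s'

namespace Elim

variable {V : Type} [MetricSpace V] {k : ℕ} (E : Elim V k)

/-- `t` is an ancestor of `u` (or `u` itself). -/
def Anc (t u : V) : Prop := ∃ n, E.par^[n] u = t

/-- distance to the bag of `s` -/
noncomputable def ds (z s : V) : ℝ := Metric.infDist z (E.S s : Set V)

/-- `z` lies below `t` or in the bag of `t`. -/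
def Rel (z t : V) : Prop := E.Anc t z ∨ z ∈ E.S t

theorem iter_r (n : ℕ) : E.par^[n] E.r = E.r := Function.iterate_fixed E.par_r n

theorem dep_iter (n : ℕ) (u : V) : E.dep (E.par^[n] u) = E.dep u - n := by
  induction n with
  | zero => simp
  | succ n ih =>
    rw [Function.iterate_succ_apply']
    by_cases h : E.par^[n] u = E.r
    · rw [h, E.par_r, E.dep_r]; rw [h, E.dep_r] at ih; omega
    · have := E.dep_par _ h; omega

theorem eq_r_of_dep {v : V} (h : E.dep v = 0) : v = E.r := by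
  by_contra hv
  have := E.dep_par v hv
  omega

theorem ne_r_of_lt {u : V} {n : ℕ} (h : n < E.dep u) : E.par^[n] u ≠ E.r := by
  intro h'
  have := E.dep_iter n u
  rw [h', E.dep_r] at this
  omega

theorem iter_dep (u : V) : E.par^[E.dep u] u = E.r :=
  E.eq_r_of_dep (by rw [E.dep_iter]; omega)

theorem anc_refl (u : V) : E.Anc u u := ⟨0, rfl⟩

theorem anc_iter (n : ℕ) (u : V) : E.Anc (E.par^[n] u) u := ⟨n, rfl⟩

theorem anc_par (u : V) : E.Anc (E.par u) u := ⟨1, rfl⟩

theorem anc_r (u : V) : E.Anc E.r u := ⟨E.dep u, E.iter_dep u⟩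

variable {E}

theorem Anc.trans {a b c : V} (h1 : E.Anc a b) (h2 : E.Anc b c) : E.Anc a c := by
  obtain ⟨n, rfl⟩ := h1
  obtain ⟨m, rfl⟩ := h2
  exact ⟨n + m, by rw [Function.iterate_add_apply]⟩

theorem Anc.dep_le {a b : V} (h : E.Anc a b) : E.dep a ≤ E.dep b := by
  obtain ⟨n, rfl⟩ := h
  rw [E.dep_iter]; omega

/-- an ancestor is reached after exactly the depth difference -/
theorem Anc.eq_iter {a b : V} (h : E.Anc a b) : E.par^[E.dep b - E.dep a] b = a := by
  obtain ⟨n, rfl⟩ := h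
  rw [E.dep_iter]
  by_cases hn : n ≤ E.dep b
  · congr 1; omega
  · have h1 : E.dep b - (E.dep b - n) = E.dep b := by omega
    rw [h1, E.iter_dep]
    exact (E.eq_r_of_dep (by rw [E.dep_iter]; omega)).symm

theorem Anc.eq_of_dep {a b : V} (h : E.Anc a b) (hd : E.dep b ≤ E.dep a) : a = b := by
  have := h.eq_iter
  rw [Nat.sub_eq_zero_of_le hd] at this
  exact this.symm

/-- ancestors of a common vertex are comparable by depth -/
theorem Anc.of_dep_le {a b u : V} (ha : E.Anc a u) (hb : E.Anc b u) (hd : E.dep a ≤ E.dep b) :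
    E.Anc a b := by
  refine ⟨E.dep b - E.dep a, ?_⟩
  have h1 := ha.dep_le
  have h2 := hb.dep_le
  conv_lhs => rw [← hb.eq_iter]
  rw [E.dep_iter, ← Function.iterate_add_apply]
  conv_rhs => rw [← ha.eq_iter]
  congr 1; omega

theorem Anc.par_of_ne {a b : V} (h : E.Anc a b) (hne : a ≠ b) : E.Anc a (E.par b) := by
  obtain ⟨n, rfl⟩ := h
  cases n with
  | zero => exact absurd rfl hne
  | succ n => exact ⟨n, by rw [Function.iterate_succ_apply]⟩

theorem anc_of_mem {y v : V} (h : y ∈ E.S v) : E.Anc y v := by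
  induction hn : E.dep v generalizing v with
  | zero =>
    have hv := E.eq_r_of_dep hn
    subst hv
    rw [E.S_r y h]; exact E.anc_refl _
  | succ n ih =>
    by_cases hy : y = v
    · rw [hy]; exact E.anc_refl _
    · have hv : v ≠ E.r := by
        intro hv; rw [hv, E.dep_r] at hn; omega
      have := E.dep_par v hv
      exact (ih (E.sub_par v y h hy) (by omega)).trans (E.anc_par v)

theorem not_mem_par {c : V} (hc : c ≠ E.r) : c ∉ E.S (E.par c) := by
  intro h
  have h1 := (anc_of_mem h).dep_le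
  have := E.dep_par c hc
  omega

/-- a bag element stays in all bags between its birth and the bag -/
theorem mem_of_anc {y v s : V} (h : y ∈ E.S v) (hs : E.Anc s v) (hd : E.dep y ≤ E.dep s) :
    y ∈ E.S s := by
  obtain ⟨n, rfl⟩ := hs
  induction n with
  | zero => exact h
  | succ n ih =>
    rw [Function.iterate_succ_apply'] at hd ⊢
    by_cases hr : E.par^[n] v = E.r
    · rw [hr, E.par_r] at hd ⊢
      rw [E.dep_r] at hd
      rw [E.eq_r_of_dep (Nat.le_zero.mp hd)]; exact E.self_mem _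
    · have h1 := E.dep_par _ hr
      refine E.sub_par _ y (ih (by omega)) ?_
      intro h2
      rw [h2] at hd; omega

theorem Rel.anc {z t s : V} (h : E.Rel z t) (hs : E.Anc s t) : E.Rel z s := by
  rcases h with h | h
  · exact Or.inl (hs.trans h)
  · by_cases hd : E.dep z ≤ E.dep s
    · exact Or.inr (mem_of_anc h hs hd)
    · exact Or.inl (hs.of_dep_le (anc_of_mem h) (by omega))

/-- the bag of `t` separates everything related to `t` from the ancestors of `t` -/
theorem Rel.split {z t w : V} (h : E.Rel z t) (hw : E.Anc w t) :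
    ∃ y ∈ E.S t, dist z w = dist z y + dist y w := by
  rcases h with h | h
  · by_cases hwt : w = t
    · exact ⟨t, E.self_mem t, by rw [hwt]; simp⟩
    · have : ¬ E.Anc t w := fun h' => hwt (hw.eq_of_dep h'.dep_le)
      obtain ⟨y, hy, -, e⟩ := E.sep t z w h this
      exact ⟨y, hy, e⟩
  · exact ⟨z, h, by simp⟩

theorem ds_nonneg (z s : V) : 0 ≤ E.ds z s := Metric.infDist_nonneg

theorem ds_le {z s y : V} (hy : y ∈ E.S s) : E.ds z s ≤ dist z y :=
  Metric.infDist_le_dist_of_mem (by exact_mod_cast hy)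

theorem ds_of_mem {z s : V} (hz : z ∈ E.S s) : E.ds z s = 0 :=
  le_antisymm (by simpa using ds_le (z := z) hz) (ds_nonneg z s)

theorem exists_ds (z s : V) : ∃ y ∈ E.S s, E.ds z s = dist z y := by
  obtain ⟨y, hy, e⟩ := (E.S s).finite_toSet.isCompact.exists_infDist_eq_dist
    ⟨s, by exact_mod_cast E.self_mem s⟩ z
  exact ⟨y, by exact_mod_cast hy, e⟩

theorem ds_le_add (z y s : V) : E.ds z s ≤ dist z y + E.ds y s := by
  have := Metric.infDist_le_infDist_add_dist (x := z) (y := y) (s := (E.S s : Set V))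
  unfold ds; linarith

theorem ds_lip (x y s : V) : |E.ds x s - E.ds y s| ≤ dist x y := by
  have h1 := ds_le_add (E := E) x y s
  have h2 := ds_le_add (E := E) y x s
  rw [dist_comm y x] at h2
  rw [abs_le]; constructor <;> linarith

theorem Rel.ds_split {z t s : V} (h : E.Rel z t) (hs : E.Anc s t) :
    ∃ y ∈ E.S t, E.ds z s = dist z y + E.ds y s := by
  obtain ⟨w, hw, e⟩ := exists_ds (E := E) z s
  obtain ⟨y, hy, e'⟩ := h.split ((anc_of_mem hw).trans hs)
  refine ⟨y, hy, le_antisymm (ds_le_add _ _ _) ?_⟩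
  have := ds_le (z := y) hw
  linarith

theorem Rel.ds_mono {z t s : V} (h : E.Rel z t) (hs : E.Anc s t) : E.ds z t ≤ E.ds z s := by
  obtain ⟨y, hy, e⟩ := h.ds_split hs
  have h1 := ds_le (z := z) hy
  have h2 := ds_nonneg (E := E) y s
  linarith

/-- a pseudometric that is `K`-Lipschitz inside every bag is `K`-Lipschitz -/
theorem lip_of_bag (ρ : V → V → ℝ) (K : ℝ) (hsymm : ∀ x y, ρ x y = ρ y x)
    (htri : ∀ x y z, ρ x z ≤ ρ x y + ρ y z)
    (hbag : ∀ t, ∀ x ∈ E.S t, ∀ y ∈ E.S t, ρ x y ≤ K * dist x y) (x y : V) :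
    ρ x y ≤ K * dist x y := by
  induction hn : E.dep x + E.dep y using Nat.strong_induction_on generalizing x y with
  | _ n ih =>
    wlog hd : E.dep y ≤ E.dep x generalizing x y
    · rw [hsymm, dist_comm]; exact this y x (by omega) (by omega)
    by_cases hxy : x = y
    · subst hxy; exact hbag x x (E.self_mem x) x (E.self_mem x)
    · have : ¬ E.Anc x y := fun h' => hxy (h'.eq_of_dep hd)
      obtain ⟨z, hz, hzx, e⟩ := E.sep x x y (E.anc_refl x) this
      have h1 := hbag x x (E.self_mem x) z hz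
      have h3 : E.dep z < E.dep x := by
        have h4 := anc_of_mem hz
        by_contra h5
        exact hzx (h4.eq_of_dep (by omega))
      have h2 := ih _ (by omega) z y rfl
      have := htri x z y
      rw [e, mul_add]; linarith

/-- recursion with choice along the tree -/
theorem exists_rec {α : Type} (P : V → α → Prop) (R : V → α → α → Prop)
    (h0 : ∃ a, P E.r a) (hs : ∀ c, c ≠ E.r → ∀ a, P (E.par c) a → ∃ a', P c a' ∧ R c a a') :
    ∃ f : V → α, (∀ v, P v (f v)) ∧ ∀ c, c ≠ E.r → R c (f (E.par c)) (f c) := by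
  classical
  choose g hg using hs
  obtain ⟨a0, ha0⟩ := h0
  let F : ∀ n : ℕ, ∀ v : V, E.dep v = n → {a // P v a} := fun n =>
    Nat.rec (fun v hv => ⟨a0, by rw [E.eq_r_of_dep hv]; exact ha0⟩)
      (fun n ih v hv =>
        have hr : v ≠ E.r := by intro h; rw [h, E.dep_r] at hv; omega
        have hp : E.dep (E.par v) = n := by have := E.dep_par v hr; omega
        ⟨g v hr (ih (E.par v) hp).1 (ih (E.par v) hp).2, (hg v hr _ _).1⟩) n
  refine ⟨fun v => (F (E.dep v) v rfl).1, fun v => (F (E.dep v) v rfl).2, fun c hc => ?_⟩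
  have key : ∀ n (h : E.dep c = n) (m : ℕ) (h' : E.dep (E.par c) = m),
      R c (F m (E.par c) h').1 (F n c h).1 := by
    intro n h m h'
    have h1 := E.dep_par c hc
    obtain rfl : n = m + 1 := by omega
    exact (hg c hc _ _).2
  exact key _ rfl _ rfl

end Elim

theorem IsCut.nonneg {V : Type} {ρ : V → V → ℝ} (h : IsCut ρ) (x y : V) : 0 ≤ ρ x y := by
  obtain ⟨I, _, w, σ, hw, e⟩ := h
  rw [e]; exact sum_nonneg fun i _ => mul_nonneg (hw i) (abs_nonneg _)

theorem IsCut.symm {V : Type} {ρ : V → V → ℝ} (h : IsCut ρ) (x y : V) : ρ x y = ρ y x := by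
  obtain ⟨I, _, w, σ, hw, e⟩ := h
  rw [e, e]; exact sum_congr rfl fun i _ => by rw [abs_sub_comm]

theorem IsCut.tri {V : Type} {ρ : V → V → ℝ} (h : IsCut ρ) (x y z : V) :
    ρ x z ≤ ρ x y + ρ y z := by
  obtain ⟨I, _, w, σ, hw, e⟩ := h
  rw [e, e, e, ← sum_add_distrib]
  refine sum_le_sum fun i _ => ?_
  rw [← mul_add]
  exact mul_le_mul_of_nonneg_left (abs_sub_le _ _ _) (hw i)

/-- length of the set of levels in `[-L, L)` whose superlevel set of `G` meets `S` in `A` -/
noncomputable def len {V : Type} [DecidableEq V] (L : ℝ) (S : Finset V) (G : V → ℝ)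
    (A : Finset V) : ℝ :=
  if A ⊆ S then max 0 (A.fold min L G - (S \ A).fold max (-L) G) else 0

/-- Hidden system: weights `W v` of hidden states at time `v`, functions `G h`, kernels `κ`. -/
structure HSys {V : Type} [MetricSpace V] [DecidableEq V] {k : ℕ} (E : Elim V k) (H : Type)
    [Fintype H] (K : ℝ) where
  W : V → H → ℝ
  G : H → V → ℝ
  κ : V → H → H → ℝ
  W0 : ∀ v h, 0 ≤ W v h
  W1 : ∀ v, ∑ h, W v h = 1
  κ0 : ∀ v h h', 0 ≤ κ v h h'
  κ1 : ∀ v h, ∑ h', κ v h h' = 1
  lip : ∀ v h, W v h ≠ 0 → ∀ x y, |G h x - G h y| ≤ K * dist x y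
  stat : ∀ c, c ≠ E.r → ∀ h', ∑ h, W (E.par c) h * κ c h h' = W c h'
  cons : ∀ L : ℝ, 0 < L → (∀ h y, |G h y| ≤ L) → ∀ c, c ≠ E.r → ∀ A h',
    ∑ h, W (E.par c) h * κ c h h' * len L (E.S (E.par c)) (G h) A
      = W c h' * len L (E.S (E.par c)) (G h') A

/-- sign values: `±(1/2 + j/(2J))` -/
noncomputable def sg {J : ℕ} (x : Bool × Fin J) : ℝ :=
  (if x.1 then 1 else -1) * (1 / 2 + (x.2 : ℝ) / (2 * J))

/-- flip the sign of the level `p` -/
def flp {ι Lv : Type} [DecidableEq Lv] {J : ℕ} (p : Lv) (h : ι × (Lv → Bool × Fin J)) :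
    ι × (Lv → Bool × Fin J) :=
  (h.1, Function.update h.2 p (!(h.2 p).1, (h.2 p).2))

/-- expectation of `f` under a finitely supported weight -/
noncomputable def ex {X : Type} (μ : X →₀ ℝ) (f : X → ℝ) : ℝ := μ.sum fun x w => w * f x

/-- total mass -/
noncomputable def mass {X : Type} (μ : X →₀ ℝ) : ℝ := μ.sum fun _ w => w

/-- The invariant of the merging machine at height `n` with centre `C`. -/
def Good {X Y : Type} [AddCommGroup X] [Module ℝ X] [AddCommGroup Y] [Module ℝ Y]
    (p : Seminorm ℝ Y) (F : X →ₗ[ℝ] Y) (s : X →ₗ[ℝ] ℝ) (P M : ℝ) :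
    ℕ → (X →₀ ℝ) → Y → Prop
  | 0, μ, C => (∀ x, 0 ≤ μ x) ∧ (μ.sum fun x w => w • F x) = mass μ • C ∧
      ∀ x ∈ μ.support, p (F x - C) + s x ≤ P
  | n + 1, μ, C => (∀ x, 0 ≤ μ x) ∧ (μ.sum fun x w => w • F x) = mass μ • C ∧
      (∀ x ∈ μ.support, p (F x - C) + s x ≤ M * 3 ^ (n + 1) * P) ∧
      ∃ (N : ℕ) (ν : Fin N → X →₀ ℝ) (B : Fin N → Y), ∑ b, ν b = μ ∧
        (∀ b, Good p F s P M n (ν b) (B b)) ∧
        ∑ b, mass (ν b) * p (B b - C) ^ 2 ≤ (3 ^ (n + 1) * P) ^ 2 * mass μ

/-- push every point `x` to the uniform distribution on the points `φ x z` -/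
noncomputable def push {X Z : Type} [Fintype Z] (φ : X → Z → X) (μ : X →₀ ℝ) : X →₀ ℝ :=
  μ.sum fun x w => ∑ z, Finsupp.single (φ x z) (w / Fintype.card Z)

/-- the logarithmic potential of a block of mass `w` with class masses `m c` -/
noncomputable def psi {C : Type} (Cl : Finset C) (q0 w : ℝ) (m : C → ℝ) : ℝ :=
  ∑ c ∈ Cl, w * Real.log ((m c / w + q0) / q0)

/-- a schedule of kept start times -/
structure IsKeep {V : Type} [MetricSpace V] {k : ℕ} (E : Elim V k) (N : ℕ)
    (Kp : V → Finset V) : Prop where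
  root : Kp E.r = ∅
  card : ∀ v, (Kp v).card ≤ N
  anc : ∀ v, ∀ s ∈ Kp v, E.Anc s v ∧ E.dep s < E.dep v
  sub : ∀ c, c ≠ E.r → ∀ s ∈ Kp c, s = E.par c ∨ s ∈ Kp (E.par c)

section Back

variable {V Ω : Type} [Fintype Ω] {T : V → Ω → Ω → ℝ} {par : V → V}

theorem back_zero (a : V) (f : Ω → ℝ) : back T par 0 a f = f := rfl

theorem back_succ (n : ℕ) (a : V) (f : Ω → ℝ) (s : Ω) :
    back T par (n + 1) a f s = ∑ s', T (par^[n] a) s s' * back T par n a f s' := rfl

theorem back_add (n j : ℕ) (a : V) (f : Ω → ℝ) :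
    back T par (n + j) a f = back T par j (par^[n] a) (back T par n a f) := by
  induction j with
  | zero => rfl
  | succ j ih =>
    funext s
    rw [← add_assoc, back_succ, back_succ, ih, ← Function.iterate_add_apply, add_comm j n]

theorem back_succ' (n : ℕ) (a : V) (f : Ω → ℝ) :
    back T par (n + 1) a f = back T par n (par a) (fun s => ∑ s', T a s s' * f s') := by
  rw [add_comm, back_add]; rfl

theorem back_lin (n : ℕ) (a : V) (f g : Ω → ℝ) (x y : ℝ) (s : Ω) :
    back T par n a (fun s => x * f s + y * g s) s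
      = x * back T par n a f s + y * back T par n a g s := by
  induction n generalizing s with
  | zero => rfl
  | succ n ih =>
    simp only [back_succ, ih, mul_sum, ← sum_add_distrib]
    exact sum_congr rfl fun _ _ => by ring

theorem back_mono (hT0 : ∀ v s s', 0 ≤ T v s s') (n : ℕ) (a : V) {f g : Ω → ℝ}
    (h : ∀ s, f s ≤ g s) (s : Ω) : back T par n a f s ≤ back T par n a g s := by
  induction n generalizing s with
  | zero => exact h s
  | succ n ih => exact sum_le_sum fun s' _ => mul_le_mul_of_nonneg_left (ih s') (hT0 _ _ _)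

theorem back_const (hT1 : ∀ v s, ∑ s', T v s s' = 1) (n : ℕ) (a : V) (x : ℝ) (s : Ω) :
    back T par n a (fun _ => x) s = x := by
  induction n generalizing s with
  | zero => rfl
  | succ n ih => simp only [back_succ, ih, ← sum_mul, hT1, one_mul]

end Back

/-- stationarity of the masses along a path -/
theorem back_stat {V Ω : Type} [MetricSpace V] [Fintype Ω] {k : ℕ} (E : Elim V k)
    {T : V → Ω → Ω → ℝ} {m : V → Ω → ℝ}
    (hm : ∀ v, v ≠ E.r → ∀ s', ∑ s, m (E.par v) s * T v s s' = m v s')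
    (n : ℕ) (a : V) (hn : n ≤ E.dep a) (f : Ω → ℝ) :
    ∑ s, m (E.par^[n] a) s * back T E.par n a f s = ∑ s, m a s * f s := by
  induction n with
  | zero => rfl
  | succ n ih =>
    rw [← ih (by omega), Function.iterate_succ_apply']
    simp only [back_succ, mul_sum]
    rw [sum_comm]
    refine sum_congr rfl fun s' _ => ?_
    rw [← hm _ (E.ne_r_of_lt (n := n) (u := a) (by omega)) s', sum_mul]
    exact sum_congr rfl fun _ _ => by ring

end Vale.Agent.P235
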