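import Vale.Agent.P235.Defs
import Vale.Agent.P235.Basic

namespace Vale.Agent.P235

open Finset

theorem embeds_of_cut {V : Type} (d ρ : V → V → ℝ) (hρ : IsCut ρ) (c K : ℝ) (hc : 0 < c)
    (lo : ∀ x y, c * d x y ≤ ρ x y) (hi : ∀ x y, ρ x y ≤ K * d x y) :
    EmbedsL1 d (K / c) := by
  obtain ⟨I, _, w, σ, hw, e⟩ := hρ
  let : MeasurableSpace I := ⊤
  have hm : ∀ x, MeasureTheory.MemLp (fun i => w i * σ x i / c) 1 MeasureTheory.Measure.count :=
    fun x => MeasureTheory.memLp_one_iff_integrable.2 MeasureTheory.Integrable.of_finite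
  refine ⟨I, ⊤, MeasureTheory.Measure.count, fun x => (hm x).toLp _, fun x y => ?_⟩
  have h1 : ‖(hm x).toLp _ - (hm y).toLp _‖ = ρ x y / c := by
    rw [← MeasureTheory.MemLp.toLp_sub, MeasureTheory.L1.norm_eq_integral_norm]
    refine (MeasureTheory.integral_congr_ae
      ((MeasureTheory.MemLp.coeFn_toLp _).fun_comp norm)).trans ?_
    rw [MeasureTheory.integral_count, e, sum_div]
    refine sum_congr rfl fun i _ => ?_
    rw [Function.comp_apply, Pi.sub_apply, ← sub_div, ← mul_sub, Real.norm_eq_abs, abs_div, abs_mul, abs_of_nonneg (hw i),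
      abs_of_pos hc]
  rw [h1, le_div_iff₀ hc, div_mul_eq_mul_div]
  exact ⟨by rw [mul_comm]; exact lo x y, div_le_div_of_nonneg_right (hi x y) hc.le⟩

theorem IsCut.avg {V B : Type} [Fintype B] (ρ : B → V → V → ℝ) (h : ∀ b, IsCut (ρ b)) :
    IsCut (fun x y => (∑ b, ρ b x y) / Fintype.card B) := by
  choose I hI w σ hw e using h
  refine ⟨Σ b, I b, inferInstance, fun p => w p.1 p.2 / Fintype.card B, fun x p => σ p.1 x p.2,
    fun p => div_nonneg (hw _ _) (Nat.cast_nonneg _), fun x y => ?_⟩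
  simp only [e, Fintype.sum_sigma, sum_div]
  exact sum_congr rfl fun _ _ => sum_congr rfl fun _ _ => by ring

/-- independent events on at most `n` coordinates, each of density at least `1/g` -/
theorem card_le_pow_mul {L B : Type} [Fintype L] [DecidableEq L] [Fintype B] [DecidableEq B]
    (D : Finset L) (Ev : L → Finset B) (g n : ℕ) (hg : 1 ≤ g) (hD : D.card ≤ n)
    (hEv : ∀ l ∈ D, Fintype.card B ≤ g * (Ev l).card) :
    Fintype.card (L → B)
      ≤ g ^ n * (univ.filter fun β : L → B => ∀ l ∈ D, β l ∈ Ev l).card := by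
  have h1 : (univ.filter fun β : L → B => ∀ l ∈ D, β l ∈ Ev l) =
      Fintype.piFinset fun l => if l ∈ D then Ev l else univ := by
    ext β
    simp only [mem_filter, mem_univ, true_and, Fintype.mem_piFinset]
    refine forall_congr' fun l => ?_
    split_ifs with h <;> simp [h]
  have h2 : g ^ D.card = ∏ l, if l ∈ D then g else 1 := by simp
  rw [h1, Fintype.card_piFinset, Fintype.card_pi]
  refine le_trans ?_ (Nat.mul_le_mul_right _ (Nat.pow_le_pow_right hg hD))
  rw [h2, ← prod_mul_distrib]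
  refine prod_le_prod' fun l _ => ?_
  split_ifs with h
  · exact hEv l h
  · simp

/-- an event that fixes the coordinate `q` given the others has density at most `1/|B|` -/
theorem card_mul_le_of_unique {L B : Type} [Fintype L] [DecidableEq L] [Fintype B]
    [DecidableEq B] (q : L) (A : Finset (L → B))
    (hA : ∀ (ε : L → B) (b b' : B), Function.update ε q b ∈ A → Function.update ε q b' ∈ A →
      b = b') :
    A.card * Fintype.card B ≤ Fintype.card (L → B) := by
  rw [← card_univ (α := B), ← card_product, ← card_univ]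
  refine card_le_card_of_injOn (fun p => Function.update p.1 q p.2) (fun _ _ => mem_univ _) ?_
  rintro ⟨ε, b⟩ h ⟨ε', b'⟩ h' e
  have e1 : b = b' := by simpa using congrFun e q
  have e2 : ε' = Function.update ε q (ε' q) := by
    simpa using congrArg (fun f => Function.update f q (ε' q)) e.symm
  have e3 := hA ε (ε q) (ε' q) (by simpa using (mem_product.1 h).1) (e2 ▸ (mem_product.1 h').1)
  rw [← e3, Function.update_eq_self] at e2
  rw [e1, e2]

theorem sg_flip {J : ℕ} (x : Bool × Fin J) : sg (!x.1, x.2) = - sg x := by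
  obtain ⟨b, j⟩ := x
  cases b <;> simp [sg]

theorem abs_sg {J : ℕ} (x : Bool × Fin J) : |sg x| = 1 / 2 + (x.2 : ℝ) / (2 * J) := by
  have : (0 : ℝ) ≤ 1 / 2 + (x.2 : ℝ) / (2 * J) := by positivity
  rw [sg, abs_mul, abs_of_nonneg this]
  split_ifs <;> simp

theorem abs_sg_le {J : ℕ} (x : Bool × Fin J) : |sg x| ≤ 1 := by
  have h1 : ((x.2 : ℕ) : ℝ) ≤ J := by exact_mod_cast x.2.2.le
  have h2 : (0 : ℝ) < J := by exact_mod_cast x.2.pos
  have h3 : ((x.2 : ℕ) : ℝ) / (2 * J) ≤ 1 / 2 := by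
    rw [div_le_iff₀ (by positivity)]; linarith
  rw [abs_sg]; linarith

theorem sq_sg_ge {J : ℕ} (x : Bool × Fin J) : 1 / 4 ≤ sg x ^ 2 := by
  have : (0 : ℝ) ≤ (x.2 : ℝ) / (2 * J) := by positivity
  rw [← sq_abs, abs_sg]; nlinarith

theorem sg_sep {J : ℕ} (x y : Bool × Fin J) (h : x ≠ y) : 1 / (2 * (J : ℝ)) ≤ |sg x - sg y| := by
  have h2 : (1 : ℝ) ≤ J := by exact_mod_cast x.2.pos
  have h3 : 1 / (2 * (J : ℝ)) ≤ 1 := by rw [div_le_one (by positivity)]; linarith
  have h4 : (0 : ℝ) ≤ (x.2 : ℝ) / (2 * J) := by positivity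
  have h5 : (0 : ℝ) ≤ (y.2 : ℝ) / (2 * J) := by positivity
  have h6 : x.1 = y.1 → 1 / (2 * (J : ℝ)) ≤ |(x.2 : ℝ) / (2 * J) - (y.2 : ℝ) / (2 * J)| := fun e => by
    have h7 : ((x.2 : ℕ) : ℤ) - (y.2 : ℕ) ≠ 0 := fun c =>
      h (Prod.ext e (Fin.ext (by omega)))
    have h8 : (1 : ℝ) ≤ |((x.2 : ℕ) : ℝ) - (y.2 : ℕ)| := by exact_mod_cast Int.one_le_abs h7
    rw [← sub_div, abs_div, abs_of_pos (show (0 : ℝ) < 2 * J by positivity)]
    gcongr
  obtain ⟨a, i⟩ := x
  obtain ⟨b, j⟩ := y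
  cases a <;> cases b <;> simp only [sg, Bool.false_eq_true, if_false, if_true] at *
  · convert h6 trivial using 1
    rw [← abs_neg]; congr 1; ring
  · exact le_abs.2 (Or.inr (by linarith))
  · exact le_abs.2 (Or.inl (by linarith))
  · convert h6 trivial using 2
    ring

theorem sum_sg {J : ℕ} : ∑ x : Bool × Fin J, sg x = 0 := by
  simp [Fintype.sum_prod_type, sg, ← sum_add_distrib]

/-- the number of dyadic scales seen by a bag -/
theorem card_scales {V : Type} [MetricSpace V] (S : Finset V) (Sc : Finset ℤ)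
    [DecidablePred fun j : ℤ =>
      ∃ x ∈ S, ∃ y ∈ S, (2 : ℝ) ^ j / 2 ≤ dist x y ∧ dist x y ≤ 4 * (2 : ℝ) ^ j] :
    (Sc.filter fun j : ℤ =>
      ∃ x ∈ S, ∃ y ∈ S, (2 : ℝ) ^ j / 2 ≤ dist x y ∧ dist x y ≤ 4 * (2 : ℝ) ^ j).card
      ≤ 4 * S.card ^ 2 := by
  refine (card_le_card (t := (S ×ˢ S).biUnion fun p =>
    Icc (Int.log 2 (dist p.1 p.2) - 2) (Int.log 2 (dist p.1 p.2) + 1)) fun j hj => ?_).trans ?_
  · obtain ⟨-, x, hx, y, hy, h1, h2⟩ := mem_filter.1 hj
    have h0 : 0 < dist x y := lt_of_lt_of_le (by positivity) h1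
    refine mem_biUnion.2 ⟨(x, y), mem_product.2 ⟨hx, hy⟩, mem_Icc.2 ⟨?_, ?_⟩⟩
    · have : Int.log 2 (dist x y) < j + 3 := (Int.lt_zpow_iff_log_lt one_lt_two h0).1 (by
        rw [zpow_add₀ (by norm_num)]
        have : (0 : ℝ) < 2 ^ j := by positivity
        norm_num
        linarith)
      dsimp only
      omega
    · have : j - 1 ≤ Int.log 2 (dist x y) := (Int.zpow_le_iff_le_log one_lt_two h0).1 (by
        rw [zpow_sub₀ (by norm_num)]
        simpa using h1)
      dsimp only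
      omega
  · refine card_biUnion_le.trans ((sum_le_card_nsmul _ _ 4 fun p _ => ?_).trans ?_)
    · rw [Int.card_Icc]; omega
    · rw [card_product, smul_eq_mul, sq, mul_comm]

end Vale.Agent.P235
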