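import Mathlib

namespace Vale.Agent.P235

open MeasureTheory

/-- The shortest-path distance `d_{G,len}`: the infimum of the total edge length of the walks
from `u` to `v`. -/
noncomputable def pathDist {V : Type} (G : SimpleGraph V) (len : Sym2 V → ℝ) (u v : V) : ℝ :=
  sInf {x : ℝ | ∃ w : G.Walk u v, x = (w.edges.map len).sum}

/-- `G` has a tree decomposition of width at most `k`: a finite tree `T` with bags such that
every edge lies in a bag, the bags containing any vertex form a nonempty subtree, and every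
bag has at most `k + 1` vertices. -/
def TreewidthLE {V : Type} (G : SimpleGraph V) (k : ℕ) : Prop :=
  ∃ (ι : Type) (_ : Finite ι) (T : SimpleGraph ι) (bag : ι → Finset V),
    T.IsTree ∧
    (∀ u v, G.Adj u v → ∃ t, u ∈ bag t ∧ v ∈ bag t) ∧
    (∀ v, (T.induce {t | v ∈ bag t}).Connected) ∧
    (∀ t, (bag t).card ≤ k + 1)

/-- `(X, d)` embeds into a real `L_1` space with distortion at most `C`. -/
def EmbedsL1 {X : Type} (d : X → X → ℝ) (C : ℝ) : Prop :=
  ∃ (Ω : Type) (_ : MeasurableSpace Ω) (μ : Measure Ω) (f : X → Lp ℝ 1 μ),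
    ∀ x y, d x y ≤ ‖f x - f y‖ ∧ ‖f x - f y‖ ≤ C * d x y

end Vale.Agent.P235
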