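import Vale.Agent.P235.Basic

namespace Vale.Agent.P235

open Finset

theorem psi_nonneg {C : Type} (Cl : Finset C) {q0 w : ℝ} {m : C → ℝ} (hq0 : 0 < q0)
    (hw : 0 ≤ w) (hm : ∀ c ∈ Cl, 0 ≤ m c) : 0 ≤ psi Cl q0 w m := by
  refine sum_nonneg fun c hc => mul_nonneg hw (Real.log_nonneg ?_)
  rw [le_div_iff₀ hq0]
  linarith [div_nonneg (hm c hc) hw]

theorem psi_le {C : Type} (Cl : Finset C) {q0 w : ℝ} {m : C → ℝ} (hq0 : 0 < q0)
    (hw : 0 ≤ w) (hm : ∀ c ∈ Cl, 0 ≤ m c ∧ m c ≤ w) :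
    psi Cl q0 w m ≤ Cl.card * Real.log ((1 + q0) / q0) * w := by
  rw [mul_assoc, ← nsmul_eq_mul]
  refine sum_le_card_nsmul _ _ _ fun c hc => ?_
  have h1 := div_nonneg (hm c hc).1 hw
  have h2 := div_le_one_of_le₀ (hm c hc).2 hw
  rw [mul_comm]
  gcongr

theorem drop_log {x : ℝ} (hx : 0 < x) : (√x - 1) ^ 2 ≤ x - 1 - Real.log x := by
  have h1 := Real.log_le_sub_one_of_pos (Real.sqrt_pos.2 hx)
  rw [Real.log_sqrt hx.le] at h1
  nlinarith [Real.sq_sqrt hx.le]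

theorem drop_pt {x d L : ℝ} (hx : 0 < x) (hd : 0 ≤ d) (hL : d ≤ L) :
    23 * L * (|x - 1| * d) ≤ 288 * L ^ 2 * (x - 1 - Real.log x) + 2 * d ^ 2 := by
  have h1 := drop_log hx
  have h2 := Real.sq_sqrt hx.le
  have h3 := Real.sqrt_nonneg x
  generalize √x = r at *
  subst h2
  have h4 : |r ^ 2 - 1| = |r - 1| * (r + 1) := by
    rw [show r ^ 2 - 1 = (r - 1) * (r + 1) by ring, abs_mul, abs_of_nonneg (a := r + 1) (by linarith)]
  have h5 : (r + 1) ^ 2 ≤ 2 * (2 + |r ^ 2 - 1|) := by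
    nlinarith [le_abs_self (r ^ 2 - 1), sq_nonneg (r - 1)]
  have h6 : |r ^ 2 - 1| * d * d ≤ |r ^ 2 - 1| * d * L := by gcongr
  have h7 := mul_le_mul_of_nonneg_right h5 (sq_nonneg d)
  have h8 := mul_le_mul_of_nonneg_left h1 (sq_nonneg L)
  have h9 := sq_nonneg (24 * L * |r - 1| - (r + 1) * d)
  rw [← sq_abs (r - 1)] at h8
  rw [h4] at h6 h7 ⊢
  nlinarith

/-- an informative split lowers the potential -/
theorem psi_drop {Y C : Type} [AddCommGroup Y] [Module ℝ Y] (p : Seminorm ℝ Y) {N : ℕ}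
    (Cl : Finset C) (w : Fin N → ℝ) (m : Fin N → C → ℝ) (Δ : Fin N → Y) {η M q0 : ℝ}
    (hm0 : ∀ b c, 0 ≤ m b c) (hmw : ∀ b, ∑ c ∈ Cl, m b c = w b)
    (hmean : ∑ b, w b • Δ b = 0)
    (hvar : ∑ b, w b * p (Δ b) ^ 2 ≤ η ^ 2 * ∑ b, w b)
    (hsup : ∀ b, w b ≠ 0 → p (Δ b) ≤ M * η) (hη : 0 < η) (hM : 1 ≤ M) (hq0 : 0 < q0)
    (hq : Cl.card * q0 * (8 * M ^ 2) ≤ 1)
    (hbig : η ^ 2 * (∑ b, w b) / 4 < ∑ c ∈ Cl, p (∑ b, m b c • Δ b) ^ 2 / ∑ b, m b c) :
    ∑ b, psi Cl q0 (w b) (m b) + (∑ b, w b) / (160 * M)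
      ≤ psi Cl q0 (∑ b, w b) (fun c => ∑ b, m b c) := by
  have w0 : ∀ b, 0 ≤ w b := fun b => hmw b ▸ sum_nonneg fun c _ => hm0 b c
  have mz : ∀ b, w b = 0 → ∀ c ∈ Cl, m b c = 0 := fun b hb =>
    (sum_eq_zero_iff_of_nonneg fun c _ => hm0 b c).1 ((hmw b).trans hb)
  have mw : ∀ b, ∀ c ∈ Cl, w b * (m b c / w b) = m b c := fun b c hc => by
    by_cases hb : w b = 0
    · simp [hb, mz b hb c hc]
    · field_simp
  obtain ⟨W, hW⟩ : ∃ W, W = ∑ b, w b := ⟨_, rfl⟩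
  have W0 : 0 < W := by
    refine (hW ▸ sum_nonneg fun b _ => w0 b : 0 ≤ W).lt_of_ne' fun h => ?_
    have h1 := (sum_eq_zero_iff_of_nonneg fun b _ => w0 b).1 (hW.symm.trans h)
    rw [← hW, h, sum_eq_zero fun c hc => by
      rw [sum_eq_zero fun b hb => mz b (h1 b hb) c hc, div_zero]] at hbig
    simp at hbig
  obtain ⟨q, hqd⟩ : ∃ q : C → ℝ, ∀ c, q c = (∑ b, m b c) / W := ⟨_, fun _ => rfl⟩
  have q0' : ∀ c, 0 ≤ q c := fun c => hqd c ▸ div_nonneg (sum_nonneg fun b _ => hm0 b c) W0.le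
  have qW : ∀ c, ∑ b, m b c = q c * W := fun c => by rw [hqd]; field_simp
  have q1 : ∑ c ∈ Cl, q c = 1 := by
    simp only [hqd]
    rw [← sum_div, sum_comm, sum_congr rfl fun b _ => hmw b, ← hW, div_self W0.ne']
  obtain ⟨x, hx⟩ : ∃ x : Fin N → C → ℝ, ∀ b c, x b c = (m b c / w b + q0) / (q c + q0) :=
    ⟨_, fun _ _ => rfl⟩
  have n0 : ∀ b c, 0 < m b c / w b + q0 := fun b c => by linarith [div_nonneg (hm0 b c) (w0 b)]
  have d0 : ∀ c, 0 < q c + q0 := fun c => by linarith [q0' c]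
  have x0 : ∀ b c, 0 < x b c := fun b c => hx b c ▸ div_pos (n0 b c) (d0 c)
  have x1 : ∀ b, ∀ c ∈ Cl, (q c + q0) * (w b * (x b c - 1)) = m b c - q c * w b := fun b c hc => by
    have := (d0 c).ne'
    have h1 := mw b c hc
    rw [hx]
    generalize m b c / w b = r at h1 ⊢
    rw [← h1]
    field_simp
    ring
  have x2 : ∀ c ∈ Cl, ∑ b, w b * (x b c - 1) = 0 := fun c hc => by
    refine (mul_eq_zero.1 ?_).resolve_left (d0 c).ne'
    rw [mul_sum, sum_congr rfl fun b _ => x1 b c hc, sum_sub_distrib, ← mul_sum, ← hW, qW, sub_self]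
  have k0 : ∀ c, 0 ≤ ∑ b, w b * (x b c - 1 - Real.log (x b c)) := fun c =>
    sum_nonneg fun b _ => mul_nonneg (w0 b) ((sq_nonneg _).trans (drop_log (x0 b c)))
  have k1 : psi Cl q0 W (fun c => ∑ b, m b c) = ∑ b, psi Cl q0 (w b) (m b) +
      ∑ c ∈ Cl, ∑ b, w b * (x b c - 1 - Real.log (x b c)) := by
    simp only [psi, ← hqd]
    rw [sum_comm, ← sum_add_distrib]
    refine sum_congr rfl fun c hc => ?_
    have h1 : ∀ b, w b * Real.log ((m b c / w b + q0) / q0) + w b * (x b c - 1 - Real.log (x b c))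
        = w b * (x b c - 1) + w b * Real.log ((q c + q0) / q0) := fun b => by
      rw [Real.log_div (n0 b c).ne' hq0.ne', Real.log_div (d0 c).ne' hq0.ne']
      conv_lhs => rw [show Real.log (x b c) = Real.log (m b c / w b + q0) - Real.log (q c + q0) by
        rw [hx, Real.log_div (n0 b c).ne' (d0 c).ne']]
      ring
    rw [← sum_add_distrib, sum_congr rfl fun b _ => h1 b, sum_add_distrib, x2 c hc, ← sum_mul, ← hW,
      zero_add]
  have psub : ∀ a : Fin N → ℝ, p (∑ b, a b • Δ b) ≤ ∑ b, |a b| * p (Δ b) := fun a =>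
    (le_sum_of_subadditive p (map_zero p).le (map_add_le_add p) _ _).trans
      (sum_le_sum fun b _ => by rw [map_smul_eq_mul, Real.norm_eq_abs])
  obtain ⟨c, hc, hY⟩ : ∃ c ∈ Cl, η * W / 6 < ∑ b, w b * (|x b c - 1| * p (Δ b)) := by
    by_contra hne
    push Not at hne
    have key : ∀ c ∈ Cl, p (∑ b, m b c • Δ b) ^ 2 / ∑ b, m b c ≤
        q0 * M ^ 2 * (η ^ 2 * W) + q c * (η ^ 2 * W / 9) := fun c hc => by
      have a0 := q0' c
      have a1 := apply_nonneg p (∑ b, m b c • Δ b)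
      rw [qW]
      refine div_le_of_le_mul₀ (by positivity) (by positivity) ?_
      by_cases hs : q c ≤ q0
      · have h1 : p (∑ b, m b c • Δ b) ≤ q c * W * (M * η) := by
          rw [← qW, sum_mul]
          refine (psub _).trans (sum_le_sum fun b _ => ?_)
          rw [abs_of_nonneg (hm0 b c)]
          by_cases hb : w b = 0
          · simp [mz b hb c hc]
          · exact mul_le_mul_of_nonneg_left (hsup b hb) (hm0 b c)
        calc _ ≤ (q c * W * (M * η)) ^ 2 := by gcongr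
          _ = q c * M ^ 2 * (η ^ 2 * W) * (q c * W) := by ring
          _ ≤ (q0 * M ^ 2 * (η ^ 2 * W) + 0) * (q c * W) := by rw [add_zero]; gcongr
          _ ≤ _ := by gcongr; positivity
      · have h1 : ∑ b, m b c • Δ b = ∑ b, ((q c + q0) * (w b * (x b c - 1))) • Δ b := by
          simp only [x1 _ c hc, sub_smul, mul_smul, sum_sub_distrib, ← smul_sum, hmean]
          simp
        have h2 : p (∑ b, m b c • Δ b) ≤ 2 * q c * (η * W / 6) := by
          rw [h1]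
          refine (psub _).trans ?_
          have h3 : ∑ b, |(q c + q0) * (w b * (x b c - 1))| * p (Δ b) =
              (q c + q0) * ∑ b, w b * (|x b c - 1| * p (Δ b)) := by
            rw [mul_sum]
            refine sum_congr rfl fun b _ => ?_
            rw [abs_mul, abs_mul, abs_of_pos (d0 c), abs_of_nonneg (w0 b)]; ring
          rw [h3]
          exact mul_le_mul (by linarith) (hne c hc) (sum_nonneg fun b _ =>
            mul_nonneg (w0 b) (mul_nonneg (abs_nonneg _) (apply_nonneg _ _))) (by positivity)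
        calc _ ≤ (2 * q c * (η * W / 6)) ^ 2 := by gcongr
          _ = (0 + q c * (η ^ 2 * W / 9)) * (q c * W) := by ring
          _ ≤ _ := by gcongr; positivity
    have h1 := hbig.trans_le (sum_le_sum key)
    rw [sum_add_distrib, ← sum_mul _ q, q1, sum_const, nsmul_eq_mul, ← hW] at h1
    have h2 : 0 < η ^ 2 * W := by positivity
    nlinarith [mul_le_mul_of_nonneg_right hq h2.le]
  have h1 : 23 * (M * η) * ∑ b, w b * (|x b c - 1| * p (Δ b)) ≤ 288 * (M * η) ^ 2 *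
      ∑ b, w b * (x b c - 1 - Real.log (x b c)) + 2 * ∑ b, w b * p (Δ b) ^ 2 := by
    rw [mul_sum, mul_sum, mul_sum, ← sum_add_distrib]
    refine sum_le_sum fun b _ => ?_
    by_cases hb : w b = 0
    · simp [hb]
    · nlinarith [mul_le_mul_of_nonneg_left (drop_pt (x0 b c) (apply_nonneg p _) (hsup b hb)) (w0 b)]
  have h2 := single_le_sum (f := fun c => ∑ b, w b * (x b c - 1 - Real.log (x b c)))
    (fun c _ => k0 c) hc
  rw [← hW] at hvar ⊢
  rw [k1]
  have h3 : W / (160 * M) ≤ ∑ b, w b * (x b c - 1 - Real.log (x b c)) := by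
    generalize ∑ b, w b * (x b c - 1 - Real.log (x b c)) = κ at *
    rw [div_le_iff₀ (by positivity)]
    have h4 := mul_le_mul_of_nonneg_left hY.le (show 0 ≤ 23 * (M * η) by positivity)
    have h5 : η ^ 2 * W * 1 ≤ η ^ 2 * W * M := by gcongr
    have h6 : 0 < M * η ^ 2 := by positivity
    refine le_of_mul_le_mul_left ?_ h6
    have h7 : 0 ≤ M * η ^ 2 * W := by positivity
    nlinarith
  linarith

/-- choice of the height `m` and of the ratio `M` -/
theorem exists_params (Q : ℕ) (δ : ℝ) (hδ : 0 < δ) :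
    ∃ (m : ℕ) (M q0 : ℝ), 1 ≤ M ∧ 0 < q0 ∧ Q * q0 * (8 * M ^ 2) ≤ 1 ∧ 0 < m ∧
      m * (9 / M ^ 2) ≤ δ / 2 ∧ Q * Real.log ((1 + q0) / q0) * (160 * M) ≤ δ / 2 * m := by
  obtain ⟨c, hc⟩ := exists_nat_gt (320 * Q * (9 * (Q + 1) + 4) / δ)
  obtain ⟨a, ha⟩ := exists_nat_gt (18 * c / δ)
  have c0 : (0 : ℝ) < c := lt_of_le_of_lt (by positivity) hc
  have a0 : (0 : ℝ) < a := lt_of_le_of_lt (by positivity) ha
  have a1 : (1 : ℝ) ≤ a := by exact_mod_cast (show 0 < a by exact_mod_cast a0)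
  rw [div_lt_iff₀ hδ] at hc ha
  have hQ : (0 : ℝ) ≤ Q := Nat.cast_nonneg _
  refine ⟨a ^ 3 * c, a ^ 2, 1 / (8 * (Q + 1) * a ^ 4), one_le_pow₀ a1, by positivity, ?_,
    by exact_mod_cast (show (0 : ℝ) < a ^ 3 * c by positivity), ?_, ?_⟩
  · rw [show (Q : ℝ) * (1 / (8 * (Q + 1) * a ^ 4)) * (8 * (a ^ 2) ^ 2) = Q / (Q + 1) by field_simp]
    exact div_le_one_of_le₀ (by linarith) (by positivity)
  · push_cast
    rw [show (a : ℝ) ^ 3 * c * (9 / (a ^ 2) ^ 2) = 9 * c / a by field_simp, div_le_iff₀ a0]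
    linarith
  · have h1 : (1 + 1 / (8 * (Q + 1) * a ^ 4)) / (1 / (8 * (Q + 1) * a ^ 4)) ≤
        9 * ((Q : ℝ) + 1) * a ^ 4 := by
      rw [show (1 + 1 / (8 * ((Q : ℝ) + 1) * a ^ 4)) / (1 / (8 * (Q + 1) * a ^ 4)) =
        8 * (Q + 1) * a ^ 4 + 1 by field_simp]
      nlinarith [one_le_pow₀ a1 (n := 4)]
    have h2 := Real.log_le_log (by positivity) h1
    rw [Real.log_mul (by positivity) (by positivity), Real.log_pow] at h2
    have h3 := Real.log_le_sub_one_of_pos (show 0 < 9 * ((Q : ℝ) + 1) by positivity)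
    have h4 := Real.log_le_sub_one_of_pos a0
    have h5 : Real.log ((1 + 1 / (8 * (Q + 1) * a ^ 4)) / (1 / (8 * (Q + 1) * a ^ 4))) ≤
        (9 * ((Q : ℝ) + 1) + 4) * a := by
      push_cast at h2
      nlinarith
    push_cast
    calc _ ≤ Q * ((9 * ((Q : ℝ) + 1) + 4) * a) * (160 * a ^ 2) := by gcongr
      _ = 320 * Q * (9 * (Q + 1) + 4) * (a ^ 3 / 2) := by ring
      _ ≤ c * δ * (a ^ 3 / 2) := by gcongr
      _ = _ := by ring

end Vale.Agent.P235
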