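import Vale.Agent.P235.Basic

namespace Vale.Agent.P235

open Finset

variable {V : Type} [DecidableEq V] {L : ℝ} {S : Finset V} {G : V → ℝ}

theorem len_nonneg (A : Finset V) : 0 ≤ len L S G A := by
  unfold len
  split_ifs
  · exact le_max_left _ _
  · exact le_rfl

theorem len_subset {A : Finset V} (h : len L S G A ≠ 0) : A ⊆ S := by
  by_contra hA
  exact h (if_neg hA)

theorem len_eq {A : Finset V} (h : A ⊆ S) :
    len L S G A = max 0 (A.fold min L G - (S \ A).fold max (-L) G) := if_pos h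

theorem len_congr {G' : V → ℝ} (h : ∀ y ∈ S, G y = G' y) (A : Finset V) :
    len L S G A = len L S G' A := by
  by_cases hA : A ⊆ S
  · rw [len_eq hA, len_eq hA, fold_congr fun x hx => h x (hA hx),
      fold_congr fun x hx => h x (mem_sdiff.1 hx).1]
  · rw [len, len, if_neg hA, if_neg hA]

theorem len_insert {c : V} (hc : c ∉ S) {B : Finset V} (hB : B ⊆ S) :
    len L S G B = len L (insert c S) G B + len L (insert c S) G (insert c B) := by
  have hcB : c ∉ B := fun h => hc (hB h)
  have e1 : insert c S \ B = insert c (S \ B) := insert_sdiff_of_notMem _ hcB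
  have e2 : insert c S \ insert c B = S \ B := by
    ext x
    simp only [mem_sdiff, mem_insert]
    constructor
    · rintro ⟨h1 | h1, h2⟩
      · exact absurd (Or.inl h1) h2
      · exact ⟨h1, fun h => h2 (Or.inr h)⟩
    · rintro ⟨h1, h2⟩
      exact ⟨Or.inr h1, fun h => h.elim (fun h => hc (h ▸ h1)) h2⟩
  rw [len_eq hB, len_eq (hB.trans (subset_insert _ _)), len_eq (insert_subset_insert _ hB), e1, e2,
    fold_insert hcB, fold_insert (fun h => hc (mem_sdiff.1 h).1)]
  simp only [max_def, min_def]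
  split_ifs <;> linarith

/-- sets of positive length are upper sets -/
theorem len_upper {A : Finset V} (h : len L S G A ≠ 0) {x y : V} (hx : x ∈ A) (hy : y ∈ S)
    (hxy : G x ≤ G y) : y ∈ A := by
  by_contra hyA
  apply h
  rw [len_eq (len_subset h)]
  have h1 : A.fold min L G ≤ G x := (fold_min_le _).2 (Or.inr ⟨x, hx, le_rfl⟩)
  have h2 : G y ≤ (S \ A).fold max (-L) G :=
    (le_fold_max _).2 (Or.inr ⟨y, mem_sdiff.2 ⟨hy, hyA⟩, le_rfl⟩)
  exact max_eq_left (by linarith)

theorem len_nested {A A' : Finset V} (h : len L S G A ≠ 0) (h' : len L S G A' ≠ 0) :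
    A ⊆ A' ∨ A' ⊆ A := by
  by_cases hA : A ⊆ A'
  · exact Or.inl hA
  · obtain ⟨x, hx, hx'⟩ := not_subset.1 hA
    refine Or.inr fun y hy => ?_
    rcases le_total (G x) (G y) with hxy | hxy
    · exact len_upper h hx (len_subset h' hy) hxy
    · exact absurd (len_upper h' hy (len_subset h hx) hxy) hx'

variable [Fintype V]

theorem len_sum_powerset (φ : Finset V → ℝ) :
    ∑ A, len L S G A * φ A = ∑ A ∈ S.powerset, len L S G A * φ A := by
  refine (sum_subset (subset_univ _) fun A _ hA => ?_).symm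
  rw [len, if_neg (by simpa using hA), zero_mul]

theorem len_step {c : V} (hc : c ∉ S) (φ : Finset V → ℝ) (hφ : ∀ B, φ (insert c B) = φ B) :
    ∑ A, len L (insert c S) G A * φ A = ∑ B, len L S G B * φ B := by
  rw [len_sum_powerset, len_sum_powerset, sum_powerset_insert hc, ← sum_add_distrib]
  refine sum_congr rfl fun B hB => ?_
  rw [len_insert hc (mem_powerset.1 hB), hφ]
  ring

theorem len_restrict {S' : Finset V} (hS : S' ⊆ S) (φ : Finset V → ℝ) :
    ∑ A, len L S G A * φ (A ∩ S') = ∑ B, len L S' G B * φ B := by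
  have key : ∀ T : Finset V, Disjoint T S' →
      ∑ A, len L (T ∪ S') G A * φ (A ∩ S') = ∑ B, len L S' G B * φ B := by
    intro T
    induction T using Finset.induction_on with
    | empty =>
      intro _
      rw [empty_union]
      refine sum_congr rfl fun A _ => ?_
      by_cases h : len L S' G A = 0
      · rw [h, zero_mul, zero_mul]
      · rw [inter_eq_left.2 (len_subset h)]
    | insert c T hc ih =>
      intro hd
      rw [disjoint_insert_left] at hd
      rw [insert_union, len_step (by simp [hc, hd.1]) _ fun B => by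
        rw [insert_inter_of_notMem hd.1], ih hd.2]
  have := key (S \ S') sdiff_disjoint
  rwa [sdiff_union_of_subset hS] at this

theorem len_total (hL : 0 ≤ L) : ∑ A, len L S G A = 2 * L := by
  have := len_restrict (L := L) (G := G) (empty_subset S) fun _ => 1
  rw [len_sum_powerset (S := ∅)] at this
  simp only [mul_one, powerset_empty, sum_singleton] at this
  rw [this, len_eq Subset.rfl]
  simp only [fold_empty, sdiff_self, bot_eq_empty]
  rw [max_eq_right (by linarith)]
  ring

theorem len_mem {y : V} (hy : y ∈ S) (hG : |G y| ≤ L) :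
    ∑ A, len L S G A * (if y ∈ A then 1 else 0) = L + G y := by
  have := len_restrict (L := L) (G := G) (singleton_subset_iff.2 hy)
    fun B => if y ∈ B then 1 else 0
  simp only [mem_inter, mem_singleton, and_true] at this
  rw [this, sum_eq_single {y}]
  · rw [len_eq Subset.rfl]
    have := abs_le.1 hG
    simp only [fold_singleton, sdiff_self, bot_eq_empty, fold_empty, mem_singleton, if_true]
    rw [min_eq_left this.2, max_eq_right (by linarith)]
    ring
  · intro B _ hB
    by_cases h : len L {y} G B = 0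
    · rw [h, zero_mul]
    · rcases subset_singleton_iff.1 (len_subset h) with rfl | rfl
      · simp
      · exact absurd rfl hB
  · simp

theorem len_sep {x y : V} (hx : x ∈ S) (hy : y ∈ S) (hGx : |G x| ≤ L) (hGy : |G y| ≤ L) :
    ∑ A, len L S G A * |(if x ∈ A then (1 : ℝ) else 0) - (if y ∈ A then 1 else 0)|
      = |G x - G y| := by
  wlog hxy : G y ≤ G x generalizing x y
  · rw [abs_sub_comm (G x), ← this hy hx hGy hGx (le_of_not_ge hxy)]
    exact sum_congr rfl fun A _ => by rw [abs_sub_comm]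
  have e : ∀ A, len L S G A * |(if x ∈ A then (1 : ℝ) else 0) - (if y ∈ A then 1 else 0)| =
      len L S G A * (if x ∈ A then 1 else 0) - len L S G A * (if y ∈ A then 1 else 0) := by
    intro A
    by_cases h : len L S G A = 0
    · simp [h]
    · by_cases hyA : y ∈ A
      · simp [hyA, len_upper h hyA hx hxy]
      · by_cases hxA : x ∈ A <;> simp [hyA, hxA]
  simp only [e]
  rw [sum_sub_distrib, len_mem hx hGx, len_mem hy hGy, abs_of_nonneg (by linarith)]
  ring

omit [Fintype V] [DecidableEq V] in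
theorem len_fold_min {A : Finset V} {a : V} (ha : a ∈ A) (h : ∀ x ∈ A, G a ≤ G x)
    (hL : |G a| ≤ L) : A.fold min L G = G a :=
  le_antisymm ((fold_min_le _).2 (Or.inr ⟨a, ha, le_rfl⟩))
    ((le_fold_min _).2 ⟨(abs_le.1 hL).2, h⟩)

omit [Fintype V] [DecidableEq V] in
theorem len_fold_max {A : Finset V} {a : V} (ha : a ∈ A) (h : ∀ x ∈ A, G x ≤ G a)
    (hL : |G a| ≤ L) : A.fold max (-L) G = G a :=
  le_antisymm ((fold_max_le _).2 ⟨(abs_le.1 hL).1, h⟩)
    ((le_fold_max _).2 (Or.inr ⟨a, ha, le_rfl⟩))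

theorem len_max_affine {I : Type} (s : Finset I) (w d : I → ℝ) (D : ℝ) (hw : ∀ i ∈ s, 0 ≤ w i)
    (hs : 0 < ∑ i ∈ s, w i) (hd : (∀ i ∈ s, 0 ≤ d i) ∨ ∀ i ∈ s, d i ≤ 0)
    (hD : ∑ i ∈ s, w i * d i = (∑ i ∈ s, w i) * D) :
    ∑ i ∈ s, w i * max 0 (d i) = (∑ i ∈ s, w i) * max 0 D := by
  rcases hd with hd | hd
  · have h0 : 0 ≤ D := by
      have : 0 ≤ (∑ i ∈ s, w i) * D := hD ▸ sum_nonneg fun i hi => mul_nonneg (hw i hi) (hd i hi)
      exact nonneg_of_mul_nonneg_right this hs
    rw [max_eq_right h0, ← hD]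
    exact sum_congr rfl fun i hi => by rw [max_eq_right (hd i hi)]
  · have h0 : D ≤ 0 := by
      have : (∑ i ∈ s, w i) * D ≤ 0 :=
        hD ▸ sum_nonpos fun i hi => mul_nonpos_of_nonneg_of_nonpos (hw i hi) (hd i hi)
      exact nonpos_of_mul_nonpos_right this hs
    rw [max_eq_left h0, mul_zero]
    exact sum_eq_zero fun i hi => by rw [max_eq_left (hd i hi), mul_zero]

omit [Fintype V] in
/-- `len` is affine on families of functions inducing the same order on `S` -/
theorem len_affine {I : Type} (s : Finset I) (w : I → ℝ) (F : I → V → ℝ) (hw : ∀ i ∈ s, 0 ≤ w i)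
    (hs : ∑ i ∈ s, w i ≠ 0) (hF : ∀ i ∈ s, ∀ y ∈ S, |F i y| ≤ L)
    (hord : ∀ i ∈ s, ∀ j ∈ s, ∀ x ∈ S, ∀ y ∈ S, F i x ≤ F i y → F j x ≤ F j y)
    (hG : ∀ y ∈ S, ∑ i ∈ s, w i * F i y = (∑ i ∈ s, w i) * G y) (A : Finset V) :
    ∑ i ∈ s, w i * len L S (F i) A = (∑ i ∈ s, w i) * len L S G A := by
  by_cases hA : A ⊆ S
  swap
  · simp [len, hA]
  have hW : 0 < ∑ i ∈ s, w i := lt_of_le_of_ne (sum_nonneg hw) hs.symm
  obtain ⟨i0, hi0⟩ : s.Nonempty := nonempty_of_sum_ne_zero hs
  have hGo : ∀ x ∈ S, ∀ y ∈ S, F i0 x ≤ F i0 y → G x ≤ G y := fun x hx y hy hxy => by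
    refine le_of_mul_le_mul_left ?_ hW
    rw [← hG x hx, ← hG y hy]
    exact sum_le_sum fun i hi =>
      mul_le_mul_of_nonneg_left (hord i0 hi0 i hi x hx y hy hxy) (hw i hi)
  have hGL : ∀ y ∈ S, |G y| ≤ L := fun y hy => by
    refine le_of_mul_le_mul_left ?_ hW
    rw [← abs_of_pos hW, ← abs_mul, ← hG y hy, abs_of_pos hW, sum_mul]
    refine (abs_sum_le_sum_abs _ _).trans (sum_le_sum fun i hi => ?_)
    rw [abs_mul, abs_of_nonneg (hw i hi)]
    exact mul_le_mul_of_nonneg_left (hF i hi y hy) (hw i hi)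
  have hhi : A = ∅ ∨ ∃ a ∈ S, (∀ i ∈ s, A.fold min L (F i) = F i a) ∧ A.fold min L G = G a := by
    rcases A.eq_empty_or_nonempty with h | h
    · exact Or.inl h
    · obtain ⟨a, ha, hm⟩ := exists_min_image A (F i0) h
      exact Or.inr ⟨a, hA ha, fun i hi => len_fold_min ha
        (fun x hx => hord i0 hi0 i hi a (hA ha) x (hA hx) (hm x hx)) (hF i hi a (hA ha)),
        len_fold_min ha (fun x hx => hGo a (hA ha) x (hA hx) (hm x hx)) (hGL a (hA ha))⟩
  have hlo : S \ A = ∅ ∨ ∃ a ∈ S, (∀ i ∈ s, (S \ A).fold max (-L) (F i) = F i a) ∧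
      (S \ A).fold max (-L) G = G a := by
    rcases (S \ A).eq_empty_or_nonempty with h | h
    · exact Or.inl h
    · obtain ⟨a, ha, hm⟩ := exists_max_image (S \ A) (F i0) h
      have hB : S \ A ⊆ S := sdiff_subset
      exact Or.inr ⟨a, hB ha, fun i hi => len_fold_max ha
        (fun x hx => hord i0 hi0 i hi x (hB hx) a (hB ha) (hm x hx)) (hF i hi a (hB ha)),
        len_fold_max ha (fun x hx => hGo x (hB hx) a (hB ha) (hm x hx)) (hGL a (hB ha))⟩
  simp only [len_eq hA]
  refine len_max_affine s w _ _ hw hW ?_ ?_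
  · rcases hhi with h1 | ⟨a, ha, h1, -⟩ <;> rcases hlo with h2 | ⟨b, hb, h2, -⟩
    · rw [h2, h1]
      simp only [fold_empty]
      rcases le_total 0 (L - -L) with h | h
      · exact Or.inl fun _ _ => h
      · exact Or.inr fun _ _ => h
    · refine Or.inl fun i hi => ?_
      rw [h2 i hi, h1, fold_empty]
      linarith [(abs_le.1 (hF i hi b hb)).2]
    · refine Or.inl fun i hi => ?_
      rw [h1 i hi, h2, fold_empty]
      linarith [(abs_le.1 (hF i hi a ha)).1]
    · rcases le_total (F i0 b) (F i0 a) with h | h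
      · refine Or.inl fun i hi => ?_
        rw [h1 i hi, h2 i hi]
        linarith [hord i0 hi0 i hi b hb a ha h]
      · refine Or.inr fun i hi => ?_
        rw [h1 i hi, h2 i hi]
        linarith [hord i0 hi0 i hi a ha b hb h]
  · simp only [mul_sub, sum_sub_distrib]
    congr 1
    · rcases hhi with h1 | ⟨a, ha, h1, h3⟩
      · simp only [h1, fold_empty, sum_mul]
      · rw [h3, ← hG a ha]
        exact sum_congr rfl fun i hi => by rw [h1 i hi]
    · rcases hlo with h1 | ⟨a, ha, h1, h3⟩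
      · simp only [h1, fold_empty, sum_mul]
      · rw [h3, ← hG a ha]
        exact sum_congr rfl fun i hi => by rw [h1 i hi]

omit [Fintype V] in
theorem len_ge {A : Finset V} (hA : A ⊆ S) {a b : ℝ} (ha : a ≤ L) (hb : -L ≤ b)
    (h1 : ∀ x ∈ A, a ≤ G x) (h2 : ∀ x ∈ S, x ∉ A → G x ≤ b) : a - b ≤ len L S G A := by
  rw [len_eq hA]
  refine le_trans ?_ (le_max_right _ _)
  have e1 := (le_fold_min (s := A) (f := G) (b := L) a).2 ⟨ha, h1⟩
  have e2 := (fold_max_le (s := S \ A) (f := G) (b := -L) b).2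
    ⟨hb, fun x hx => h2 x (mem_sdiff.1 hx).1 (mem_sdiff.1 hx).2⟩
  linarith

/-- if the values near `G y` are isolated, a monotone `p` either follows membership of `y`
or has a large error -/
theorem len_bad (p : Finset V → ℝ) {y : V} (hy : y ∈ S) {ω Γ : ℝ} (hω : 0 ≤ ω) (hΓ : ω < Γ)
    (hL : |G y| + Γ ≤ L) (hG : ∀ x ∈ S, |G x| ≤ L) (hp01 : ∀ A, 0 ≤ p A ∧ p A ≤ 1)
    (hp : ∀ A A', len L S G A ≠ 0 → len L S G A' ≠ 0 → A ⊆ A' → p A ≤ p A')
    (hgap : ∀ x ∈ S, |G x - G y| ≤ ω ∨ Γ ≤ |G x - G y|) :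
    ∑ A, len L S G A * (if 1 / 4 < |(if y ∈ A then (1 : ℝ) else 0) - p A| then 1 else 0)
        ≤ 2 * ω ∨
      (Γ - ω) / 4 ≤ ∑ A, len L S G A * |(if y ∈ A then (1 : ℝ) else 0) - p A| := by
  have hy1 := le_abs_self (G y)
  have hy2 := neg_abs_le (G y)
  set Ap := S.filter fun x => G y - ω ≤ G x with hAp
  set Am := S.filter fun x => G y + ω < G x with hAm
  have yp : y ∈ Ap := mem_filter.2 ⟨hy, by linarith⟩
  have ym : y ∉ Am := fun h => by linarith [(mem_filter.1 h).2]
  have lp : Γ - ω ≤ len L S G Ap := by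
    have := len_ge (L := L) (G := G) (filter_subset (fun x => G y - ω ≤ G x) S) (a := G y - ω)
      (b := G y - Γ) (by linarith) (by linarith) (fun x hx => (mem_filter.1 hx).2)
      fun x hx hx' => by
        have h1 : G x < G y - ω := not_le.1 fun h => hx' (mem_filter.2 ⟨hx, h⟩)
        have h2 := hgap x hx
        rw [abs_of_nonpos (by linarith)] at h2
        rcases h2 with h2 | h2 <;> linarith
    linarith
  have lm : Γ - ω ≤ len L S G Am := by
    have := len_ge (L := L) (G := G) (filter_subset (fun x => G y + ω < G x) S) (a := G y + Γ)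
      (b := G y + ω) (by linarith) (by linarith) (fun x hx => by
        have h1 := (mem_filter.1 hx).2
        have h2 := hgap x (mem_filter.1 hx).1
        rw [abs_of_nonneg (by linarith)] at h2
        rcases h2 with h2 | h2 <;> linarith)
      fun x hx hx' => not_lt.1 fun h => hx' (mem_filter.2 ⟨hx, h⟩)
    linarith
  have single : ∀ A, Γ - ω ≤ len L S G A → 1 / 4 ≤ |(if y ∈ A then (1 : ℝ) else 0) - p A| →
      (Γ - ω) / 4 ≤ ∑ A, len L S G A * |(if y ∈ A then (1 : ℝ) else 0) - p A| := by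
    intro A h1 h2
    refine le_trans ?_ (single_le_sum
      (f := fun A => len L S G A * |(if y ∈ A then (1 : ℝ) else 0) - p A|)
      (fun A _ => mul_nonneg (len_nonneg A) (abs_nonneg _)) (mem_univ A))
    have := mul_le_mul h1 h2 (by norm_num) (len_nonneg A)
    linarith
  by_cases h1 : p Ap < 3 / 4
  · refine Or.inr (single Ap lp ?_)
    rw [if_pos yp]
    exact le_trans (by linarith) (le_abs_self _)
  by_cases h2 : 1 / 4 < p Am
  · refine Or.inr (single Am lm ?_)
    rw [if_neg ym, abs_sub_comm]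
    exact le_trans (by linarith) (le_abs_self _)
  left
  obtain ⟨x0, hx0, hm0⟩ := exists_min_image Ap G ⟨y, yp⟩
  obtain ⟨x1, hx1, hm1⟩ := exists_max_image (S \ Am) G ⟨y, mem_sdiff.2 ⟨hy, ym⟩⟩
  have s0 : x0 ∈ S := (mem_filter.1 hx0).1
  have s1 : x1 ∈ S := (mem_sdiff.1 hx1).1
  have b0 : |G y - G x0| ≤ ω := by
    rw [abs_of_nonneg (by linarith [hm0 y yp])]
    linarith [(mem_filter.1 hx0).2]
  have b1 : |G x1 - G y| ≤ ω := by
    rw [abs_of_nonneg (by linarith [hm1 y (mem_sdiff.2 ⟨hy, ym⟩)])]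
    have : ¬ G y + ω < G x1 := fun h => (mem_sdiff.1 hx1).2 (mem_filter.2 ⟨s1, h⟩)
    linarith [not_lt.1 this]
  rw [← len_sep hy s0 (hG y hy) (hG x0 s0)] at b0
  rw [← len_sep s1 hy (hG x1 s1) (hG y hy)] at b1
  have b2 := add_le_add b0 b1
  rw [← sum_add_distrib, ← two_mul] at b2
  refine le_trans (sum_le_sum fun A _ => ?_) b2
  rw [← mul_add]
  by_cases hA : len L S G A = 0
  · simp [hA]
  refine mul_le_mul_of_nonneg_left ?_ (len_nonneg A)
  have n0 := abs_nonneg ((if y ∈ A then (1 : ℝ) else 0) - (if x0 ∈ A then 1 else 0))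
  have n1 := abs_nonneg ((if x1 ∈ A then (1 : ℝ) else 0) - (if y ∈ A then 1 else 0))
  by_cases hb : 1 / 4 < |(if y ∈ A then (1 : ℝ) else 0) - p A|
  swap
  · rw [if_neg hb]
    linarith
  rw [if_pos hb]
  have hpA := hp01 A
  by_cases hyA : y ∈ A
  · rw [if_pos hyA, abs_of_nonneg (by linarith)] at hb
    have : x0 ∉ A := fun h => by
      have := hp Ap A (by linarith) hA fun x hx => len_upper hA h (mem_filter.1 hx).1 (hm0 x hx)
      linarith
    rw [if_pos hyA, if_neg this] at n0 ⊢
    rw [if_pos hyA] at n1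
    simp only [sub_zero, abs_one]
    linarith
  · rw [if_neg hyA, abs_of_nonpos (by linarith)] at hb
    have : x1 ∈ A := by
      by_contra h
      have := hp A Am hA (by linarith) fun x hx => by
        by_contra hx'
        exact h (len_upper hA hx s1 (hm1 x (mem_sdiff.2 ⟨len_subset hA hx, hx'⟩)))
      linarith
    rw [if_neg hyA, if_pos this] at n1 ⊢
    rw [if_neg hyA] at n0
    simp only [sub_zero, abs_one]
    linarith

end Vale.Agent.P235
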