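import Vale.Agent.P235.Markov
import Vale.Agent.P235.Len

namespace Vale.Agent.P235

open Finset

namespace FieldAux

variable {V H : Type} [MetricSpace V] [Fintype V] [DecidableEq V] [Fintype H]
  [DecidableEq H] {k : ℕ} {E : Elim V k} {K : ℝ} (Y : HSys E H K) (L : ℝ)

/-- membership indicator -/
def ind (y : V) (s : H × Finset V) : ℝ := if y ∈ s.2 then 1 else 0

/-- masses -/
noncomputable def ms (v : V) (s : H × Finset V) : ℝ :=
  Y.W v s.1 * len L (E.S v) (Y.G s.1) s.2

/-- probability that the new vertex joins -/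
noncomputable def th (c : V) (h : H) (B : Finset V) : ℝ :=
  len L (E.S c) (Y.G h) (insert c B) / len L ((E.S c).erase c) (Y.G h) B

/-- kernels -/
noncomputable def TT (c : V) (s s' : H × Finset V) : ℝ :=
  Y.κ c s.1 s'.1 *
    (th Y L c s'.1 (s.2 ∩ (E.S c).erase c) *
        (if s'.2 = insert c (s.2 ∩ (E.S c).erase c) then 1 else 0) +
      (1 - th Y L c s'.1 (s.2 ∩ (E.S c).erase c)) *
        (if s'.2 = s.2 ∩ (E.S c).erase c then 1 else 0))

omit [Fintype V] [Fintype H] [DecidableEq H] [MetricSpace V] in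
theorem ind01 (y : V) (s : H × Finset V) : ind y s = 0 ∨ ind y s = 1 := by
  unfold ind; split_ifs <;> simp

omit [Fintype V] [DecidableEq H] in
theorem split (c : V) (h : H) {B : Finset V} (hB : B ⊆ (E.S c).erase c) :
    len L ((E.S c).erase c) (Y.G h) B
      = len L (E.S c) (Y.G h) B + len L (E.S c) (Y.G h) (insert c B) := by
  have := len_insert (L := L) (G := Y.G h) (notMem_erase c (E.S c)) hB
  rwa [insert_erase (E.self_mem c)] at this

omit [Fintype V] [DecidableEq H] in
theorem th_nonneg (c : V) (h : H) (B : Finset V) : 0 ≤ th Y L c h B :=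
  div_nonneg (len_nonneg _) (len_nonneg _)

omit [Fintype V] [DecidableEq H] in
theorem th_le (c : V) (h : H) {B : Finset V} (hB : B ⊆ (E.S c).erase c) : th Y L c h B ≤ 1 := by
  refine div_le_one_of_le₀ ?_ (len_nonneg _)
  rw [split Y L c h hB]
  linarith [len_nonneg (L := L) (S := E.S c) (G := Y.G h) B]

omit [Fintype V] [DecidableEq H] in
theorem mul_th (c : V) (h : H) {B : Finset V} (hB : B ⊆ (E.S c).erase c) :
    len L ((E.S c).erase c) (Y.G h) B * th Y L c h B = len L (E.S c) (Y.G h) (insert c B) := by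
  by_cases h0 : len L ((E.S c).erase c) (Y.G h) B = 0
  · have h1 := split Y L c h hB
    have h2 := len_nonneg (L := L) (S := E.S c) (G := Y.G h) B
    have h3 := len_nonneg (L := L) (S := E.S c) (G := Y.G h) (insert c B)
    rw [h0, zero_mul]; linarith
  · unfold th; field_simp

omit [Fintype V] [DecidableEq H] in
theorem mul_th' (c : V) (h : H) {B : Finset V} (hB : B ⊆ (E.S c).erase c) :
    len L ((E.S c).erase c) (Y.G h) B * (1 - th Y L c h B) = len L (E.S c) (Y.G h) B := by
  rw [mul_sub, mul_th Y L c h hB, mul_one, split Y L c h hB]; ring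

omit [Fintype V] [DecidableEq H] in
theorem ms_nonneg (v : V) (s : H × Finset V) : 0 ≤ ms Y L v s :=
  mul_nonneg (Y.W0 _ _) (len_nonneg _)

omit [Fintype V] [DecidableEq H] in
theorem TT_nonneg (c : V) (s s' : H × Finset V) : 0 ≤ TT Y L c s s' := by
  refine mul_nonneg (Y.κ0 _ _ _) (add_nonneg (mul_nonneg (th_nonneg _ _ _ _ _) ?_)
    (mul_nonneg (sub_nonneg.2 (th_le _ _ _ _ inter_subset_right)) ?_)) <;>
  split_ifs <;> norm_num

omit [DecidableEq H] in
theorem TT_sum (c : V) (s : H × Finset V) (f : H × Finset V → ℝ) :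
    ∑ s', TT Y L c s s' * f s' = ∑ h', Y.κ c s.1 h' *
      (th Y L c h' (s.2 ∩ (E.S c).erase c) * f (h', insert c (s.2 ∩ (E.S c).erase c)) +
        (1 - th Y L c h' (s.2 ∩ (E.S c).erase c)) * f (h', s.2 ∩ (E.S c).erase c)) := by
  rw [Fintype.sum_prod_type]
  refine sum_congr rfl fun h' _ => ?_
  simp only [TT, mul_assoc, ← mul_sum, add_mul, sum_add_distrib, ite_mul, one_mul, zero_mul,
    sum_ite_eq', mem_univ, if_true]

omit [DecidableEq H] in
theorem TT_fst (c : V) (s : H × Finset V) (f : H → ℝ) :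
    ∑ s', TT Y L c s s' * f s'.1 = ∑ h', Y.κ c s.1 h' * f h' := by
  rw [TT_sum Y L c s (fun s' => f s'.1)]
  exact sum_congr rfl fun h' _ => by ring

omit [DecidableEq H] in
theorem TT_one (c : V) (s : H × Finset V) : ∑ s', TT Y L c s s' = 1 := by
  have := TT_fst Y L c s (fun _ => 1)
  simpa [Y.κ1] using this

omit [DecidableEq H] in
theorem back_fst (j : ℕ) (a : V) (f : H → ℝ) (s : H × Finset V) :
    back (TT Y L) E.par j a (fun s' => f s'.1) s = back Y.κ E.par j a f s.1 := by
  induction j generalizing s with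
  | zero => rfl
  | succ j ih =>
    simp only [back_succ, ih]
    exact TT_fst Y L _ s (fun h => back Y.κ E.par j a f h)

omit [Fintype V] [Fintype H] [DecidableEq H] in
theorem erase_sub (c : V) : (E.S c).erase c ⊆ E.S (E.par c) := fun y hy =>
  E.sub_par c y (mem_of_mem_erase hy) (ne_of_mem_erase hy)

omit [DecidableEq H] in
theorem stat (hL : 0 < L) (hG : ∀ h y, |Y.G h y| ≤ L) (c : V) (hc : c ≠ E.r)
    (s' : H × Finset V) : ∑ s, ms Y L (E.par c) s * TT Y L c s s' = ms Y L c s' := by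
  obtain ⟨h', A'⟩ := s'
  let φ : Finset V → ℝ := fun B => th Y L c h' B * (if A' = insert c B then 1 else 0) +
    (1 - th Y L c h' B) * (if A' = B then 1 else 0)
  have e1 : ∑ s, ms Y L (E.par c) s * TT Y L c s (h', A')
      = ∑ A, Y.W c h' * (len L (E.S (E.par c)) (Y.G h') A * φ (A ∩ (E.S c).erase c)) := by
    rw [Fintype.sum_prod_type, sum_comm]
    refine sum_congr rfl fun A _ => ?_
    rw [← mul_assoc, ← Y.cons L hL hG c hc A h', sum_mul]
    exact sum_congr rfl fun h _ => by simp only [ms, TT, φ]; ring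
  rw [e1, ← mul_sum, len_restrict (erase_sub c) φ]
  unfold ms
  congr 1
  have z : ∀ B, ¬ B ⊆ (E.S c).erase c → len L ((E.S c).erase c) (Y.G h') B = 0 := fun B hB => by
    by_contra h0; exact hB (len_subset h0)
  by_cases hA : c ∈ A'
  · rw [sum_eq_single (A'.erase c)]
    · have h1 : A' ≠ A'.erase c := fun h => by rw [h] at hA; exact notMem_erase _ _ hA
      simp only [φ, insert_erase hA, if_true, if_neg h1, mul_one, mul_zero, add_zero]
      by_cases hB : A'.erase c ⊆ (E.S c).erase c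
      · rw [mul_th Y L c h' hB, insert_erase hA]
      · rw [z _ hB, zero_mul]
        by_contra h0
        exact hB (erase_subset_erase _ (len_subset (Ne.symm h0)))
    · intro B _ hB
      by_cases hB' : B ⊆ (E.S c).erase c
      · have hc' : c ∉ B := fun h => notMem_erase _ _ (hB' h)
        have h1 : A' ≠ insert c B := fun h => hB (by rw [h, erase_insert hc'])
        have h2 : A' ≠ B := fun h => hc' (h ▸ hA)
        simp [φ, h1, h2]
      · rw [z _ hB', zero_mul]
    · simp
  · rw [sum_eq_single A']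
    · have h1 : A' ≠ insert c A' := fun h => hA (h ▸ mem_insert_self _ _)
      simp only [φ, if_true, if_neg h1, mul_one, mul_zero, zero_add]
      by_cases hB : A' ⊆ (E.S c).erase c
      · rw [mul_th' Y L c h' hB]
      · rw [z _ hB, zero_mul]
        by_contra h0
        exact hB fun x hx => mem_erase.2 ⟨fun h => hA (h ▸ hx), len_subset (Ne.symm h0) hx⟩
    · intro B _ hB
      have h1 : A' ≠ insert c B := fun h => hA (h ▸ mem_insert_self _ _)
      simp [φ, h1, hB.symm]
    · simp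

omit [Fintype V] [DecidableEq H] in
theorem TT_mem {c y : V} {s s' : H × Finset V} (h : TT Y L c s s' ≠ 0) (hy : y ∈ E.S c)
    (hyc : y ≠ c) : ind y s' = ind y s := by
  have hy' : y ∈ (E.S c).erase c := mem_erase.2 ⟨hyc, hy⟩
  by_cases h1 : s'.2 = insert c (s.2 ∩ (E.S c).erase c)
  · simp [ind, h1, hyc, hy]
  · by_cases h2 : s'.2 = s.2 ∩ (E.S c).erase c
    · simp [ind, h2, hyc, hy]
    · exact absurd (by simp [TT, h1, h2]) h

/-- conditional probability that `u` lies in the random set -/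
noncomputable def pp (u : V) (n : ℕ) : H × Finset V → ℝ := back (TT Y L) E.par n u (ind u)

/-- conditional variance -/
noncomputable def Vr (u : V) (n : ℕ) : ℝ :=
  ∑ s, ms Y L (E.par^[n] u) s * (pp Y L u n s * (1 - pp Y L u n s))

omit [DecidableEq H] in
theorem pp01 (u : V) (n : ℕ) (s : H × Finset V) : 0 ≤ pp Y L u n s ∧ pp Y L u n s ≤ 1 := by
  constructor
  · rw [← back_const (par := E.par) (TT_one Y L) n u 0 s]
    exact back_mono (TT_nonneg Y L) n u (fun s => by rcases ind01 u s with h | h <;> simp [h]) s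
  · rw [← back_const (par := E.par) (TT_one Y L) n u 1 s]
    exact back_mono (TT_nonneg Y L) n u (fun s => by rcases ind01 u s with h | h <;> simp [h]) s

omit [DecidableEq H] in
theorem back_compl (u : V) (n : ℕ) (s : H × Finset V) :
    back (TT Y L) E.par n u (fun s => 1 - ind u s) s = 1 - pp Y L u n s := by
  have := back_lin (T := TT Y L) (par := E.par) n u (fun _ => 1) (ind u) 1 (-1) s
  rw [back_const (TT_one Y L)] at this
  simp only [pp]
  convert this using 2
  · funext s; ring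
  · ring

omit [DecidableEq H] in
theorem Vr_diff (hL : 0 < L) (hG : ∀ h y, |Y.G h y| ≤ L) (u : V) (n j : ℕ)
    (hn : n + j ≤ E.dep u) : Vr Y L u (n + j) - Vr Y L u n
      = ∑ s, ms Y L (E.par^[j] (E.par^[n] u)) s * back (TT Y L) E.par j (E.par^[n] u)
        (fun s' => (pp Y L u n s' - pp Y L u (n + j) s) ^ 2) s := by
  have hj : j ≤ E.dep (E.par^[n] u) := by rw [E.dep_iter]; omega
  have e0 : E.par^[n + j] u = E.par^[j] (E.par^[n] u) := by
    rw [← Function.iterate_add_apply, add_comm]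
  have e1 : ∀ s, pp Y L u (n + j) s = back (TT Y L) E.par j (E.par^[n] u) (pp Y L u n) s :=
    fun s => by unfold pp; rw [back_add]
  have e2 : ∀ s, back (TT Y L) E.par j (E.par^[n] u)
      (fun s' => (pp Y L u n s' - pp Y L u (n + j) s) ^ 2) s
      = pp Y L u (n + j) s * (1 - pp Y L u (n + j) s) - back (TT Y L) E.par j (E.par^[n] u)
        (fun s' => pp Y L u n s' * (1 - pp Y L u n s')) s := fun s => by
    have a1 := back_lin (T := TT Y L) (par := E.par) j (E.par^[n] u) (pp Y L u n) (fun _ => 1)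
      (1 - 2 * pp Y L u (n + j) s) (pp Y L u (n + j) s ^ 2) s
    have a2 := back_lin (T := TT Y L) (par := E.par) j (E.par^[n] u)
      (fun s' => (1 - 2 * pp Y L u (n + j) s) * pp Y L u n s' + pp Y L u (n + j) s ^ 2 * 1)
      (fun s' => pp Y L u n s' * (1 - pp Y L u n s')) 1 (-1) s
    rw [a1, back_const (TT_one Y L), ← e1] at a2
    have a3 : (fun s' => (pp Y L u n s' - pp Y L u (n + j) s) ^ 2) = fun s' =>
        1 * ((1 - 2 * pp Y L u (n + j) s) * pp Y L u n s' + pp Y L u (n + j) s ^ 2 * 1) +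
          -1 * (pp Y L u n s' * (1 - pp Y L u n s')) := by funext s'; ring
    rw [a3, a2]; ring
  have e3 := back_stat E (stat Y L hL hG) j (E.par^[n] u) hj
    (fun s' => pp Y L u n s' * (1 - pp Y L u n s'))
  unfold Vr
  rw [← e3, e0, ← sum_sub_distrib]
  exact sum_congr rfl fun s _ => by rw [e2]; ring

omit [DecidableEq H] in
theorem pp_mono (hL : 0 < L) (hG : ∀ h y, |Y.G h y| ≤ L) (u : V) (n : ℕ) (hn : n ≤ E.dep u)
    (h : H) (hW : Y.W (E.par^[n] u) h ≠ 0) (A A' : Finset V)
    (hA : len L (E.S (E.par^[n] u)) (Y.G h) A ≠ 0)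
    (hA' : len L (E.S (E.par^[n] u)) (Y.G h) A' ≠ 0) (hs : A ⊆ A') :
    pp Y L u n (h, A) ≤ pp Y L u n (h, A') := by
  induction n generalizing h A A' with
  | zero =>
    simp only [pp, back_zero, ind]
    by_cases h1 : u ∈ A
    · simp [h1, hs h1]
    · simp only [h1, if_false]; split_ifs <;> norm_num
  | succ n ih =>
    have hc : E.par^[n] u ≠ E.r := E.ne_r_of_lt (by omega)
    rw [Function.iterate_succ_apply'] at hW hA hA'
    set c := E.par^[n] u with hcdef
    have e : ∀ s, pp Y L u (n + 1) s = ∑ s', TT Y L c s s' * pp Y L u n s' := fun s => rfl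
    rw [e, e, TT_sum, TT_sum]
    refine sum_le_sum fun h' _ => ?_
    by_cases hk : Y.κ c h h' = 0
    · simp [hk]
    refine mul_le_mul_of_nonneg_left ?_ (Y.κ0 _ _ _)
    have pos : ∀ B, len L (E.S (E.par c)) (Y.G h) B ≠ 0 → Y.W c h' ≠ 0 ∧
        len L ((E.S c).erase c) (Y.G h') (B ∩ (E.S c).erase c) ≠ 0 := fun B hB => by
      have h1 : 0 < Y.W c h' * len L (E.S (E.par c)) (Y.G h') B := by
        rw [← Y.cons L hL hG c hc B h']
        refine lt_of_lt_of_le ?_ (single_le_sum (f := fun h => Y.W (E.par c) h * Y.κ c h h' *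
          len L (E.S (E.par c)) (Y.G h) B) (fun h _ => mul_nonneg (mul_nonneg (Y.W0 _ _)
            (Y.κ0 _ _ _)) (len_nonneg _)) (mem_univ h))
        exact mul_pos (mul_pos ((Y.W0 _ _).lt_of_ne' hW) ((Y.κ0 _ _ _).lt_of_ne' hk))
          ((len_nonneg _).lt_of_ne' hB)
      refine ⟨left_ne_zero_of_mul h1.ne', ?_⟩
      have h2 := len_restrict (L := L) (G := Y.G h') (erase_sub (E := E) c)
        (fun X => if X = B ∩ (E.S c).erase c then 1 else 0)
      simp only [mul_ite, mul_one, mul_zero, sum_ite_eq', mem_univ, if_true] at h2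
      rw [← h2]
      refine (lt_of_lt_of_le ?_ (single_le_sum (f := fun A => if A ∩ (E.S c).erase c =
        B ∩ (E.S c).erase c then len L (E.S (E.par c)) (Y.G h') A else 0)
        (fun A _ => by split_ifs; exacts [len_nonneg _, le_rfl]) (mem_univ B))).ne'
      simp only [if_true]
      exact (len_nonneg _).lt_of_ne' (right_ne_zero_of_mul h1.ne')
    obtain ⟨hW', hB⟩ := pos A hA
    obtain ⟨-, hB'⟩ := pos A' hA'
    have hs' : A ∩ (E.S c).erase c ⊆ A' ∩ (E.S c).erase c := inter_subset_inter_right hs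
    have s1 : A ∩ (E.S c).erase c ⊆ (E.S c).erase c := inter_subset_right
    have s2 : A' ∩ (E.S c).erase c ⊆ (E.S c).erase c := inter_subset_right
    dsimp only
    generalize A ∩ (E.S c).erase c = B at *
    generalize A' ∩ (E.S c).erase c = B' at *
    by_cases hBB : B = B'
    · rw [hBB]
    have cmp : ∀ X X', (X = insert c B ∨ X = B) → (X' = insert c B' ∨ X' = B') →
        len L (E.S c) (Y.G h') X ≠ 0 → len L (E.S c) (Y.G h') X' ≠ 0 →
        pp Y L u n (h', X) ≤ pp Y L u n (h', X') := fun X X' hX hX' l1 l2 => by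
      refine ih (by omega) h' hW' X X' l1 l2 ((len_nested l1 l2).resolve_right fun h3 => hBB ?_)
      refine Subset.antisymm hs' fun x hx => ?_
      have h4 : x ∈ X := h3 (by rcases hX' with rfl | rfl; exacts [mem_insert_of_mem hx, hx])
      rcases hX with rfl | rfl
      · exact (mem_insert.1 h4).resolve_left (ne_of_mem_erase (s2 hx))
      · exact h4
    have t1 := th_nonneg Y L c h' B
    have t2 := th_nonneg Y L c h' B'
    have t3 := sub_nonneg.2 (th_le Y L c h' s1)
    have t4 := sub_nonneg.2 (th_le Y L c h' s2)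
    have term : ∀ (a b : ℝ) X X', (X = insert c B ∨ X = B) → (X' = insert c B' ∨ X' = B') →
        0 ≤ a → 0 ≤ b →
        len L ((E.S c).erase c) (Y.G h') B * a = len L (E.S c) (Y.G h') X →
        len L ((E.S c).erase c) (Y.G h') B' * b = len L (E.S c) (Y.G h') X' →
        0 ≤ a * b * (pp Y L u n (h', X') - pp Y L u n (h', X)) := by
      intro a b X X' hX hX' ha hb e1 e2
      by_cases ha0 : a = 0
      · simp [ha0]
      by_cases hb0 : b = 0
      · simp [hb0]
      exact mul_nonneg (mul_nonneg ha hb) (sub_nonneg.2 (cmp X X' hX hX'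
        (e1 ▸ mul_ne_zero hB ha0) (e2 ▸ mul_ne_zero hB' hb0)))
    have q1 := term _ _ _ _ (.inl rfl) (.inl rfl) t1 t2 (mul_th Y L c h' s1) (mul_th Y L c h' s2)
    have q2 := term _ _ _ _ (.inl rfl) (.inr rfl) t1 t4 (mul_th Y L c h' s1) (mul_th' Y L c h' s2)
    have q3 := term _ _ _ _ (.inr rfl) (.inl rfl) t3 t2 (mul_th' Y L c h' s1) (mul_th Y L c h' s2)
    have q4 := term _ _ _ _ (.inr rfl) (.inr rfl) t3 t4 (mul_th' Y L c h' s1) (mul_th' Y L c h' s2)
    nlinarith [q1, q2, q3, q4]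

theorem pt {a p P f : ℝ} (ha : a = 0 ∨ a = 1) (hf : |f| ≤ 1) :
    (a - if P ≤ 1 / 2 then 0 else 1) * f
      ≤ 16 * (p - P) ^ 2 + |f| * (if 1 / 4 < |a - p| then 1 else 0) := by
  have h1 := le_abs_self f
  have h2 := neg_abs_le f
  have h3 := abs_nonneg f
  have h4 := sq_nonneg (p - P)
  by_cases hb : 1 / 4 < |a - p|
  · rw [if_pos hb]
    rcases ha with rfl | rfl <;> split_ifs <;> nlinarith
  · rw [if_neg hb]
    rw [not_lt, abs_le] at hb
    rcases ha with rfl | rfl <;> split_ifs with hP <;> nlinarith [hb.1, hb.2]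

omit [DecidableEq H] in
theorem key (hL : 0 < L) (hG : ∀ h y, |Y.G h y| ≤ L) (u : V) (n j : ℕ) (hn : n + j ≤ E.dep u)
    {y : V} (hy : y ∈ E.S (E.par^[n] u)) (f : H → ℝ) (hf : ∀ h, |f h| ≤ 1)
    (h0 : ∀ h, back Y.κ E.par j (E.par^[n] u) f h = 0) :
    ∑ h, Y.W (E.par^[n] u) h * (f h * Y.G h y) ≤ 16 * (Vr Y L u (n + j) - Vr Y L u n) +
      ∑ h, Y.W (E.par^[n] u) h * (|f h| * ∑ A, len L (E.S (E.par^[n] u)) (Y.G h) A *
        (if 1 / 4 < |(if y ∈ A then (1 : ℝ) else 0) - pp Y L u n (h, A)| then 1 else 0)) := by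
  have hj : j ≤ E.dep (E.par^[n] u) := by rw [E.dep_iter]; omega
  rw [Vr_diff Y L hL hG u n j hn]
  set t := E.par^[n] u with ht
  have e1 : ∑ h, Y.W t h * f h = 0 := by
    rw [← back_stat E Y.stat j t hj f]; simp [h0]
  have e2 : ∑ h, Y.W t h * (f h * Y.G h y) = ∑ s, ms Y L t s * (ind y s * f s.1) := by
    have : ∀ h, ∑ A, ms Y L t (h, A) * (ind y (h, A) * f h)
        = Y.W t h * (f h * Y.G h y) + L * (Y.W t h * f h) := fun h => by
      have h1 := len_mem (L := L) (G := Y.G h) hy (hG h y)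
      calc _ = Y.W t h * f h * ∑ A, len L (E.S t) (Y.G h) A * (if y ∈ A then 1 else 0) := by
            rw [mul_sum]; exact sum_congr rfl fun A _ => by simp only [ms, ind]; ring
        _ = _ := by rw [h1]; ring
    rw [Fintype.sum_prod_type]
    simp only [this, sum_add_distrib, ← mul_sum, e1, mul_zero, add_zero]
  let g : H × Finset V → ℝ := fun s' =>
    |f s'.1| * (if 1 / 4 < |ind y s' - pp Y L u n s'| then 1 else 0)
  have e3 : ∑ h, Y.W t h * (|f h| * ∑ A, len L (E.S t) (Y.G h) A *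
        (if 1 / 4 < |(if y ∈ A then (1 : ℝ) else 0) - pp Y L u n (h, A)| then 1 else 0))
      = ∑ s, ms Y L t s * g s := by
    rw [Fintype.sum_prod_type]
    refine sum_congr rfl fun h _ => ?_
    rw [mul_sum, mul_sum]
    exact sum_congr rfl fun A _ => by
      rw [mul_left_comm |f h|, ← mul_assoc]; rfl
  rw [e2, e3, ← back_stat E (stat Y L hL hG) j t hj, ← back_stat E (stat Y L hL hG) j t hj g,
    mul_sum, ← sum_add_distrib]
  refine sum_le_sum fun s _ => ?_
  rw [mul_left_comm, ← mul_add]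
  refine mul_le_mul_of_nonneg_left ?_ (ms_nonneg _ _ _ _)
  set c : ℝ := if pp Y L u (n + j) s ≤ 1 / 2 then 0 else 1 with hc
  have a1 := back_lin (T := TT Y L) (par := E.par) j t (fun s' => (ind y s' - c) * f s'.1)
    (fun s' => f s'.1) 1 c s
  rw [back_fst, h0] at a1
  have a2 : (fun s' : H × Finset V => ind y s' * f s'.1)
      = fun s' => 1 * ((ind y s' - c) * f s'.1) + c * f s'.1 := by funext s'; ring
  have a3 := back_lin (T := TT Y L) (par := E.par) j t
    (fun s' => (pp Y L u n s' - pp Y L u (n + j) s) ^ 2) g 16 1 s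
  rw [a2, a1, one_mul, mul_zero, add_zero, ← one_mul (back _ _ _ _ g s), ← a3]
  refine back_mono (TT_nonneg Y L) j t (fun s' => ?_) s
  rw [one_mul]
  exact pt (ind01 y s') (hf s'.1)

theorem abs01 {a b : ℝ} (ha : a = 0 ∨ a = 1) (h0 : 0 ≤ b) (h1 : b ≤ 1) :
    |a - b| = a * (1 - b) + (1 - a) * b := by
  rcases ha with rfl | rfl
  · simp [abs_of_nonneg h0]
  · simp [abs_of_nonneg (sub_nonneg.2 h1)]

end FieldAux

open FieldAux

/-- The cut pseudometric and the conditional variances of a hidden system. -/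
theorem field {V H : Type} [MetricSpace V] [Fintype V] [DecidableEq V] [Fintype H]
    [DecidableEq H] {k : ℕ} {E : Elim V k} {K : ℝ} (Y : HSys E H K) (H0 : ℝ) :
    ∃ (ρ : V → V → ℝ) (Var : V → ℕ → ℝ), IsCut ρ ∧
      (∀ t, ∀ x ∈ E.S t, ∀ y ∈ E.S t, ρ x y = ∑ h, Y.W t h * |Y.G h x - Y.G h y|) ∧
      (∀ u w, ∃ n n', n ≤ E.dep u ∧ n' ≤ E.dep w ∧ E.par^[n] u = E.par^[n'] w ∧
        Var u n ≤ ρ u w ∧ Var w n' ≤ ρ u w) ∧
      (∀ u, Var u 0 = 0) ∧ (∀ u n, n < E.dep u → Var u n ≤ Var u (n + 1)) ∧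
      (∀ u n, n ≤ E.dep u → ∀ y ∈ E.S (E.par^[n] u), ∃ e bad : H → ℝ, (∀ h, 0 ≤ e h) ∧
        ∑ h, Y.W (E.par^[n] u) h * e h ≤ ρ y u ∧
        (n = 0 → y = u → ∀ h, bad h = 0) ∧
        (∀ h ω Γ, 0 ≤ ω → ω < Γ → Γ ≤ H0 → Y.W (E.par^[n] u) h ≠ 0 →
          (∀ x ∈ E.S (E.par^[n] u), |Y.G h x - Y.G h y| ≤ ω ∨ Γ ≤ |Y.G h x - Y.G h y|) →
          bad h ≤ 2 * ω ∨ (Γ - ω) / 4 ≤ e h) ∧
        ∀ (j : ℕ) (f : H → ℝ), n + j ≤ E.dep u → (∀ h, |f h| ≤ 1) →
          (∀ h, back Y.κ E.par j (E.par^[n] u) f h = 0) →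
          ∑ h, Y.W (E.par^[n] u) h * (f h * Y.G h y)
            ≤ 16 * (Var u (n + j) - Var u n)
              + ∑ h, Y.W (E.par^[n] u) h * (|f h| * bad h)) := by
  obtain ⟨L, hL, hG'⟩ : ∃ L : ℝ, 0 < L ∧ ∀ h y, |Y.G h y| + |H0| ≤ L := by
    refine ⟨∑ p : H × V, |Y.G p.1 p.2| + |H0| + 1, by positivity, fun h y => ?_⟩
    have := single_le_sum (f := fun p : H × V => |Y.G p.1 p.2|) (fun _ _ => abs_nonneg _)
      (mem_univ (h, y))
    linarith
  have hG : ∀ h y, |Y.G h y| ≤ L := fun h y => by linarith [hG' h y, abs_nonneg H0]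
  obtain ⟨I, _, w, X, hw, hX, h3, h4⟩ := markov E (TT Y L) (ms Y L) (TT_nonneg Y L) (TT_one Y L)
    (ms_nonneg Y L _) (stat Y L hL hG)
  have agree : ∀ i, w i ≠ 0 → ∀ t y, y ∈ E.S t → ind y (X y i) = ind y (X t i) := by
    intro i hi t y hy
    induction hn : E.dep t generalizing t with
    | zero =>
      obtain rfl := E.eq_r_of_dep hn
      rw [E.S_r y hy]
    | succ n ih =>
      by_cases hyt : y = t
      · rw [hyt]
      · have ht : t ≠ E.r := by intro h; rw [h, E.dep_r] at hn; omega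
        have := E.dep_par t ht
        rw [TT_mem Y L (hX i hi t ht) hy hyt]
        exact ih _ (E.sub_par t y hy hyt) (by omega)
  have b01 : ∀ (y : V) (s : H × Finset V), 0 ≤ ind y s ∧ ind y s ≤ 1 := fun y s => by
    rcases ind01 y s with h | h <;> simp [h]
  refine ⟨fun x y => ∑ i, w i * |ind x (X x i) - ind y (X y i)|, Vr Y L,
    ⟨I, inferInstance, w, fun v i => ind v (X v i), hw, fun _ _ => rfl⟩, ?_, ?_, ?_, ?_, ?_⟩
  · intro t x hx y hy
    have e := h3 t 0 (Nat.zero_le _) (fun s => |ind x s - ind y s|) (fun _ => 1)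
    simp only [Function.iterate_zero, id, mul_one, back_zero] at e
    have e' : ∑ i, w i * |ind x (X x i) - ind y (X y i)|
        = ∑ i, w i * |ind x (X t i) - ind y (X t i)| := sum_congr rfl fun i _ => by
      by_cases hi : w i = 0
      · simp [hi]
      · rw [agree i hi t x hx, agree i hi t y hy]
    dsimp only
    rw [e', e, Fintype.sum_prod_type]
    refine sum_congr rfl fun h _ => ?_
    rw [← len_sep hx hy (hG h x) (hG h y), mul_sum]
    exact sum_congr rfl fun A _ => by simp only [ms, ind]; ring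
  · intro u v
    obtain ⟨n, n', hn, hn', e, h5⟩ := h4 u v
    have e1 : ∑ i, w i * |ind u (X u i) - ind v (X v i)| = ∑ s, ms Y L (E.par^[n] u) s *
        (pp Y L u n s * (1 - pp Y L v n' s) + (1 - pp Y L u n s) * pp Y L v n' s) := by
      have a1 := h5 (ind u) (fun s => 1 - ind v s)
      have a2 := h5 (fun s => 1 - ind u s) (ind v)
      simp only [back_compl] at a1 a2
      simp only [mul_add, sum_add_distrib]
      unfold pp at a1 a2 ⊢
      rw [← a1, ← a2, ← sum_add_distrib]
      exact sum_congr rfl fun i _ => by rw [abs01 (ind01 _ _) (b01 _ _).1 (b01 _ _).2]; ring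
    refine ⟨n, n', hn, hn', e, ?_, ?_⟩ <;> dsimp only <;> rw [e1] <;> unfold Vr
    · refine sum_le_sum fun s _ => mul_le_mul_of_nonneg_left ?_ (ms_nonneg _ _ _ _)
      have := pp01 Y L v n' s
      nlinarith [sq_nonneg (pp Y L u n s - pp Y L v n' s), mul_nonneg this.1 (sub_nonneg.2 this.2)]
    · rw [← e]
      refine sum_le_sum fun s _ => mul_le_mul_of_nonneg_left ?_ (ms_nonneg _ _ _ _)
      have := pp01 Y L u n s
      nlinarith [sq_nonneg (pp Y L u n s - pp Y L v n' s), mul_nonneg this.1 (sub_nonneg.2 this.2)]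
  · intro u
    refine sum_eq_zero fun s _ => ?_
    rcases ind01 u s with h | h <;> simp [pp, back_zero, h]
  · intro u n hn
    rw [← sub_nonneg, Vr_diff Y L hL hG u n 1 hn]
    refine sum_nonneg fun s _ => mul_nonneg (ms_nonneg _ _ _ _) ?_
    rw [← back_const (par := E.par) (TT_one Y L) 1 (E.par^[n] u) 0 s]
    exact back_mono (TT_nonneg Y L) _ _ (fun _ => sq_nonneg _) s
  · intro u n hn y hy
    refine ⟨fun h => ∑ A, len L (E.S (E.par^[n] u)) (Y.G h) A *
        |(if y ∈ A then (1 : ℝ) else 0) - pp Y L u n (h, A)|,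
      fun h => ∑ A, len L (E.S (E.par^[n] u)) (Y.G h) A *
        (if 1 / 4 < |(if y ∈ A then (1 : ℝ) else 0) - pp Y L u n (h, A)| then 1 else 0),
      fun h => sum_nonneg fun A _ => mul_nonneg (len_nonneg _) (abs_nonneg _), ?_, ?_, ?_,
      fun j f hj hf h0 => key Y L hL hG u n j hj hy f hf h0⟩
    · have a1 := h3 u n hn (ind y) (fun s => 1 - ind u s)
      have a2 := h3 u n hn (fun s => 1 - ind y s) (ind u)
      simp only [back_compl] at a1
      refine le_of_eq ?_
      calc _ = ∑ s, ms Y L (E.par^[n] u) s * (ind y s * (1 - pp Y L u n s))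
            + ∑ s, ms Y L (E.par^[n] u) s * ((1 - ind y s) * pp Y L u n s) := by
            rw [← sum_add_distrib, Fintype.sum_prod_type]
            refine sum_congr rfl fun h _ => ?_
            rw [mul_sum]
            refine sum_congr rfl fun A _ => ?_
            rw [← mul_add, ← abs01 (ind01 _ _) (pp01 Y L u n _).1 (pp01 Y L u n _).2]
            simp only [ms, ind]; ring
        _ = _ := by
            unfold pp at a1 ⊢
            rw [← a1, ← a2, ← sum_add_distrib]
            refine sum_congr rfl fun i _ => ?_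
            by_cases hi : w i = 0
            · simp [hi]
            · rw [agree i hi _ y hy, abs01 (ind01 _ _) (b01 _ _).1 (b01 _ _).2]; ring
    · rintro rfl rfl h
      refine sum_eq_zero fun A _ => ?_
      have : pp Y L y 0 (h, A) = if y ∈ A then 1 else 0 := rfl
      rw [this, sub_self, abs_zero, if_neg (by norm_num), mul_zero]
    · intro h ω Γ hω hΓ hH hW hgap
      exact len_bad (fun A => pp Y L u n (h, A)) hy hω hΓ
        (by linarith [hG' h y, le_abs_self H0]) (fun x _ => hG h x) (fun A => pp01 Y L u n _)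
        (fun A A' l1 l2 hs => pp_mono Y L hL hG u n hn h hW A A' l1 l2 hs) hgap

end Vale.Agent.P235
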