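import Vale.Agent.P235.Machine
import Vale.Agent.P235.Len
import Vale.Agent.P235.Cut

namespace Vale.Agent.P235

open Finset

section Lip

variable {V : Type} [MetricSpace V] [Fintype V]

/-- difference quotients -/
noncomputable def hidQ (V : Type) [MetricSpace V] : (V → ℝ) →ₗ[ℝ] (V × V → ℝ) where
  toFun F q := (F q.1 - F q.2) / dist q.1 q.2
  map_add' F G := by funext q; simp only [Pi.add_apply]; ring
  map_smul' c F := by funext q; simp only [Pi.smul_apply, smul_eq_mul, RingHom.id_apply]; ring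

/-- the Lipschitz seminorm -/
noncomputable def hidL (V : Type) [MetricSpace V] [Fintype V] : Seminorm ℝ (V → ℝ) :=
  (normSeminorm ℝ (V × V → ℝ)).comp (hidQ V)

theorem hidL_le {F : V → ℝ} {K : ℝ} (hK : 0 ≤ K) (h : ∀ x y, |F x - F y| ≤ K * dist x y) :
    hidL V F ≤ K := by
  change ‖hidQ V F‖ ≤ K
  refine (pi_norm_le_iff_of_nonneg hK).2 fun q => ?_
  change |(F q.1 - F q.2) / dist q.1 q.2| ≤ K
  rw [abs_div, abs_of_nonneg dist_nonneg]
  rcases (dist_nonneg (x := q.1) (y := q.2)).eq_or_lt with h0 | h0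
  · rw [← h0]; simpa using hK
  · rw [div_le_iff₀ h0]; exact h _ _

theorem le_hidL (F : V → ℝ) (x y : V) : |F x - F y| ≤ hidL V F * dist x y := by
  by_cases hxy : x = y
  · simp [hxy]
  · have h0 : 0 < dist x y := dist_pos.2 hxy
    have h1 : ‖hidQ V F (x, y)‖ ≤ ‖hidQ V F‖ := norm_le_pi_norm _ _
    change |(F x - F y) / dist x y| ≤ hidL V F at h1
    rwa [abs_div, abs_of_pos h0, div_le_iff₀ h0] at h1

end Lip

section Gam

variable {X : Type} [DecidableEq X]

theorem hid_ex_ind (μ : X →₀ ℝ) (x : X) (l : X → ℝ) :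
    ex μ (fun z => l z * if z = x then 1 else 0) = μ x * l x := by
  rw [ex_eq_sum (U := insert x μ.support) (subset_insert _ _)]
  rw [sum_eq_single x]
  · simp
  · intro b _ hb; simp [hb]
  · intro h; exact absurd (mem_insert_self _ _) h

theorem hid_supp {Z : Type} [DecidableEq Z] {γ : Z →₀ ℝ} {ν : X →₀ ℝ} (hγ : ∀ q, 0 ≤ γ q)
    (f : Z → X) (h : ∀ g : X → ℝ, ex γ (fun q => g (f q)) = ex ν g) {q : Z} (hq : γ q ≠ 0) :
    ν (f q) ≠ 0 := by
  have h1 := h (fun z => 1 * if z = f q then 1 else 0)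
  rw [hid_ex_ind] at h1
  have h2 := ex_mono hγ (f := fun z => 1 * if z = q then 1 else 0)
    (g := fun z => 1 * if f z = f q then 1 else 0) (fun z _ => by
      by_cases hz : z = q
      · simp [hz]
      · simp only [hz, if_false, mul_zero, one_mul]; split_ifs <;> norm_num)
  rw [hid_ex_ind, h1] at h2
  have := lt_of_le_of_ne (hγ q) (Ne.symm hq)
  intro h0
  rw [h0] at h2
  linarith

theorem hid_row {γ : X × X →₀ ℝ} {ν μ' : X →₀ ℝ} (hγ : ∀ q, 0 ≤ γ q)
    (h1 : ∀ g : X → ℝ, ex γ (fun q => g q.1) = ex ν g)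
    (h2 : ∀ g : X → ℝ, ex γ (fun q => g q.2) = ex μ' g) {U : Finset X} (hU : μ'.support ⊆ U)
    (x : X) : ∑ x' ∈ U, γ (x, x') = ν x := by
  have h3 := h1 (fun z => 1 * if z = x then 1 else 0)
  rw [hid_ex_ind, mul_one] at h3
  rw [← h3, ex_eq_sum (U := insert x ν.support ×ˢ U), sum_product]
  · symm
    rw [sum_eq_single x]
    · simp
    · intro b _ hb; simp [hb]
    · intro h; exact absurd (mem_insert_self _ _) h
  · intro q hq
    rw [Finsupp.mem_support_iff] at hq
    exact mem_product.2 ⟨mem_insert_of_mem (Finsupp.mem_support_iff.2 (hid_supp hγ _ h1 hq)),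
      hU (Finsupp.mem_support_iff.2 (hid_supp hγ _ h2 hq))⟩

theorem hid_col {γ : X × X →₀ ℝ} {ν : X →₀ ℝ} (hγ : ∀ q, 0 ≤ γ q)
    (h1 : ∀ g : X → ℝ, ex γ (fun q => g q.1) = ex ν g) (x' : X) (z : ℝ) (l : X → ℝ) :
    ex ν (fun x => (if ν x ≠ 0 then γ (x, x') / ν x else z) * l x)
      = ex γ (fun q => l q.1 * if q.2 = x' then 1 else 0) := by
  rw [ex_eq_sum (μ := γ) (U := ν.support ×ˢ insert x' (γ.support.image Prod.snd)),
    ex_eq_sum (μ := ν) subset_rfl, sum_product]
  · refine sum_congr rfl fun x hx => ?_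
    rw [Finsupp.mem_support_iff] at hx
    rw [sum_eq_single x', if_pos hx]
    · simp only [if_true]; field_simp
    · intro b _ hb; simp [hb]
    · intro h; exact absurd (mem_insert_self _ _) h
  · intro q hq
    refine mem_product.2 ⟨?_, mem_insert_of_mem (mem_image_of_mem _ hq)⟩
    rw [Finsupp.mem_support_iff] at hq ⊢
    exact hid_supp hγ _ h1 hq

end Gam

section Mrg

variable {Lv B : Type} [DecidableEq Lv]

/-- keep the coordinates in `Kp` from `ε` and take the others from `ζ` -/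
def mrg (Kp : Finset Lv) (ε ζ : Lv → B) : Lv → B := fun p => if p ∈ Kp then ε p else ζ p

variable [Fintype Lv] [Fintype B] [DecidableEq B]

/-- the resampling kernel -/
noncomputable def lam (Kp : Finset Lv) (ε ε' : Lv → B) : ℝ :=
  (∑ ζ : Lv → B, if mrg Kp ε ζ = ε' then (1 : ℝ) else 0) / Fintype.card (Lv → B)

theorem lam_nonneg (Kp : Finset Lv) (ε ε' : Lv → B) : 0 ≤ lam Kp ε ε' :=
  div_nonneg (sum_nonneg fun _ _ => by split_ifs <;> norm_num) (Nat.cast_nonneg _)

theorem sum_lam [Nonempty B] (Kp : Finset Lv) (ε : Lv → B) : ∑ ε', lam Kp ε ε' = 1 := by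
  unfold lam
  rw [← sum_div, sum_comm]
  simp only [sum_ite_eq, mem_univ, if_true, sum_const, card_univ, nsmul_eq_mul, mul_one]
  exact div_self (Nat.cast_ne_zero.2 Fintype.card_ne_zero)

theorem lam_ne {Kp : Finset Lv} {ε ε' : Lv → B} (h : lam Kp ε ε' ≠ 0) :
    ∀ p ∈ Kp, ε' p = ε p := by
  intro p hp
  by_contra hne
  apply h
  unfold lam
  rw [sum_eq_zero, zero_div]
  intro ζ _
  rw [if_neg]
  intro h'
  apply hne
  rw [← h']; simp [mrg, hp]

theorem sum_mul_lam (Kp : Finset Lv) (ε' : Lv → B) (Φ : (Lv → B) → ℝ)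
    (hΦ : ∀ α β, Φ (mrg Kp α β) = Φ β) :
    ∑ ε, Φ ε * lam Kp ε ε' = (∑ β, Φ β) / Fintype.card (Lv → B) := by
  unfold lam
  simp only [← mul_div_assoc, ← sum_div, mul_sum]
  congr 1
  let e : (Lv → B) × (Lv → B) → (Lv → B) × (Lv → B) := fun q => (mrg Kp q.1 q.2, mrg Kp q.2 q.1)
  have he : Function.Involutive e := by
    intro q
    ext p <;> by_cases hp : p ∈ Kp <;> simp [e, mrg, hp]
  rw [← Fintype.sum_prod_type']
  rw [← Equiv.sum_comp (he.toPerm e)]
  have : ∀ q : (Lv → B) × (Lv → B), Φ ((he.toPerm e) q).1 *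
      (if mrg Kp ((he.toPerm e) q).1 ((he.toPerm e) q).2 = ε' then (1 : ℝ) else 0)
      = Φ q.2 * if q.1 = ε' then 1 else 0 := by
    intro q
    have h1 : mrg Kp ((he.toPerm e) q).1 ((he.toPerm e) q).2 = q.1 := congrArg Prod.fst (he q)
    rw [h1]
    exact congrArg (· * _) (hΦ q.1 q.2)
  simp only [this]
  rw [Fintype.sum_prod_type, sum_comm]
  simp

theorem lam_update_both {Kp : Finset Lv} {p : Lv} (hp : p ∈ Kp) (f : B → B)
    (hf : Function.Injective f) (ε ε' : Lv → B) :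
    lam Kp (Function.update ε p (f (ε p))) (Function.update ε' p (f (ε' p))) = lam Kp ε ε' := by
  unfold lam
  congr 1
  refine sum_congr rfl fun ζ _ => ?_
  refine if_congr ?_ rfl rfl
  simp only [funext_iff]
  refine forall_congr' fun q => ?_
  by_cases hq : q = p
  · subst hq; simp [mrg, hp, hf.eq_iff]
  · simp [mrg, Function.update_of_ne hq]

theorem lam_update_right {Kp : Finset Lv} {p : Lv} (hp : p ∉ Kp) (f : B → B)
    (hf : Function.Involutive f) (ε ε' : Lv → B) :
    lam Kp ε (Function.update ε' p (f (ε' p))) = lam Kp ε ε' := by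
  unfold lam
  congr 1
  let e : (Lv → B) → (Lv → B) := fun ζ => Function.update ζ p (f (ζ p))
  have he : Function.Involutive e := by
    intro ζ
    simp [e, hf (ζ p)]
  rw [← Equiv.sum_comp (he.toPerm e)]
  refine sum_congr rfl fun ζ _ => ?_
  refine if_congr ?_ rfl rfl
  simp only [funext_iff]
  refine forall_congr' fun q => ?_
  by_cases hq : q = p
  · subst hq; simp [mrg, hp, e, hf.injective.eq_iff]
  · simp [mrg, e, Function.update_of_ne hq]

end Mrg

end Vale.Agent.P235
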