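import Vale.Agent.P235.HidA

namespace Vale.Agent.P235

open Finset

set_option linter.unusedSectionVars false

variable {V Lv : Type} [Fintype Lv] [DecidableEq Lv] {J : ℕ}

/-- the total function of a thread for the signs `ε`, using the levels of `Kp` -/
noncomputable def hG (ψ : Lv → V → ℝ) (Kp : Finset Lv) (x : (V → ℝ) × (Lv → ℝ))
    (ε : Lv → Bool × Fin J) (y : V) : ℝ :=
  x.1 y + ∑ p ∈ Kp, sg (ε p) * (x.2 p * ψ p y)

/-- release of the levels outside `Kp` -/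
noncomputable def hRel (ψ : Lv → V → ℝ) (Kp : Finset Lv) (x : (V → ℝ) × (Lv → ℝ))
    (ζ : Lv → Bool × Fin J) : (V → ℝ) × (Lv → ℝ) :=
  (hG ψ Kpᶜ x ζ, fun p => if p ∈ Kp then x.2 p else 0)

/-- total pending amplitude -/
noncomputable def hS (V Lv : Type) [Fintype Lv] : (V → ℝ) × (Lv → ℝ) →ₗ[ℝ] ℝ where
  toFun x := ∑ p, x.2 p
  map_add' x y := by simp [sum_add_distrib]
  map_smul' c x := by simp [mul_sum]

theorem hS_apply (x : (V → ℝ) × (Lv → ℝ)) : hS V Lv x = ∑ p, x.2 p := rfl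

theorem hG_congr (ψ : Lv → V → ℝ) (Kp : Finset Lv) (x : (V → ℝ) × (Lv → ℝ))
    {ε ε' : Lv → Bool × Fin J} (h : ∀ p ∈ Kp, ε p = ε' p) : hG ψ Kp x ε = hG ψ Kp x ε' := by
  funext y
  unfold hG
  congr 1
  exact sum_congr rfl fun p hp => by rw [h p hp]

theorem hRel_mrg (ψ : Lv → V → ℝ) (Kp : Finset Lv) (x : (V → ℝ) × (Lv → ℝ))
    (α β : Lv → Bool × Fin J) : hRel ψ Kp x (mrg Kp α β) = hRel ψ Kp x β := by
  unfold hRel
  rw [hG_congr ψ Kpᶜ x (ε := mrg Kp α β) (ε' := β)]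
  intro p hp
  simp [mrg, mem_compl.1 hp]

theorem hG_hRel (ψ : Lv → V → ℝ) (Kp : Finset Lv) (x : (V → ℝ) × (Lv → ℝ))
    (ε ζ : Lv → Bool × Fin J) :
    hG ψ Kp (hRel ψ Kp x ζ) ε = hG ψ univ x (mrg Kp ε ζ) := by
  funext y
  simp only [hG, hRel]
  rw [← sum_add_sum_compl Kp, add_assoc, add_comm (∑ p ∈ Kpᶜ, _)]
  congr 2
  · exact sum_congr rfl fun p hp => by simp [mrg, hp]
  · exact sum_congr rfl fun p hp => by simp [mrg, mem_compl.1 hp]

theorem mrg_self {B : Type} (Kp : Finset Lv) (ε : Lv → B) : mrg Kp ε ε = ε := by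
  funext p; simp [mrg]

theorem sum_sg_coord (p : Lv) : ∑ ζ : Lv → Bool × Fin J, sg (ζ p) = 0 := by
  let e : (Lv → Bool × Fin J) → (Lv → Bool × Fin J) :=
    fun ζ => Function.update ζ p (!(ζ p).1, (ζ p).2)
  have he : Function.Involutive e := by
    intro ζ; simp [e]
  have h1 := Equiv.sum_comp (he.toPerm e) (fun ζ => sg (ζ p))
  have h2 : ∀ ζ, sg ((he.toPerm e ζ) p) = - sg (ζ p) := by
    intro ζ
    change sg (e ζ p) = _
    simp only [e, Function.update_self]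
    exact sg_flip _
  simp only [h2, sum_neg_distrib] at h1
  linarith

theorem hG_bary (ψ : Lv → V → ℝ) (Kp : Finset Lv) (ε : Lv → Bool × Fin J) (y : V)
    (ν : (V → ℝ) × (Lv → ℝ) →₀ ℝ) (z : (V → ℝ) × (Lv → ℝ))
    (hz : (ν.sum fun x w => w • x) = mass ν • z) :
    ∑ x ∈ ν.support, ν x * hG ψ Kp x ε y = (∑ x ∈ ν.support, ν x) * hG ψ Kp z ε y := by
  let T : (V → ℝ) × (Lv → ℝ) →ₗ[ℝ] ℝ :=
    { toFun := fun x => hG ψ Kp x ε y
      map_add' := fun a b => by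
        simp only [hG, Prod.fst_add, Prod.snd_add, Pi.add_apply, add_mul, mul_add,
          sum_add_distrib]
        ring
      map_smul' := fun c a => by
        simp only [hG, Prod.smul_fst, Prod.smul_snd, Pi.smul_apply, smul_eq_mul,
          RingHom.id_apply, mul_add, mul_sum]
        congr 1
        exact sum_congr rfl fun _ _ => by ring }
  have h1 := congrArg T hz
  rw [Finsupp.sum, map_sum, map_smul] at h1
  simp only [map_smul, smul_eq_mul] at h1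
  exact h1

theorem coord_bary (p : Lv) (ν : (V → ℝ) × (Lv → ℝ) →₀ ℝ) (z : (V → ℝ) × (Lv → ℝ))
    (hz : (ν.sum fun x w => w • x) = mass ν • z) :
    ex ν (fun x => x.2 p) = mass ν * z.2 p := by
  have h1 := congrArg ((LinearMap.proj p).comp (LinearMap.snd ℝ (V → ℝ) (Lv → ℝ))) hz
  rw [Finsupp.sum, map_sum, map_smul] at h1
  simp only [map_smul, smul_eq_mul] at h1
  exact h1

variable [MetricSpace V] [Fintype V]

theorem hidL_sum_le (ψ : Lv → V → ℝ) (hψ : ∀ p x y, |ψ p x - ψ p y| ≤ dist x y)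
    (D : Finset Lv) (a : Lv → ℝ) (ha : ∀ p, 0 ≤ a p) (ζ : Lv → Bool × Fin J) :
    hidL V (fun y => ∑ p ∈ D, sg (ζ p) * (a p * ψ p y)) ≤ ∑ p ∈ D, a p := by
  refine hidL_le (sum_nonneg fun p _ => ha p) fun x y => ?_
  rw [← sum_sub_distrib, sum_mul]
  refine (abs_sum_le_sum_abs _ _).trans (sum_le_sum fun p _ => ?_)
  rw [← mul_sub, ← mul_sub, abs_mul, abs_mul, abs_of_nonneg (ha p)]
  calc |sg (ζ p)| * (a p * |ψ p x - ψ p y|) ≤ 1 * (a p * dist x y) := by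
        gcongr
        · exact mul_nonneg (ha p) (abs_nonneg _)
        · exact abs_sg_le _
        · exact ha p
        · exact hψ p x y
    _ = _ := one_mul _

/-- invariant of the thread distribution -/
def HInv (m : ℕ) (P M δ : ℝ) (Ac : Finset Lv) (μ : (V → ℝ) × (Lv → ℝ) →₀ ℝ) : Prop :=
  Good (hidL V) (LinearMap.fst ℝ (V → ℝ) (Lv → ℝ)) (hS V Lv) P M m μ 0 ∧ mass μ = 1 ∧
    (∀ x ∈ μ.support, ∀ p, 0 ≤ x.2 p ∧ x.2 p ≤ 1 ∧ (p ∉ Ac → x.2 p = 0)) ∧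
    ∀ p ∈ Ac, 1 - δ ≤ ex μ (fun x => x.2 p)

/-- the coupling between consecutive thread distributions -/
def HCoup [DecidableEq V] (J : ℕ) (ψ : Lv → V → ℝ) (S : Finset V) (Kp : Finset Lv)
    (μ μ' : (V → ℝ) × (Lv → ℝ) →₀ ℝ)
    (γ : ((V → ℝ) × (Lv → ℝ)) × ((V → ℝ) × (Lv → ℝ)) →₀ ℝ) : Prop :=
  (∀ q, 0 ≤ γ q) ∧
    (∀ g, ex γ (fun q => g q.1) = ex (push (hRel (J := J) ψ Kp) μ) g) ∧
    (∀ g, ex γ (fun q => g q.2) = ex μ' g) ∧
    ∀ (L : ℝ), (∀ x ∈ μ.support, ∀ (ζ : Lv → Bool × Fin J) y, |hG ψ univ x ζ y| ≤ L) →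
      ∀ (ε : Lv → Bool × Fin J) (A : Finset V) (g : (V → ℝ) × (Lv → ℝ) → ℝ),
        ex γ (fun q => len L S (hG ψ Kp q.1 ε) A * g q.2)
          = ex μ' (fun x => len L S (hG ψ univ x ε) A * g x)

theorem hstep [DecidableEq V] {k P : ℕ} (hJ : 0 < J) {δ M : ℝ} {m : ℕ}
    (mach : ∀ (C : Type) (P' : ℝ) (A : Set ((V → ℝ) × (Lv → ℝ)))
      (st : (V → ℝ) × (Lv → ℝ) → (V → ℝ) × (Lv → ℝ)) (π : (V → ℝ) × (Lv → ℝ) → C)
      (Cl : Finset C) (μ : (V → ℝ) × (Lv → ℝ) →₀ ℝ) (c0 : V → ℝ),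
      0 < P' → Convex ℝ A → Cl.card ≤ 2 ^ ((2 * J) ^ P * (k + 1) ^ 2) →
      (∀ x ∈ A, π x ∈ Cl ∧ 0 ≤ hS V Lv x ∧ hS V Lv x ≤ P' ∧ 0 ≤ hS V Lv (st x) ∧
        hS V Lv (st x) ≤ P' ∧ LinearMap.fst ℝ _ _ (st x) = LinearMap.fst ℝ _ _ x) →
      (∀ x ∈ μ.support, x ∈ A) → Good (hidL V) (LinearMap.fst ℝ _ _) (hS V Lv) P' M m μ c0 →
      ∃ (μ' : (V → ℝ) × (Lv → ℝ) →₀ ℝ)
        (γ : ((V → ℝ) × (Lv → ℝ)) × ((V → ℝ) × (Lv → ℝ)) →₀ ℝ),
        Good (hidL V) (LinearMap.fst ℝ _ _) (hS V Lv) P' M m μ' c0 ∧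
        (∀ x ∈ μ'.support, x ∈ A ∨ ∃ z ∈ A, x = st z) ∧
        (∀ φ, (∀ x ∈ A, φ x ≤ 1) → (∀ z ∈ A, φ (st z) ≤ 0) → ex μ' φ ≤ δ * mass μ) ∧
        (∀ q, 0 ≤ γ q) ∧ (∀ g, ex γ (fun q => g q.1) = ex μ g) ∧
        ∀ l, (∀ z ∈ A, l (st z) = l z) →
          (∀ (ν : (V → ℝ) × (Lv → ℝ) →₀ ℝ) (c : C) z, (∀ x, 0 ≤ ν x) →
            (∀ x ∈ ν.support, x ∈ μ.support ∧ π x = c) → mass ν ≠ 0 →
            (ν.sum fun x w => w • x) = mass ν • z → ex ν l = mass ν * l z) →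
          ∀ g : (V → ℝ) × (Lv → ℝ) → ℝ,
            ex γ (fun q => l q.1 * g q.2) = ex μ' (fun x => l x * g x))
    (ψ : Lv → V → ℝ) (hψ : ∀ p x y, |ψ p x - ψ p y| ≤ dist x y) (S : Finset V)
    (hS' : S.card ≤ k + 1) (Ac Ac' : Finset Lv) (hAc' : Ac'.card ≤ P)
    (hnew : ∀ p ∈ Ac', p ∉ Ac → ∀ y ∈ S, ψ p y = 0) (μ : (V → ℝ) × (Lv → ℝ) →₀ ℝ)
    (hμ : HInv m ((P : ℝ) + 1) M δ Ac μ) :
    ∃ μ' γ, HInv m ((P : ℝ) + 1) M δ Ac' μ' ∧ HCoup J ψ S (Ac ∩ Ac') μ μ' γ := by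
  classical
  obtain ⟨hG0, hm1, ha, hE⟩ := hμ
  set Kp := Ac ∩ Ac' with hKp
  have : Nonempty (Bool × Fin J) := ⟨(true, ⟨0, hJ⟩)⟩
  let d0 : Bool × Fin J := (true, ⟨0, hJ⟩)
  set μr := push (hRel (J := J) ψ Kp) μ with hμr
  have hcard : (Fintype.card (Lv → Bool × Fin J) : ℝ) ≠ 0 :=
    Nat.cast_ne_zero.2 Fintype.card_ne_zero
  have hGr : Good (hidL V) (LinearMap.fst ℝ (V → ℝ) (Lv → ℝ)) (hS V Lv) (P + 1) M m μr 0 := by
    refine hG0.push _ (fun x _ => ?_) (fun x hx ζ => ?_)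
    · funext y
      simp only [LinearMap.fst_apply, hRel, Finset.sum_apply, hG, Pi.smul_apply, smul_eq_mul,
        sum_add_distrib, sum_const, card_univ, nsmul_eq_mul]
      rw [sum_comm]
      simp only [← sum_mul, sum_sg_coord, zero_mul, sum_const_zero, add_zero]
    · have h1 := hidL_sum_le ψ hψ Kpᶜ x.2 (fun p => (ha x hx p).1) ζ
      have h2 : LinearMap.fst ℝ (V → ℝ) (Lv → ℝ) (hRel ψ Kp x ζ) - LinearMap.fst ℝ _ _ x
          = fun y => ∑ p ∈ Kpᶜ, sg (ζ p) * (x.2 p * ψ p y) := by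
        funext y; simp [hRel, hG]
      rw [h2, hS_apply, hS_apply, ← sum_add_sum_compl Kp x.2]
      simp only [hRel, sum_ite_mem, univ_inter]
      linarith
  have hmr : mass μr = 1 := by
    rw [mass_eq_ex, ex_push]
    refine (ex_congr fun x _ => ?_).trans ((mass_eq_ex μ).symm.trans hm1)
    simp only [sum_const, card_univ, nsmul_eq_mul, mul_one]
    exact div_self hcard
  let A : Set ((V → ℝ) × (Lv → ℝ)) := {x | ∀ p, 0 ≤ x.2 p ∧ x.2 p ≤ 1 ∧ (p ∉ Kp → x.2 p = 0)}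
  let st : (V → ℝ) × (Lv → ℝ) → (V → ℝ) × (Lv → ℝ) :=
    fun x => (x.1, fun p => if p ∈ Ac' \ Ac then 1 else x.2 p)
  let EK : Finset (Lv → Bool × Fin J) :=
    Fintype.piFinset fun p => if p ∈ Kp then univ else {d0}
  let π : (V → ℝ) × (Lv → ℝ) → Finset ((Lv → Bool × Fin J) × V × V) :=
    fun x => (EK ×ˢ S ×ˢ S).filter fun q => hG ψ Kp x q.1 q.2.1 ≤ hG ψ Kp x q.1 q.2.2
  have hKA : Kp ⊆ Ac' := inter_subset_right
  have hsum : ∀ a : Lv → ℝ, (∀ p, 0 ≤ a p ∧ a p ≤ 1 ∧ (p ∉ Ac' → a p = 0)) →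
      0 ≤ ∑ p, a p ∧ ∑ p, a p ≤ (P : ℝ) + 1 := by
    intro a h
    refine ⟨sum_nonneg fun p _ => (h p).1, ?_⟩
    rw [← sum_subset (subset_univ Ac') (fun p _ hp => (h p).2.2 hp)]
    have h1 : ∑ p ∈ Ac', a p ≤ ∑ p ∈ Ac', (1 : ℝ) := sum_le_sum fun p _ => (h p).2.1
    simp only [sum_const, nsmul_eq_mul, mul_one] at h1
    have h2 : (Ac'.card : ℝ) ≤ P := by exact_mod_cast hAc'
    linarith
  have hA1 : ∀ x ∈ A, ∀ p, 0 ≤ x.2 p ∧ x.2 p ≤ 1 ∧ (p ∉ Ac' → x.2 p = 0) := fun x hx p =>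
    ⟨(hx p).1, (hx p).2.1, fun h => (hx p).2.2 fun h' => h (hKA h')⟩
  have hA2 : ∀ x ∈ A, ∀ p, 0 ≤ (st x).2 p ∧ (st x).2 p ≤ 1 ∧ (p ∉ Ac' → (st x).2 p = 0) := by
    intro x hx p
    by_cases hp : p ∈ Ac' \ Ac
    · simp only [st, if_pos hp]
      exact ⟨zero_le_one, le_rfl, fun h => absurd (mem_sdiff.1 hp).1 h⟩
    · simp only [st, if_neg hp]
      exact hA1 x hx p
  have hstG : ∀ z (ε : Lv → Bool × Fin J), hG ψ Kp (st z) ε = hG ψ Kp z ε := by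
    intro z ε
    funext y
    unfold hG
    congr 1
    refine sum_congr rfl fun p hp => ?_
    have : p ∉ Ac' \ Ac := fun h => (mem_sdiff.1 h).2 (mem_inter.1 hp).1
    simp only [st, if_neg this]
  obtain ⟨μ', γ, hG', hsupp, hφ, hγ0, hγ1, hl⟩ := mach _ ((P : ℝ) + 1) A st π
    (EK ×ˢ S ×ˢ S).powerset μr 0 (by positivity)
    (by
      intro x hx y hy a b ha hb hab p
      simp only [Prod.snd_add, Prod.smul_snd, Pi.add_apply, Pi.smul_apply, smul_eq_mul]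
      obtain ⟨h1, h2, h3⟩ := hx p
      obtain ⟨h4, h5, h6⟩ := hy p
      refine ⟨by positivity, by nlinarith, fun h => by rw [h3 h, h6 h]; ring⟩)
    (by
      rw [card_powerset]
      refine Nat.pow_le_pow_right two_pos ?_
      rw [card_product, card_product]
      refine Nat.mul_le_mul ?_ (by nlinarith)
      rw [Fintype.card_piFinset]
      have : ∀ p, (if p ∈ Kp then (univ : Finset (Bool × Fin J)) else {d0}).card
          = if p ∈ Kp then 2 * J else 1 := by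
        intro p; split_ifs <;> simp
      simp only [this]
      rw [prod_ite_mem, univ_inter, prod_const]
      exact Nat.pow_le_pow_right (by omega) ((card_le_card hKA).trans hAc'))
    (fun x hx => ⟨mem_powerset.2 (filter_subset _ _), (hsum _ (hA1 x hx)).1,
      (hsum _ (hA1 x hx)).2, (hsum _ (hA2 x hx)).1, (hsum _ (hA2 x hx)).2, rfl⟩)
    (by
      intro x' hx' p
      obtain ⟨x, hx, ζ, rfl⟩ := mem_support_push hx'
      by_cases hp : p ∈ Kp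
      · simp only [hRel, if_pos hp]
        exact ⟨(ha x hx p).1, (ha x hx p).2.1, fun h => absurd hp h⟩
      · simp [hRel, hp]) hGr
  have hγ2 : ∀ g, ex γ (fun q => g q.2) = ex μ' g := by
    intro g
    have := hl (fun _ => 1) (fun _ _ => rfl) (fun ν c z _ _ _ _ => by
      rw [mul_one, mass_eq_ex]) g
    simpa using this
  have hm' : mass μ' = 1 := by
    rw [mass_eq_ex, ← hγ2]
    exact (hγ1 fun _ => 1).trans ((mass_eq_ex μr).symm.trans hmr)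
  have ha' : ∀ x ∈ μ'.support, ∀ p, 0 ≤ x.2 p ∧ x.2 p ≤ 1 ∧ (p ∉ Ac' → x.2 p = 0) := by
    intro x hx
    rcases hsupp x hx with h | ⟨z, hz, rfl⟩
    · exact hA1 x h
    · exact hA2 z hz
  refine ⟨μ', γ, ⟨hG', hm', ha', fun p hp => ?_⟩, hγ0, hγ1, hγ2, fun L hL ε B g => ?_⟩
  · by_cases hp' : p ∈ Ac
    · have hpK : p ∈ Kp := mem_inter.2 ⟨hp', hp⟩
      have h1 := hl (fun x => x.2 p) (fun z _ => by
        have : p ∉ Ac' \ Ac := fun h => (mem_sdiff.1 h).2 hp'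
        simp only [st, if_neg this]) (fun ν c z _ _ _ hz => coord_bary p ν z hz) (fun _ => 1)
      simp only [mul_one] at h1
      rw [← h1, hγ1 (fun x => x.2 p), ex_push]
      refine (hE p hp').trans (le_of_eq (ex_congr fun x _ => ?_))
      simp only [hRel, if_pos hpK, sum_const, card_univ, nsmul_eq_mul]
      field_simp
    · have h1 := hφ (fun x => 1 * 1 + (-1) * x.2 p) (fun x hx => by
        have := (hx p).1; linarith) (fun z _ => by
        have : p ∈ Ac' \ Ac := mem_sdiff.2 ⟨hp, hp'⟩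
        simp only [st, if_pos this]; norm_num)
      rw [ex_lin μ' (fun _ => 1), ← mass_eq_ex, hm', hmr] at h1
      linarith
  · have h1 := hl (fun x => len L S (hG ψ Kp x ε) B) (fun z _ => by simp only [hstG])
      (fun ν c z hν hs hm hz => by
        have h2 := len_affine (L := L) (S := S) (G := hG ψ Kp z ε) ν.support ν
          (fun x => hG ψ Kp x ε) (fun x _ => hν x) hm (fun x hx y _ => by
            obtain ⟨x0, hx0, ζ, e⟩ := mem_support_push (hs x hx).1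
            rw [e, hG_hRel]; exact hL x0 hx0 _ y)
          (fun x hx x' hx' y hy y' hy' hle => by
            have e0 : ∀ w : (V → ℝ) × (Lv → ℝ), hG ψ Kp w ε = hG ψ Kp w (mrg Kp ε fun _ => d0) :=
              fun w => hG_congr ψ Kp w fun p hp => by simp [mrg, hp]
            have hq : (mrg Kp ε fun _ => d0, y, y') ∈ π x := by
              refine mem_filter.2 ⟨mem_product.2 ⟨?_, mem_product.2 ⟨hy, hy'⟩⟩, ?_⟩
              · refine Fintype.mem_piFinset.2 fun p => ?_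
                by_cases hp : p ∈ Kp <;> simp [mrg, hp]
              · simpa only [← e0] using hle
            rw [(hs x hx).2, ← (hs x' hx').2] at hq
            simpa only [← e0] using (mem_filter.1 hq).2)
          (fun y _ => hG_bary ψ Kp ε y ν z hz) B
        exact h2) g
    rw [h1]
    refine ex_congr fun x hx => ?_
    congr 1
    refine len_congr (fun y hy => ?_) B
    unfold hG
    congr 1
    refine sum_subset (subset_univ _) fun p _ hp => ?_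
    by_cases hp1 : p ∈ Ac'
    · rw [hnew p hp1 (fun h => hp (mem_inter.2 ⟨h, hp1⟩)) y hy]; ring
    · rw [(ha' x hx p).2.2 hp1]; ring

end Vale.Agent.P235
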