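import Vale.Agent.P235.HidB

namespace Vale.Agent.P235

open Finset

/-- The hidden system carrying a schedule `Act` of protected levels `ψ`. -/
theorem hidden (k P J : ℕ) (hJ : 0 < J) (δ : ℝ) (hδ : 0 < δ) : ∃ K : ℝ, 1 ≤ K ∧
    ∀ (V : Type) [MetricSpace V] [Fintype V] [DecidableEq V] (E : Elim V k) (Lv : Type)
      [Fintype Lv] [DecidableEq Lv] (Act : V → Finset Lv) (ψ : Lv → V → ℝ),
      (∀ v, (Act v).card ≤ P) → Act E.r = ∅ → (∀ p x y, |ψ p x - ψ p y| ≤ dist x y) →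
      (∀ c, c ≠ E.r → ∀ p ∈ Act c, p ∉ Act (E.par c) → ∀ y ∈ E.S (E.par c), ψ p y = 0) →
      ∃ (ι : Type) (_ : Fintype ι) (_ : DecidableEq ι) (μ : V → ι → ℝ) (F : ι → V → ℝ)
        (a : ι → Lv → ℝ) (Y : HSys E (ι × (Lv → Bool × Fin J)) K),
        (∀ v h, Y.W v h = μ v h.1 / Fintype.card (Lv → Bool × Fin J)) ∧
        (∀ h y, Y.G h y = F h.1 y + ∑ p, sg (h.2 p) * (a h.1 p * ψ p y)) ∧
        (∀ i p, 0 ≤ a i p ∧ a i p ≤ 1) ∧
        (∀ v, ∀ p ∈ Act v, 1 - δ ≤ ∑ i, μ v i * a i p) ∧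
        (∀ c p, p ∈ Act c → p ∈ Act (E.par c) → ∀ h h',
          Y.κ c (flp p h) (flp p h') = Y.κ c h h') ∧
        (∀ c p, p ∉ Act (E.par c) → ∀ h h', Y.κ c h (flp p h') = Y.κ c h h') := by
  obtain ⟨m, M, hM, mach⟩ := machine (2 ^ ((2 * J) ^ P * (k + 1) ^ 2)) δ hδ
  have hP0 : (0 : ℝ) ≤ (P : ℝ) + 1 := by positivity
  have hK : 1 ≤ M * 3 ^ m * ((P : ℝ) + 1) := by
    have h1 : (1 : ℝ) ≤ 3 ^ m := one_le_pow₀ (by norm_num)
    have h2 : (1 : ℝ) ≤ (P : ℝ) + 1 := by linarith [Nat.cast_nonneg (α := ℝ) P]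
    exact one_le_mul_of_one_le_of_one_le (one_le_mul_of_one_le_of_one_le hM h1) h2
  refine ⟨M * 3 ^ m * ((P : ℝ) + 1), hK, ?_⟩
  intro V _ _ _ E Lv _ _ Act ψ hcardA hr hψ hnew
  classical
  have : Nonempty (Bool × Fin J) := ⟨(true, ⟨0, hJ⟩)⟩
  have hcard : (0 : ℝ) < Fintype.card (Lv → Bool × Fin J) := Nat.cast_pos.2 Fintype.card_pos
  obtain ⟨f, hf1, hf2⟩ := E.exists_rec
    (α := ((V → ℝ) × (Lv → ℝ) →₀ ℝ) × (((V → ℝ) × (Lv → ℝ)) × ((V → ℝ) × (Lv → ℝ)) →₀ ℝ))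
    (fun v a => HInv m ((P : ℝ) + 1) M δ (Act v) a.1)
    (fun c a a' => HCoup J ψ (E.S (E.par c)) (Act (E.par c) ∩ Act c) a.1 a'.1 a'.2)
    ⟨(Finsupp.single 0 1, 0), by
      refine ⟨?_, ?_, ?_, ?_⟩
      · have := good_single (p := hidL V) (F := LinearMap.fst ℝ (V → ℝ) (Lv → ℝ))
          (s := hS V Lv) (P := (P : ℝ) + 1) (M := M) m 0 zero_le_one hP0 hM
          (by rw [map_zero]; exact hP0)
        rwa [map_zero] at this
      · rw [mass_eq_ex, ex_single]; ring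
      · intro x hx p
        have := Finsupp.support_single_subset hx
        rw [mem_singleton] at this
        subst this
        simp
      · intro p hp; rw [hr] at hp; exact absurd hp (notMem_empty p)⟩
    (fun c hc a ha => by
      obtain ⟨μ', γ, h1, h2⟩ := hstep (k := k) hJ (fun C => mach _ _ C (hidL V)
        (LinearMap.fst ℝ _ _) (hS V Lv)) ψ hψ (E.S (E.par c)) (E.card_le _) (Act (E.par c))
        (Act c) (hcardA c) (hnew c hc) a.1 ha
      exact ⟨(μ', γ), h1, h2⟩)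
  let U : Finset ((V → ℝ) × (Lv → ℝ)) := univ.biUnion fun v => (f v).1.support
  have hU : ∀ v, (f v).1.support ⊆ U := fun v =>
    subset_biUnion_of_mem (fun v => (f v).1.support) (mem_univ v)
  have hsumU : ∀ v (g : (V → ℝ) × (Lv → ℝ) → ℝ),
      ∑ i : U, (f v).1 i * g i = ex (f v).1 g := fun v g => by
    rw [ex_eq_sum (hU v), ← sum_coe_sort U fun x => (f v).1 x * g x]
  have hμ0 : ∀ v x, 0 ≤ (f v).1 x := fun v => (hf1 v).1.nonneg
  have hμ1 : ∀ v, ∑ i : U, (f v).1 i = 1 := fun v => by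
    have := hsumU v fun _ => 1
    rw [← mass_eq_ex, (hf1 v).2.1] at this
    simpa using this
  let Kp : V → Finset Lv := fun c => Act (E.par c) ∩ Act c
  let ν : V → ((V → ℝ) × (Lv → ℝ) →₀ ℝ) :=
    fun c => push (hRel (J := J) ψ (Kp c)) (f (E.par c)).1
  let km : V → (V → ℝ) × (Lv → ℝ) → (V → ℝ) × (Lv → ℝ) → ℝ := fun c x x' =>
    if c = E.r then (f c).1 x' else if ν c x ≠ 0 then (f c).2 (x, x') / ν c x else (f c).1 x'
  have hν0 : ∀ c x, 0 ≤ ν c x := fun c => push_nonneg _ (hμ0 _)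
  have hkm0 : ∀ c x x', 0 ≤ km c x x' := by
    intro c x x'
    simp only [km]
    split_ifs with h1 h2
    · exact hμ0 _ _
    · exact div_nonneg ((hf2 c h1).1 _) (hν0 _ _)
    · exact hμ0 _ _
  have hkm1 : ∀ c x, ∑ i : U, km c x i = 1 := by
    intro c x
    simp only [km]
    split_ifs with h1 h2
    · exact hμ1 c
    · rw [← sum_div, sum_coe_sort U fun x' => (f c).2 (x, x'),
        hid_row (hf2 c h1).1 (hf2 c h1).2.1 (hf2 c h1).2.2.1 (hU c)]
      exact div_self h2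
    · exact hμ1 c
  let κ : V → U × (Lv → Bool × Fin J) → U × (Lv → Bool × Fin J) → ℝ := fun c h h' =>
    km c (hRel ψ (Kp c) h.1 h.2) h'.1 * lam (Kp c) h.2 h'.2
  have key : ∀ c, c ≠ E.r → ∀ (h' : U × (Lv → Bool × Fin J)) (l : (V → ℝ) → ℝ),
      ∑ h : U × (Lv → Bool × Fin J), (f (E.par c)).1 h.1 / Fintype.card (Lv → Bool × Fin J)
        * κ c h h' * l (hG ψ univ h.1 h.2)
      = ex (f c).2 (fun q => l (hG ψ (Kp c) q.1 h'.2) * if q.2 = h'.1 then 1 else 0)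
        / Fintype.card (Lv → Bool × Fin J) := by
    intro c hc h' l
    rw [← hid_col (hf2 c hc).1 (hf2 c hc).2.1 h'.1 ((f c).1 h'.1)
      (fun x => l (hG ψ (Kp c) x h'.2)), ex_push, ← hsumU, Fintype.sum_prod_type, sum_div]
    refine sum_congr rfl fun i _ => ?_
    have h1 := sum_mul_lam (Kp c) h'.2 (fun β => km c (hRel ψ (Kp c) i β) h'.1 *
      l (hG ψ (Kp c) (hRel ψ (Kp c) i β) h'.2)) (fun α β => by simp only [hRel_mrg])
    simp only [km, if_neg hc] at h1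
    rw [← h1, mul_sum, sum_div]
    refine sum_congr rfl fun ε _ => ?_
    simp only [κ, km, if_neg hc]
    by_cases h0 : lam (Kp c) ε h'.2 = 0
    · rw [h0]; ring
    · have h2 : hG ψ (Kp c) (hRel ψ (Kp c) i ε) h'.2 = hG ψ univ i ε := by
        rw [hG_congr ψ (Kp c) _ (lam_ne h0), hG_hRel, mrg_self]
      rw [h2]; ring
  have ha : ∀ (i : U) p, 0 ≤ i.1.2 p ∧ i.1.2 p ≤ 1 := by
    intro i p
    obtain ⟨v, -, hv⟩ := mem_biUnion.1 i.2
    exact ⟨((hf1 v).2.2.1 _ hv p).1, ((hf1 v).2.2.1 _ hv p).2.1⟩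
  refine ⟨U, inferInstance, inferInstance, fun v i => (f v).1 i, fun i => i.1.1, fun i => i.1.2,
    { W := fun v h => (f v).1 h.1 / Fintype.card (Lv → Bool × Fin J)
      G := fun h => hG ψ univ h.1 h.2
      κ := κ
      W0 := fun v h => div_nonneg (hμ0 _ _) hcard.le
      W1 := fun v => ?_
      κ0 := fun v h h' => mul_nonneg (hkm0 _ _ _) (lam_nonneg _ _ _)
      κ1 := fun v h => ?_
      lip := fun v h hW x y => ?_
      stat := fun c hc h' => ?_
      cons := fun L _ hL c hc A h' => ?_ }, fun _ _ => rfl, fun _ _ => rfl, ha,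
    fun v p hp => ?_, fun c p hp hp' h h' => ?_, fun c p hp h h' => ?_⟩
  · rw [Fintype.sum_prod_type]
    simp only [sum_const, card_univ, nsmul_eq_mul]
    rw [← hμ1 v]
    exact sum_congr rfl fun i _ => by field_simp
  · rw [Fintype.sum_prod_type]
    simp only [κ, ← mul_sum, sum_lam, mul_one, hkm1]
  · have hx : h.1.1 ∈ (f v).1.support := by
      rw [Finsupp.mem_support_iff]
      intro h0; apply hW; rw [h0, zero_div]
    have h1 := (hf1 v).1.sup hP0 hM _ hx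
    have h2 := hidL_sum_le ψ hψ univ h.1.1.2 (fun p => (ha h.1 p).1) h.2
    have h3 : hG ψ univ h.1 h.2
        = h.1.1.1 + fun y => ∑ p, sg (h.2 p) * (h.1.1.2 p * ψ p y) := rfl
    have h4 := map_add_le_add (hidL V) h.1.1.1 fun y => ∑ p, sg (h.2 p) * (h.1.1.2 p * ψ p y)
    rw [sub_zero, hS_apply, LinearMap.fst_apply] at h1
    refine (le_hidL _ x y).trans (mul_le_mul_of_nonneg_right ?_ dist_nonneg)
    rw [h3]; linarith
  · have h1 := key c hc h' fun _ => 1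
    simp only [mul_one] at h1
    rw [h1, (hf2 c hc).2.2.1 fun z => 1 * if z = h'.1 then 1 else 0, hid_ex_ind, mul_one]
  · rw [key c hc h' fun G => len L (E.S (E.par c)) G A,
      (hf2 c hc).2.2.2 L (fun x hx ζ y => hL (⟨x, hU _ hx⟩, ζ) y) h'.2 A
        fun z => if z = h'.1 then 1 else 0, hid_ex_ind]
    ring
  · rw [hsumU v fun x => x.2 p]
    exact (hf1 v).2.2.2 p hp
  · have hpK : p ∈ Kp c := mem_inter.2 ⟨hp', hp⟩
    have hinj : Function.Injective fun b : Bool × Fin J => (!b.1, b.2) := by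
      intro a b hab
      simp only [Prod.mk.injEq, Bool.not_inj_iff] at hab
      exact Prod.ext hab.1 hab.2
    have h1 : hRel ψ (Kp c) h.1 (Function.update h.2 p (!(h.2 p).1, (h.2 p).2))
        = hRel ψ (Kp c) h.1 h.2 := by
      unfold hRel
      rw [hG_congr ψ (Kp c)ᶜ _ (ε' := h.2)]
      intro q hq
      refine Function.update_of_ne ?_ _ _
      rintro rfl
      exact mem_compl.1 hq hpK
    simp only [κ, flp, h1]
    rw [lam_update_both hpK _ hinj]
  · have hpK : p ∉ Kp c := fun h => hp (mem_inter.1 h).1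
    simp only [κ, flp]
    rw [lam_update_right hpK (fun b : Bool × Fin J => (!b.1, b.2)) (fun b => by simp)]

end Vale.Agent.P235
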