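import Vale.Agent.P235.Basic

namespace Vale.Agent.P235

open Finset Relation

namespace KPRAux

variable {V : Type} [MetricSpace V] {k : ℕ} {s : ℝ}

/-- one hop inside `U` -/
def Stp (s : ℝ) (U : Finset V) (a b : V) : Prop := a ∈ U ∧ b ∈ U ∧ dist a b ≤ s

/-- chain connectedness -/
def Conn (s : ℝ) (U : Finset V) : Prop := ∀ x ∈ U, ∀ y ∈ U, ReflTransGen (Stp s U) x y

open Classical in
/-- chain component -/
noncomputable def comp (s : ℝ) (W : Finset V) (x : V) : Finset V :=
  W.filter fun y => ReflTransGen (Stp s W) x y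

theorem chain_symm {U : Finset V} {x y : V} (h : ReflTransGen (Stp s U) x y) :
    ReflTransGen (Stp s U) y x := by
  induction h with
  | refl => exact .refl
  | tail _ h ih => exact .head ⟨h.2.1, h.1, by rw [dist_comm]; exact h.2.2⟩ ih

theorem mem_comp {W : Finset V} {x y : V} :
    y ∈ comp s W x ↔ y ∈ W ∧ ReflTransGen (Stp s W) x y := by
  simp [comp]

theorem comp_conn (W : Finset V) (x : V) : Conn s (comp s W x) := by
  have key : ∀ y, ReflTransGen (Stp s W) x y → ReflTransGen (Stp s (comp s W x)) x y := by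
    intro y h
    induction h with
    | refl => exact .refl
    | tail h1 h2 ih =>
      exact ih.tail ⟨mem_comp.2 ⟨h2.1, h1⟩, mem_comp.2 ⟨h2.2.1, h1.tail h2⟩, h2.2.2⟩
  intro a ha b hb
  exact (chain_symm (key a (mem_comp.1 ha).2)).trans (key b (mem_comp.1 hb).2)

theorem comp_eq {W : Finset V} {x w : V} (h : w ∈ comp s W x) : comp s W w = comp s W x := by
  ext y
  rw [mem_comp, mem_comp]
  have h1 := (mem_comp.1 h).2
  exact ⟨fun h => ⟨h.1, h1.trans h.2⟩, fun h => ⟨h.1, (chain_symm h1).trans h.2⟩⟩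

theorem cross {U : Finset V} {x y : V} (h : ReflTransGen (Stp s U) x y) (P : V → Prop)
    (hx : P x) (hy : ¬ P y) : ∃ a b, Stp s U a b ∧ P a ∧ ¬ P b := by
  induction h with
  | refl => exact absurd hx hy
  | @tail b c _ h2 ih =>
    by_cases hb : P b
    · exact ⟨b, c, h2, hb, hy⟩
    · exact ih hb

theorem ivt (hs : 0 < s) {U : Finset V} (hU : Conn s U) {z z' : V} (hz : z ∈ U) (hz' : z' ∈ U)
    {c : ℝ} (hc : 0 ≤ c) (h : c ≤ dist z z') : ∃ p ∈ U, c ≤ dist z p ∧ dist z p < c + s := by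
  rcases hc.eq_or_lt with h0 | h0
  · exact ⟨z, hz, by simp [← h0], by simpa [← h0] using hs⟩
  · obtain ⟨a, b, h1, h2, h3⟩ := cross (hU z hz z' hz') (fun y => dist z y < c)
      (by simpa using h0) (not_lt.2 h)
    exact ⟨b, h1.2.1, not_lt.1 h3, by linarith [dist_triangle z a b, h1.2.2]⟩

theorem diam (hs : 0 < s) {U S : Finset V} (hU : Conn s U) (hS : S.card ≤ k + 1)
    (hc : ∀ x ∈ U, ∃ y ∈ S, dist x y ≤ 9 / 2 * s) {z z' : V} (hz : z ∈ U) (hz' : z' ∈ U) :
    dist z z' ≤ 10 * (k + 1) * s := by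
  by_contra hlt
  have h1 : ∀ m : ℕ, ∃ p y, m < k + 2 → y ∈ S ∧ dist p y ≤ 9 / 2 * s ∧ 10 * m * s ≤ dist z p ∧
      dist z p < 10 * m * s + s := by
    intro m
    by_cases hm : m < k + 2
    · have : (m : ℝ) ≤ k + 1 := by exact_mod_cast Nat.lt_succ_iff.1 hm
      obtain ⟨p, hp, h2⟩ := ivt hs hU hz hz' (c := 10 * m * s) (by positivity) (by nlinarith)
      obtain ⟨y, hy, h3⟩ := hc p hp
      exact ⟨p, y, fun _ => ⟨hy, h3, h2⟩⟩
    · exact ⟨z, z, fun h => absurd h hm⟩
  choose p y h using h1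
  obtain ⟨i, hi, j, hj, hij, e⟩ := exists_ne_map_eq_of_card_lt_of_maps_to (s := range (k + 2))
    (t := S) (by simp; omega) (f := y) fun m hm => (h m (mem_range.1 (mem_coe.1 hm))).1
  wlog hlt' : i < j generalizing i j
  · exact this j hj i hi hij.symm e.symm (by omega)
  obtain ⟨-, a1, -, a2⟩ := h i (mem_range.1 hi)
  obtain ⟨-, b1, b2, -⟩ := h j (mem_range.1 hj)
  have : (i : ℝ) + 1 ≤ j := by exact_mod_cast hlt'
  have t1 := dist_triangle z (p i) (p j)
  have t2 := dist_triangle_right (p i) (p j) (y j)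
  rw [e] at a1
  nlinarith

/-- reachability of `N` in exactly `n` hops -/
def Rch (s : ℝ) (U N : Finset V) : ℕ → V → Prop
  | 0, x => x ∈ N
  | n + 1, x => ∃ w, Stp s U x w ∧ Rch s U N n w

theorem exists_f {U N : Finset V} (hU : Conn s U) {y : V} (hy : y ∈ U) (hyN : y ∈ N) :
    ∃ f : V → ℕ, (∀ a b, Stp s U a b → f a ≤ f b + 1) ∧ (∀ x ∈ U, f x = 0 → x ∈ N) ∧
      ∀ x ∈ U, ∀ n, f x = n + 1 → ∃ w, Stp s U x w ∧ f w = n := by
  have hne : ∀ x ∈ U, {n | Rch s U N n x}.Nonempty := by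
    intro x hx
    have h := hU x hx y hy
    clear hx
    induction h using ReflTransGen.head_induction_on with
    | refl => exact ⟨0, hyN⟩
    | head h _ ih =>
      obtain ⟨n, hn⟩ := ih
      exact ⟨n + 1, _, h, hn⟩
  have h1 : ∀ a b, Stp s U a b → sInf {n | Rch s U N n a} ≤ sInf {n | Rch s U N n b} + 1 :=
    fun a b h => Nat.sInf_le ⟨b, h, Nat.sInf_mem (hne b h.2.1)⟩
  refine ⟨fun x => sInf {n | Rch s U N n x}, h1, fun x hx h => ?_, fun x hx n h => ?_⟩
  · have := Nat.sInf_mem (hne x hx)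
    simp only at h
    rwa [h] at this
  · have := Nat.sInf_mem (hne x hx)
    simp only at h
    rw [h] at this
    obtain ⟨w, hw, h2⟩ := this
    have h3 : sInf {n | Rch s U N n w} ≤ n := Nat.sInf_le h2
    have h4 := h1 x w hw
    exact ⟨w, hw, by simp only; omega⟩

theorem exists_top (E : Elim V k) (hs : 0 < s) {U : Finset V} (hU : Conn s U) {x : V}
    (hx : x ∈ U) : ∃ t, (∀ y ∈ U, E.Anc t y) ∧ ∃ a ∈ U, E.ds a t ≤ s / 2 := by
  classical
  have hex : ∃ n, ∀ y ∈ U, E.Anc (E.par^[n] x) y :=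
    ⟨E.dep x, fun y _ => by rw [E.iter_dep]; exact E.anc_r y⟩
  refine ⟨_, Nat.find_spec hex, ?_⟩
  cases hn : Nat.find hex with
  | zero => exact ⟨x, hx, by simp only [Function.iterate_zero, id]; rw [Elim.ds_of_mem (E.self_mem x)]; positivity⟩
  | succ n =>
    have h1 := Nat.find_min hex (m := n) (by omega)
    push Not at h1
    obtain ⟨y, hy, h2⟩ := h1
    obtain ⟨a, b, h3, h4, h5⟩ := cross (hU x hx y hy) (E.Anc (E.par^[n] x)) (E.anc_iter n x) h2
    obtain ⟨c, hc, h6, h7⟩ := E.sep _ a b h4 h5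
    have h8 := E.sub_par _ c hc h6
    rw [Function.iterate_succ_apply']
    have h9 := h3.2.2
    by_cases h : dist a c ≤ s / 2
    · exact ⟨a, h3.1, (Elim.ds_le h8).trans h⟩
    · exact ⟨b, h3.2.1, (Elim.ds_le h8).trans (by rw [dist_comm]; linarith)⟩

/-- the data attached to a chain connected set -/
def Dat (E : Elim V k) (s : ℝ) (U : Finset V) (t : V) (f : V → ℕ) : Prop :=
  (∀ x ∈ U, E.Anc t x) ∧ (∀ a b, Stp s U a b → f a ≤ f b + 1) ∧
    ∀ T, E.Anc t T → ∀ x ∈ U, E.Anc T x → ∃ w ∈ U, ∃ y ∈ E.S T, dist w y ≤ s / 2 ∧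
      ∃ m : ℕ, f w + m ≤ f x ∧ dist x w ≤ m * s

theorem exists_dat (E : Elim V k) (hs : 0 < s) (U : Finset V) (x0 : V) :
    ∃ t f, Conn s U → U.Nonempty → Dat E s U t f := by
  classical
  by_cases h : Conn s U ∧ U.Nonempty
  swap
  · exact ⟨x0, 0, fun h1 h2 => absurd ⟨h1, h2⟩ h⟩
  obtain ⟨hU, x, hx⟩ := h
  obtain ⟨t, ht, a, ha, hat⟩ := exists_top E hs hU hx
  obtain ⟨f, h1, h2, h3⟩ := exists_f (N := U.filter fun a => E.ds a t ≤ s / 2) hU ha
    (mem_filter.2 ⟨ha, hat⟩)
  refine ⟨t, f, fun _ _ => ⟨ht, h1, fun T hT x hx hTx => ?_⟩⟩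
  induction hn : f x generalizing x with
  | zero =>
    obtain ⟨y, hy, e⟩ := Elim.exists_ds (E := E) x t
    obtain ⟨y', hy', e'⟩ := Elim.Rel.split (Or.inl hTx) ((Elim.anc_of_mem hy).trans hT)
    have := (mem_filter.1 (h2 x hx hn)).2
    exact ⟨x, hx, y', hy', by linarith [dist_nonneg (x := y') (y := y)], 0, by omega, by simp⟩
  | succ n ih =>
    obtain ⟨w, hw, e⟩ := h3 x hx n hn
    by_cases hTw : E.Anc T w
    · obtain ⟨w', hw', y, hy, h4, m, h5, h6⟩ := ih w hw.2.1 hTw e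
      exact ⟨w', hw', y, hy, h4, m + 1, by omega, by
        push_cast; linarith [dist_triangle x w w', hw.2.2]⟩
    · obtain ⟨y, hy, -, e'⟩ := E.sep T x w hTx hTw
      have := hw.2.2
      by_cases h : dist x y ≤ s / 2
      · exact ⟨x, hx, y, hy, h, 0, by omega, by simp⟩
      · exact ⟨w, hw.2.1, y, hy, by rw [dist_comm]; linarith, 1, by omega, by simpa using this⟩

variable [Fintype V] (s) (f : Finset V → V → ℕ)

/-- the classes of the chopping -/
noncomputable def cls (b : ℕ → Bool) : ℕ → V → Finset V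
  | 0, x => comp s univ x
  | i + 1, x => comp s ((cls b i x).filter fun w =>
      (f (cls b i x) w + 2 * (b i).toNat) / 4 = (f (cls b i x) x + 2 * (b i).toNat) / 4) x

variable {s f}

theorem cls_conn (b : ℕ → Bool) (i : ℕ) (x : V) : Conn s (cls s f b i x) := by
  cases i <;> exact comp_conn _ _

theorem self_mem_cls (b : ℕ → Bool) (i : ℕ) (x : V) : x ∈ cls s f b i x := by
  induction i with
  | zero => exact mem_comp.2 ⟨mem_univ _, .refl⟩
  | succ i ih => exact mem_comp.2 ⟨mem_filter.2 ⟨ih, rfl⟩, .refl⟩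

theorem cls_succ {b : ℕ → Bool} {i : ℕ} {x w : V} (h : w ∈ cls s f b (i + 1) x) :
    w ∈ cls s f b i x ∧
      (f (cls s f b i x) w + 2 * (b i).toNat) / 4 = (f (cls s f b i x) x + 2 * (b i).toNat) / 4 :=
  mem_filter.1 (mem_comp.1 h).1

theorem cls_anti {b : ℕ → Bool} {i j : ℕ} (hij : i ≤ j) {x w : V} (h : w ∈ cls s f b j x) :
    w ∈ cls s f b i x := by
  induction hij with
  | refl => exact h
  | step _ ih => exact ih (cls_succ h).1

theorem cls_eq {b : ℕ → Bool} {i : ℕ} {x w : V} (h : w ∈ cls s f b i x) :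
    cls s f b i w = cls s f b i x := by
  induction i with
  | zero => exact comp_eq h
  | succ i ih =>
    obtain ⟨h1, h2⟩ := cls_succ h
    have := comp_eq h
    simp only [cls] at this ⊢
    rw [ih h1, h2, this]

theorem cls_congr {b b' : ℕ → Bool} {i : ℕ} (h : ∀ j < i, b j = b' j) (x : V) :
    cls s f b i x = cls s f b' i x := by
  induction i with
  | zero => rfl
  | succ i ih =>
    simp only [cls]
    rw [ih fun j hj => h j (by omega), h i (by omega)]

theorem pad (hf : ∀ b i x a c, Stp s (cls s f b i x) a c → f (cls s f b i x) a ≤ f (cls s f b i x) c + 1)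
    (z : V) (n : ℕ) : ∃ b, ∀ w, dist z w ≤ s → w ∈ cls s f b n z := by
  induction n with
  | zero => exact ⟨fun _ => false, fun w hw =>
      mem_comp.2 ⟨mem_univ _, .single ⟨mem_univ _, mem_univ _, hw⟩⟩⟩
  | succ n ih =>
    obtain ⟨b, hb⟩ := ih
    obtain ⟨β, hβ⟩ : ∃ β : Bool, (f (cls s f b n z) z + 2 * β.toNat) % 4 = 1 ∨
        (f (cls s f b n z) z + 2 * β.toNat) % 4 = 2 := by
      by_cases h : f (cls s f b n z) z % 4 = 1 ∨ f (cls s f b n z) z % 4 = 2
      · exact ⟨false, by simpa using h⟩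
      · exact ⟨true, by simp only [Bool.toNat_true]; omega⟩
    refine ⟨Function.update b n β, fun w hw => ?_⟩
    have e : cls s f (Function.update b n β) n z = cls s f b n z :=
      cls_congr (fun j hj => Function.update_of_ne hj.ne _ _) z
    simp only [cls, e, Function.update_self]
    have h1 := hf b n z z w ⟨self_mem_cls _ _ _, hb w hw, hw⟩
    have h2 := hf b n z w z ⟨hb w hw, self_mem_cls _ _ _, by rwa [dist_comm]⟩
    have h3 : w ∈ (cls s f b n z).filter fun w =>
        (f (cls s f b n z) w + 2 * β.toNat) / 4 = (f (cls s f b n z) z + 2 * β.toNat) / 4 :=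
      mem_filter.2 ⟨hb w hw, by omega⟩
    exact mem_comp.2 ⟨h3, .single ⟨mem_filter.2 ⟨self_mem_cls _ _ _, rfl⟩, h3, hw⟩⟩

theorem cover (E : Elim V k) (hs : 0 < s) {t : Finset V → V}
    (hd : ∀ b i x, Dat E s (cls s f b i x) (t (cls s f b i x)) (f (cls s f b i x)))
    (b : ℕ → Bool) (z : V) :
    ∃ T, ∀ x ∈ cls s f b (k + 2) z, ∃ y ∈ E.S T, dist x y ≤ 9 / 2 * s := by
  obtain ⟨i0, hi0, hmax⟩ := exists_max_image (range (k + 2)) (fun i => E.dep (t (cls s f b i z)))
    ⟨0, by simp⟩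
  refine ⟨t (cls s f b i0 z), fun x hx => ?_⟩
  have hx' : ∀ i < k + 2, x ∈ cls s f b i z := fun i hi => cls_anti hi.le hx
  have h0 := (hd b i0 z).1 x (hx' i0 (mem_range.1 hi0))
  have h1 : ∀ i : ℕ, ∃ w y, i < k + 2 → w ∈ cls s f b i z ∧ y ∈ E.S (t (cls s f b i0 z)) ∧
      dist w y ≤ s / 2 ∧ ∃ m : ℕ, f (cls s f b i z) w + m ≤ f (cls s f b i z) x ∧
        dist x w ≤ m * s := by
    intro i
    by_cases hi : i < k + 2
    · obtain ⟨w, hw, y, hy, h⟩ := (hd b i z).2.2 _
        (((hd b i z).1 x (hx' i hi)).of_dep_le h0 (hmax i (mem_range.2 hi))) x (hx' i hi) h0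
      exact ⟨w, y, fun _ => ⟨hw, hy, h⟩⟩
    · exact ⟨z, z, fun h => absurd h hi⟩
  choose w y h using h1
  obtain ⟨i, hi, j, hj, hij, e⟩ := exists_ne_map_eq_of_card_lt_of_maps_to (s := range (k + 2))
    (t := E.S (t (cls s f b i0 z))) (by have := E.card_le (t (cls s f b i0 z)); simp; omega)
    (f := y) fun m hm => (h m (mem_range.1 (mem_coe.1 hm))).2.1
  wlog hlt : i < j generalizing i j
  · exact this j hj i hi hij.symm e.symm (by omega)
  obtain ⟨a1, a2, a3, m, a4, a5⟩ := h i (mem_range.1 hi)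
  obtain ⟨b1, -, b3, -⟩ := h j (mem_range.1 hj)
  obtain ⟨c1, c2⟩ := cls_succ (cls_anti (i := i + 1) hlt b1)
  obtain ⟨-, c3⟩ := cls_succ (cls_anti (i := i + 1) (by have := mem_range.1 hi; omega) hx)
  have c4 := (hd b i z).2.1 (w j) (w i) ⟨c1, a1, by
    rw [← e] at b3; linarith [dist_triangle_right (w j) (w i) (y i)]⟩
  have hm : (m : ℝ) ≤ 4 := by exact_mod_cast (by omega : m ≤ 4)
  exact ⟨y i, a2, by nlinarith [dist_triangle x (w i) (y i)]⟩

theorem card_lab {X : Type} [Fintype X] [DecidableEq X] {c c' : X} (h : c ≠ c') :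
    Fintype.card (X → Bool) ≤
      4 * (univ.filter fun l : X → Bool => l c = false ∧ l c' = true).card := by
  have := card_le_card_of_injOn (s := (univ : Finset (X → Bool)))
    (t := (univ.filter fun l : X → Bool => l c = false ∧ l c' = true) ×ˢ (univ : Finset (Bool × Bool)))
    (fun l => (Function.update (Function.update l c false) c' true, l c, l c'))
    (fun l _ => by simp [Function.update_of_ne h]) (by
      intro l _ l' _ e
      simp only [Prod.mk.injEq] at e
      funext x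
      by_cases h1 : x = c'
      · rw [h1, e.2.2]
      · by_cases h2 : x = c
        · rw [h2, e.2.1]
        · simpa [Function.update_of_ne h1, Function.update_of_ne h2] using congrFun e.1 x)
  simpa [mul_comm] using this

end KPRAux

open KPRAux

/-- Random zero sets at scale `s` (Klein-Plotkin-Rao chopping along the elimination tree). -/
theorem kpr {V : Type} [MetricSpace V] [Fintype V] [DecidableEq V] {k : ℕ} (E : Elim V k)
    (s : ℝ) (hs : 0 < s) :
    ∃ Z : (Fin (k + 2) → Bool) × (Finset V → Bool) → Finset V, ∀ z z' : V,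
      10 * (k + 1) * s < dist z z' →
      ∃ Ev : Finset ((Fin (k + 2) → Bool) × (Finset V → Bool)),
        Fintype.card ((Fin (k + 2) → Bool) × (Finset V → Bool)) ≤ 2 ^ (k + 4) * Ev.card ∧
        ∀ b ∈ Ev, z' ∈ Z b ∧ ∀ w ∈ Z b, s ≤ dist z w := by
  choose t f hd using fun U => exists_dat E hs U E.r
  have hd' : ∀ b i x, Dat E s (cls s f b i x) (t (cls s f b i x)) (f (cls s f b i x)) :=
    fun b i x => hd _ (cls_conn b i x) ⟨x, self_mem_cls b i x⟩
  let ext : (Fin (k + 2) → Bool) → ℕ → Bool := fun β i => if h : i < k + 2 then β ⟨i, h⟩ else false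
  refine ⟨fun b => univ.filter fun w => b.2 (cls s f (ext b.1) (k + 2) w) = true, fun z z' h => ?_⟩
  obtain ⟨b, hb⟩ := pad (fun b i x => (hd' b i x).2.1) z (k + 2)
  have e : ∀ x, cls s f (ext fun i => b i) (k + 2) x = cls s f b (k + 2) x :=
    cls_congr fun j hj => by simp [ext, hj]
  have hne : cls s f b (k + 2) z ≠ cls s f b (k + 2) z' := by
    intro h1
    obtain ⟨T, hT⟩ := cover E hs hd' b z
    have h2 : z' ∈ cls s f b (k + 2) z := by rw [h1]; exact self_mem_cls _ _ _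
    have := diam hs (cls_conn b _ z) (E.card_le T) hT (self_mem_cls _ _ _) h2
    linarith
  refine ⟨{fun i : Fin (k + 2) => b i} ×ˢ univ.filter fun l =>
    l (cls s f b (k + 2) z) = false ∧ l (cls s f b (k + 2) z') = true, ?_, ?_⟩
  · rw [Fintype.card_prod, card_product, card_singleton, one_mul, Fintype.card_fun,
      Fintype.card_bool, Fintype.card_fin, show k + 4 = k + 2 + 2 from rfl, pow_add 2 (k + 2) 2,
      mul_assoc]
    exact Nat.mul_le_mul_left _ (card_lab hne)
  · rintro ⟨β, l⟩ hl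
    simp only [mem_product, mem_singleton, mem_filter, mem_univ, true_and] at hl ⊢
    obtain ⟨rfl, h1, h2⟩ := hl
    simp only [e]
    refine ⟨h2, fun w hw => ?_⟩
    by_contra hlt
    rw [cls_eq (hb w (not_le.1 hlt).le), h1] at hw
    exact absurd hw (by simp)

end Vale.Agent.P235
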