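import Vale.Agent.P235.Hidden
import Vale.Agent.P235.Field

namespace Vale.Agent.P235

open Finset

section Flip

variable {ι Lv : Type} [DecidableEq Lv] {J : ℕ}

theorem flp_flp (p : Lv) (h : ι × (Lv → Bool × Fin J)) : flp p (flp p h) = h := by
  simp [flp]

theorem sg_flp (p : Lv) (h : ι × (Lv → Bool × Fin J)) : sg ((flp p h).2 p) = - sg (h.2 p) := by
  simp only [flp, Function.update_self]
  exact sg_flip _

variable [Fintype Lv]

theorem level_update (ε : Lv → Bool × Fin J) (c : Lv → ℝ) (q : Lv) (b : Bool × Fin J) :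
    ∑ p, sg (Function.update ε q b p) * c p
      = ∑ p, sg (ε p) * c p + (sg b - sg (ε q)) * c q := by
  rw [← add_sum_erase _ _ (mem_univ q), ← add_sum_erase _ (fun p => sg (ε p) * c p) (mem_univ q),
    Function.update_self]
  rw [sum_congr rfl fun p hp => by rw [Function.update_of_ne (ne_of_mem_erase hp)]]
  ring

variable [Fintype ι]

theorem sum_flp (p : Lv) (Φ : ι × (Lv → Bool × Fin J) → ℝ) : ∑ h, Φ (flp p h) = ∑ h, Φ h :=
  Equiv.sum_comp (Function.Involutive.toPerm (flp p) (flp_flp p)) Φ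

theorem level_anti {V : Type} {G : ι × (Lv → Bool × Fin J) → V → ℝ} {F : ι → V → ℝ}
    {a : ι → Lv → ℝ} {ψ : Lv → V → ℝ}
    (hG : ∀ h y, G h y = F h.1 y + ∑ p, sg (h.2 p) * (a h.1 p * ψ p y)) (w : ι → ℝ) (p : Lv)
    (f : ι × (Lv → Bool × Fin J) → ℝ) (hf : ∀ h, f (flp p h) = - f h) (y : V) :
    ∑ h, w h.1 * (f h * G h y) = (∑ h, w h.1 * (f h * sg (h.2 p) * a h.1 p)) * ψ p y := by
  have h1 := sum_flp p fun h => w h.1 * (f h * G h y)
  have h2 : ∀ h, w (flp p h).1 * (f (flp p h) * G (flp p h) y)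
      = 2 * (w h.1 * (f h * sg (h.2 p) * a h.1 p) * ψ p y) - w h.1 * (f h * G h y) := by
    intro h
    rw [hf, hG, hG]
    simp only [flp]
    rw [level_update h.2 (fun q => a h.1 q * ψ q y), sg_flip]
    ring
  simp only [h2, sum_sub_distrib, ← mul_sum] at h1
  rw [sum_mul]
  linarith

theorem level_back {V : Type} [MetricSpace V] {k : ℕ} (E : Elim V k)
    {κ : V → ι × (Lv → Bool × Fin J) → ι × (Lv → Bool × Fin J) → ℝ} {Act : V → Finset Lv}
    (h1 : ∀ c p, p ∈ Act c → p ∈ Act (E.par c) → ∀ h h', κ c (flp p h) (flp p h') = κ c h h')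
    (h2 : ∀ c p, p ∉ Act (E.par c) → ∀ h h', κ c h (flp p h') = κ c h h') (p : Lv) (t : V)
    (j : ℕ) (hj : 0 < j) (hin : ∀ i < j, p ∈ Act (E.par^[i] t)) (hout : p ∉ Act (E.par^[j] t))
    (f : ι × (Lv → Bool × Fin J) → ℝ) (hf : ∀ h, f (flp p h) = - f h) (h) :
    back κ E.par j t f h = 0 := by
  have key : ∀ i < j, ∀ h, back κ E.par i t f (flp p h) = - back κ E.par i t f h := by
    intro i
    induction i with
    | zero => exact fun _ => hf
    | succ i ih =>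
      intro hi h
      rw [back_succ, back_succ, ← sum_flp p, ← sum_neg_distrib]
      refine sum_congr rfl fun h' _ => ?_
      rw [ih (by omega), h1 _ p (hin i (by omega)) (by
        rw [← Function.iterate_succ_apply' E.par]; exact hin _ hi)]
      ring
  obtain ⟨i, rfl⟩ : ∃ i, j = i + 1 := ⟨j - 1, by omega⟩
  have h3 : back κ E.par (i + 1) t f h = - back κ E.par (i + 1) t f h := by
    conv_lhs => rw [back_succ, ← sum_flp p]
    rw [back_succ, ← sum_neg_distrib]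
    refine sum_congr rfl fun h' _ => ?_
    rw [key i (by omega), h2 _ p (by
      rw [← Function.iterate_succ_apply' E.par]; exact hout)]
    ring
  linarith

theorem level_fst (hJ : 0 < J) (w g : ι → ℝ) :
    ∑ h : ι × (Lv → Bool × Fin J), w h.1 / Fintype.card (Lv → Bool × Fin J) * g h.1
      = ∑ i, w i * g i := by
  have : Nonempty (Bool × Fin J) := ⟨(true, ⟨0, hJ⟩)⟩
  have hc : (Fintype.card (Lv → Bool × Fin J) : ℝ) ≠ 0 := Nat.cast_ne_zero.2 Fintype.card_ne_zero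
  rw [Fintype.sum_prod_type]
  refine sum_congr rfl fun i _ => ?_
  simp only [sum_const, card_univ, nsmul_eq_mul]
  field_simp

theorem level_conc (hJ : 0 < J) {V : Type} {G : ι × (Lv → Bool × Fin J) → V → ℝ}
    {F : ι → V → ℝ} {a : ι → Lv → ℝ} {ψ : Lv → V → ℝ}
    (hG : ∀ h y, G h y = F h.1 y + ∑ p, sg (h.2 p) * (a h.1 p * ψ p y)) (w : ι → ℝ)
    (hw : ∀ i, 0 ≤ w i) (hw1 : ∑ i, w i = 1) (q : Lv) (x y : V) {Γ : ℝ}
    (hΓ : 8 * J * Γ ≤ |ψ q y - ψ q x|) :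
    ∑ h : ι × (Lv → Bool × Fin J), w h.1 / Fintype.card (Lv → Bool × Fin J) *
      (if 1 / 2 ≤ a h.1 q ∧ |G h x - G h y| < Γ then 1 else 0) ≤ 1 / (2 * J) := by
  classical
  have : Nonempty (Bool × Fin J) := ⟨(true, ⟨0, hJ⟩)⟩
  have hc : (0 : ℝ) < Fintype.card (Lv → Bool × Fin J) := Nat.cast_pos.2 Fintype.card_pos
  have hJ' : (0 : ℝ) < J := Nat.cast_pos.2 hJ
  have h0 : 1 / (2 * (J : ℝ)) = ∑ i, w i * (1 / (2 * (J : ℝ))) := by rw [← sum_mul, hw1, one_mul]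
  rw [Fintype.sum_prod_type, h0]
  refine sum_le_sum fun i _ => ?_
  simp only [← mul_sum]
  rw [div_mul_eq_mul_div, mul_div_assoc]
  refine mul_le_mul_of_nonneg_left ?_ (hw i)
  have h1 := card_mul_le_of_unique q
    (univ.filter fun ε : Lv → Bool × Fin J => 1 / 2 ≤ a i q ∧ |G (i, ε) x - G (i, ε) y| < Γ)
    (fun ε b b' hb hb' => by
      by_contra hne
      have h2 := sg_sep b b' hne
      obtain ⟨h3, h4⟩ := (mem_filter.1 hb).2
      obtain ⟨-, h5⟩ := (mem_filter.1 hb').2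
      simp only [hG, level_update ε (fun p => a i p * ψ p x),
        level_update ε (fun p => a i p * ψ p y)] at h4 h5
      have h6 : |(sg b - sg b') * (a i q * (ψ q y - ψ q x))| < 2 * Γ := by
        rw [abs_lt] at h4 h5 ⊢
        constructor <;> nlinarith
      rw [abs_mul, abs_mul, abs_of_nonneg (by linarith : 0 ≤ a i q)] at h6
      have h7 : 1 / (2 * (J : ℝ)) * (1 / 2 * (8 * J * Γ)) = 2 * Γ := by field_simp; ring
      have hΓ0 : 0 ≤ Γ := (abs_nonneg _).trans h4.le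
      have h8 : 1 / (2 * (J : ℝ)) * (1 / 2 * (8 * J * Γ))
          ≤ |sg b - sg b'| * (a i q * |ψ q y - ψ q x|) := by gcongr
      linarith)
  rw [sum_boole, div_le_div_iff₀ hc (by positivity), one_mul]
  rw [Fintype.card_prod, Fintype.card_bool, Fintype.card_fin] at h1
  exact_mod_cast h1

theorem level_f (W bd bad : ι × (Lv → Bool × Fin J) → ℝ) (a : ι → ℝ) (p : Lv) {b : ℝ}
    (hW0 : ∀ h, 0 ≤ W h) (hW1 : ∑ h, W h = 1) (hWf : ∀ h, W (flp p h) = W h)
    (hbd0 : ∀ h, 0 ≤ bd h) (hbd : ∑ h, W h * bd h ≤ 3 / 20) (ha : ∀ i, 0 ≤ a i ∧ a i ≤ 1)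
    (hE : 39 / 40 ≤ ∑ h, W h * a h.1) (hb0 : 0 ≤ b)
    (hb : ∀ h, W h ≠ 0 → bd h < 1 → bad h ≤ b) :
    ∃ f : ι × (Lv → Bool × Fin J) → ℝ, (∀ h, f (flp p h) = - f h) ∧ (∀ h, |f h| ≤ 1) ∧
      ∑ h, W h * (|f h| * bad h) ≤ b ∧ 1 / 6 ≤ ∑ h, W h * (f h * sg (h.2 p) * a h.1) := by
  classical
  let f : ι × (Lv → Bool × Fin J) → ℝ :=
    fun h => if bd h < 1 ∧ bd (flp p h) < 1 then sg (h.2 p) else 0
  have hf1 : ∀ h, |f h| ≤ 1 := by
    intro h
    simp only [f]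
    split_ifs
    · exact abs_sg_le _
    · simp
  refine ⟨f, fun h => ?_, hf1, ?_, ?_⟩
  · simp only [f, flp_flp, sg_flp, and_comm (a := bd (flp p h) < 1)]
    split_ifs <;> simp
  · rw [← one_mul b, ← hW1, sum_mul]
    refine sum_le_sum fun h _ => ?_
    by_cases h0 : W h = 0
    · rw [h0]; simp
    refine mul_le_mul_of_nonneg_left ?_ (hW0 h)
    by_cases hg : bd h < 1 ∧ bd (flp p h) < 1
    · have h3 := hb h h0 hg.1
      have h4 := hf1 h
      have h5 := abs_nonneg (f h)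
      nlinarith
    · simp only [f, if_neg hg, abs_zero, zero_mul]; exact hb0
  · have h3 : ∑ h, 1 / 4 * (W h * a h.1 - W h * bd h - W (flp p h) * bd (flp p h))
        ≤ ∑ h, W h * (f h * sg (h.2 p) * a h.1) := by
      refine sum_le_sum fun h _ => ?_
      have h5 : 1 / 4 * (a h.1 - bd h - bd (flp p h)) ≤ f h * sg (h.2 p) * a h.1 := by
        have h6 := hbd0 h
        have h7 := hbd0 (flp p h)
        have h8 := ha h.1
        simp only [f]
        split_ifs with hg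
        · have := sq_sg_ge (h.2 p); nlinarith
        · rw [not_and_or, not_lt, not_lt] at hg
          rcases hg with hg | hg <;> linarith
      rw [hWf]
      nlinarith [mul_le_mul_of_nonneg_left h5 (hW0 h)]
    rw [← mul_sum, sum_sub_distrib, sum_sub_distrib, sum_flp p fun h => W h * bd h] at h3
    linarith

theorem level_gain {k : ℕ} (hJ : 0 < J) (hJr : (J : ℝ) = 10 * (k + 1)) {V : Type}
    {W : ι × (Lv → Bool × Fin J) → ℝ} {G : ι × (Lv → Bool × Fin J) → V → ℝ}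
    {F : ι → V → ℝ} {a : ι → Lv → ℝ} {ψ : Lv → V → ℝ} {w : ι → ℝ}
    (hW : ∀ h, W h = w h.1 / Fintype.card (Lv → Bool × Fin J))
    (hG : ∀ h y, G h y = F h.1 y + ∑ p, sg (h.2 p) * (a h.1 p * ψ p y))
    (hw : ∀ i, 0 ≤ w i) (hw1 : ∑ i, w i = 1) (hW0 : ∀ h, 0 ≤ W h) (hW1 : ∑ h, W h = 1)
    (ha : ∀ i p, 0 ≤ a i p ∧ a i p ≤ 1) {S : Finset V} (hS : S.card ≤ k + 1) {Ac : Finset Lv}
    (hE : ∀ p ∈ Ac, 1 - 1 / (40 * ((k : ℝ) + 1)) ≤ ∑ h, W h * a h.1 p) {p : Lv} (hp : p ∈ Ac)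
    {y : V} {e bad : ι × (Lv → Bool × Fin J) → ℝ} {ω Γ : ℝ} (he0 : ∀ h, 0 ≤ e h)
    (he : 80 * ∑ h, W h * e h ≤ Γ - ω) (hΓ3 : 0 < Γ - ω) (hω0 : 0 ≤ ω)
    (hb : ∀ h, W h ≠ 0 → (∀ x ∈ S, |G h x - G h y| ≤ ω ∨ Γ ≤ |G h x - G h y|) →
      bad h ≤ 2 * ω ∨ (Γ - ω) / 4 ≤ e h)
    (hdi : ∀ x ∈ S, (∀ h, W h ≠ 0 → |G h x - G h y| ≤ ω) ∨
      ∃ q ∈ Ac, 8 * J * Γ ≤ |ψ q y - ψ q x|) :
    ∃ f : ι × (Lv → Bool × Fin J) → ℝ, (∀ h, f (flp p h) = - f h) ∧ (∀ h, |f h| ≤ 1) ∧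
      ∑ h, W h * (|f h| * bad h) ≤ 2 * ω ∧ 1 / 6 ≤ ∑ h, W h * (f h * sg (h.2 p) * a h.1 p) := by
  classical
  have hk0 : (0 : ℝ) ≤ k := Nat.cast_nonneg k
  let Fx := S.filter fun x => ¬ ∀ h, W h ≠ 0 → |G h x - G h y| ≤ ω
  have : Nonempty Lv := ⟨p⟩
  choose! q q1 q2 using fun x (hx : x ∈ Fx) =>
    (hdi x (mem_filter.1 hx).1).resolve_left (mem_filter.1 hx).2
  have hterm : ∀ h x, 0 ≤ 2 * (1 - a h.1 (q x)) +
      if 1 / 2 ≤ a h.1 (q x) ∧ |G h x - G h y| < Γ then (1 : ℝ) else 0 := by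
    intro h x
    have := (ha h.1 (q x)).2
    split_ifs <;> linarith
  have hlast : ∀ h, 0 ≤ 4 * e h / (Γ - ω) := fun h => by have := he0 h; positivity
  refine level_f W (fun h => ∑ x ∈ Fx, (2 * (1 - a h.1 (q x)) +
      if 1 / 2 ≤ a h.1 (q x) ∧ |G h x - G h y| < Γ then 1 else 0) + 4 * e h / (Γ - ω)) bad
    (fun i => a i p) p hW0 hW1 (fun h => by rw [hW, hW]; rfl)
    (fun h => add_nonneg (sum_nonneg fun x _ => hterm h x) (hlast h)) ?_ (fun i => ha i p) ?_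
    (by linarith) fun h hW0' h5 => ?_
  · simp only [mul_add, sum_add_distrib, mul_sum]
    rw [sum_comm, sum_comm (s := univ)]
    have h1 : ∑ x ∈ Fx, ∑ h, W h * (2 * (1 - a h.1 (q x)))
        ≤ ∑ _x ∈ Fx, 2 * (1 / (40 * ((k : ℝ) + 1))) := by
      refine sum_le_sum fun x hx => ?_
      have h2 := hE _ (q1 x hx)
      have h3 : ∑ h, W h * (2 * (1 - a h.1 (q x))) = 2 * (∑ h, W h - ∑ h, W h * a h.1 (q x)) := by
        rw [← sum_sub_distrib, mul_sum]; exact sum_congr rfl fun _ _ => by ring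
      rw [h3, hW1]; linarith
    have h2 : ∑ x ∈ Fx, ∑ h, W h * (if 1 / 2 ≤ a h.1 (q x) ∧ |G h x - G h y| < Γ
        then (1 : ℝ) else 0) ≤ ∑ _x ∈ Fx, 1 / (2 * (J : ℝ)) := by
      refine sum_le_sum fun x hx => ?_
      simp only [hW]
      exact level_conc hJ hG w hw hw1 (q x) x y (q2 x hx)
    have h3 : ∑ h, W h * (4 * e h / (Γ - ω)) ≤ 1 / 20 := by
      have h4 : ∑ h, W h * (4 * e h / (Γ - ω)) = 4 * (∑ h, W h * e h) / (Γ - ω) := by
        rw [mul_sum, sum_div]; exact sum_congr rfl fun _ _ => by ring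
      rw [h4, div_le_iff₀ hΓ3]; linarith
    have h4 : (Fx.card : ℝ) ≤ k + 1 := by
      exact_mod_cast (card_filter_le _ _).trans hS
    simp only [sum_const, nsmul_eq_mul] at h1 h2
    have h5 : (Fx.card : ℝ) * (2 * (1 / (40 * ((k : ℝ) + 1)))) ≤ 1 / 20 := by
      calc _ ≤ ((k : ℝ) + 1) * (2 * (1 / (40 * ((k : ℝ) + 1)))) := by gcongr
        _ = _ := by field_simp; norm_num
    have h6 : (Fx.card : ℝ) * (1 / (2 * J)) ≤ 1 / 20 := by
      calc _ ≤ ((k : ℝ) + 1) * (1 / (2 * J)) := by gcongr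
        _ = _ := by rw [hJr]; field_simp; norm_num
    linarith
  · have h1 := hE p hp
    have h2 : 1 / (40 * ((k : ℝ) + 1)) ≤ 1 / 40 :=
      one_div_le_one_div_of_le (by norm_num) (by linarith)
    linarith
  · have h6 := hlast h
    refine (hb h hW0' fun x hx => ?_).resolve_right fun h4 => ?_
    · by_cases hx' : ∀ h, W h ≠ 0 → |G h x - G h y| ≤ ω
      · exact Or.inl (hx' h hW0')
      · have hxF : x ∈ Fx := mem_filter.2 ⟨hx, hx'⟩
        have h4 := single_le_sum (fun x _ => hterm h x) hxF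
        have h7 := (ha h.1 (q x)).2
        right
        by_contra h8
        by_cases h9 : 1 / 2 ≤ a h.1 (q x) ∧ |G h x - G h y| < Γ
        · rw [if_pos h9] at h4; linarith
        · rw [if_neg h9] at h4
          exact h9 ⟨by linarith, not_le.1 h8⟩
    · have h7 := sum_nonneg fun x (_ : x ∈ Fx) => hterm h x
      have h8 : 1 ≤ 4 * e h / (Γ - ω) := by rw [le_div_iff₀ hΓ3]; linarith
      linarith

end Flip

/-- The cut pseudometric of a schedule of protected levels. -/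
theorem level (k P : ℕ) : ∃ K C : ℝ, 1 ≤ K ∧ 1 ≤ C ∧
    ∀ (V : Type) [MetricSpace V] [Fintype V] [DecidableEq V] (E : Elim V k) (Lv : Type)
      [Fintype Lv] [DecidableEq Lv] (Act : V → Finset Lv) (ψ : Lv → V → ℝ),
      (∀ v, (Act v).card ≤ P) → Act E.r = ∅ → (∀ p x y, |ψ p x - ψ p y| ≤ dist x y) →
      (∀ c, c ≠ E.r → ∀ p ∈ Act c, p ∉ Act (E.par c) → ∀ y ∈ E.S (E.par c), ψ p y = 0) →
      ∃ (ρ : V → V → ℝ) (Var : V → ℕ → ℝ), IsCut ρ ∧ (∀ x y, ρ x y ≤ K * dist x y) ∧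
        (∀ u w, ∃ n n', n ≤ E.dep u ∧ n' ≤ E.dep w ∧ E.par^[n] u = E.par^[n'] w ∧
          Var u n ≤ ρ u w ∧ Var w n' ≤ ρ u w) ∧
        (∀ u, Var u 0 = 0) ∧ (∀ u n, n < E.dep u → Var u n ≤ Var u (n + 1)) ∧
        (∀ t, ∀ p ∈ Act t, ∀ x ∈ E.S t, ∀ y ∈ E.S t, |ψ p x - ψ p y| ≤ 8 * ρ x y) ∧
        (∀ u j p, 0 < j → j ≤ E.dep u → (∀ i < j, p ∈ Act (E.par^[i] u)) →
          p ∉ Act (E.par^[j] u) → ψ p u ≤ C * Var u j) ∧
        (∀ u n j p, 0 < j → n + j ≤ E.dep u → (∀ i < j, p ∈ Act (E.par^[n + i] u)) →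
          p ∉ Act (E.par^[n + j] u) → ∀ y ∈ E.S (E.par^[n] u), 0 ≤ ψ p y →
          (∀ x ∈ E.S (E.par^[n] u), C * dist x y ≤ ψ p y ∨
            ∃ q ∈ Act (E.par^[n] u), C * (dist u y + ψ p y) ≤ |ψ q y - ψ q x|) →
          ψ p y ≤ C * (Var u (n + j) - Var u n)) := by
  have hk0 : (0 : ℝ) ≤ k := Nat.cast_nonneg k
  set J : ℕ := 10 * (k + 1) with hJd
  have hJ : 0 < J := by omega
  have hJr : (J : ℝ) = 10 * (k + 1) := by rw [hJd]; push_cast; ring
  set δ : ℝ := 1 / (40 * (k + 1)) with hδd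
  have hδ : 0 < δ := by positivity
  have hδ1 : δ ≤ 1 / 40 := one_div_le_one_div_of_le (by norm_num) (by linarith)
  obtain ⟨K, hK, hhid⟩ := hidden k P J hJ δ hδ
  set C : ℝ := 8 * J * (80 * K + 2) + 24 * K + 192 with hCd
  have hJ1 : (1 : ℝ) ≤ J := by rw [hJr]; linarith
  have hC0 : 0 ≤ 8 * (J : ℝ) * (80 * K + 2) := by positivity
  have hC1 : 192 ≤ C := by linarith
  refine ⟨K, C, hK, by linarith, ?_⟩
  intro V _ _ _ E Lv _ _ Act ψ hcard hr hψ hnew
  obtain ⟨ι, _, _, μ, F, a, Y, hW, hG, ha, hE, hκ1, hκ2⟩ := hhid V E Lv Act ψ hcard hr hψ hnew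
  obtain ⟨ρ, Var, hcut, hbag, hlca, hV0, hVm, hkey⟩ :=
    field Y (C * (∑ x : V, ∑ y : V, dist x y + ∑ p, ∑ y, |ψ p y|))
  have hμ0 : ∀ v i, 0 ≤ μ v i := by
    intro v i
    have : Nonempty (Bool × Fin J) := ⟨(true, ⟨0, hJ⟩)⟩
    have hc : (0 : ℝ) < Fintype.card (Lv → Bool × Fin J) := Nat.cast_pos.2 Fintype.card_pos
    have := Y.W0 v (i, fun _ => (true, ⟨0, hJ⟩))
    rw [hW, le_div_iff₀ hc] at this
    simpa using this
  have hμ1 : ∀ v, ∑ i, μ v i = 1 := by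
    intro v
    have h1 := level_fst (Lv := Lv) hJ (μ v) fun _ => 1
    have h2 := Y.W1 v
    simp only [hW, mul_one] at h1 h2
    rw [← h1, h2]
  have hEa : ∀ v, ∀ p ∈ Act v, 1 - δ ≤ ∑ h, Y.W v h * a h.1 p := by
    intro v p hp
    simp only [hW]
    rw [level_fst hJ (μ v) fun i => a i p]
    exact hE v p hp
  have hanti : ∀ v p (f : ι × (Lv → Bool × Fin J) → ℝ), (∀ h, f (flp p h) = - f h) → ∀ y,
      ∑ h, Y.W v h * (f h * Y.G h y) = (∑ h, Y.W v h * (f h * sg (h.2 p) * a h.1 p)) * ψ p y := by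
    intro v p f hf y
    simp only [hW]
    exact level_anti hG (fun i => μ v i / _) p f hf y
  have hsq : ∀ v, ∀ p ∈ Act v,
      1 / 8 ≤ ∑ h, Y.W v h * (sg (h.2 p) * sg (h.2 p) * a h.1 p) := by
    intro v p hp
    have h1 : ∑ h, 1 / 4 * (Y.W v h * a h.1 p)
        ≤ ∑ h, Y.W v h * (sg (h.2 p) * sg (h.2 p) * a h.1 p) := by
      refine sum_le_sum fun h _ => ?_
      have := sq_sg_ge (h.2 p)
      have := mul_nonneg (Y.W0 v h) (ha h.1 p).1
      nlinarith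
    rw [← mul_sum] at h1
    have := hEa v p hp
    linarith
  have hup : ∀ x y, ρ x y ≤ K * dist x y := by
    refine Elim.lip_of_bag (E := E) ρ K hcut.symm hcut.tri fun t x hx y hy => ?_
    rw [hbag t x hx y hy, ← one_mul (K * dist x y), ← Y.W1 t, sum_mul]
    refine sum_le_sum fun h _ => ?_
    by_cases h0 : Y.W t h = 0
    · rw [h0]; simp
    · exact mul_le_mul_of_nonneg_left (Y.lip t h h0 x y) (Y.W0 t h)
  have hmono : ∀ u a b, a ≤ b → b ≤ E.dep u → Var u a ≤ Var u b := by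
    intro u a b hab hb
    induction b, hab using Nat.le_induction with
    | base => exact le_rfl
    | succ b _ ih => exact (ih (by omega)).trans (hVm u b (by omega))
  refine ⟨ρ, Var, hcut, hup, hlca, hV0, hVm, fun t p hp x hx y hy => ?_,
    fun u j p hj hju hin hout => ?_, fun u n j p hj hju hin hout y hy h0 hdi => ?_⟩
  · have h1 := hanti t p (fun h => sg (h.2 p)) (sg_flp p) x
    have h2 := hanti t p (fun h => sg (h.2 p)) (sg_flp p) y
    have h3 := hsq t p hp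
    have h4 : |∑ h, Y.W t h * (sg (h.2 p) * Y.G h x) - ∑ h, Y.W t h * (sg (h.2 p) * Y.G h y)|
        ≤ ρ x y := by
      rw [hbag t x hx y hy, ← sum_sub_distrib]
      refine (abs_sum_le_sum_abs _ _).trans (sum_le_sum fun h _ => ?_)
      rw [← mul_sub, ← mul_sub, abs_mul, abs_mul, abs_of_nonneg (Y.W0 t h)]
      exact mul_le_mul_of_nonneg_left
        (mul_le_of_le_one_left (abs_nonneg _) (abs_sg_le _)) (Y.W0 t h)
    rw [h1, h2, ← mul_sub, abs_mul, abs_of_nonneg (by linarith)] at h4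
    nlinarith [abs_nonneg (ψ p x - ψ p y)]
  · obtain ⟨e, bad, -, -, hb, -, hk⟩ := hkey u 0 (Nat.zero_le _) u (E.self_mem u)
    have h1 := hk j (fun h => sg (h.2 p)) (by omega) (fun h => abs_sg_le _)
      (level_back E hκ1 hκ2 p u j hj hin hout _ (sg_flp p))
    simp only [hb rfl rfl, mul_zero, sum_const_zero, add_zero, zero_add, hV0, sub_zero,
      Function.iterate_zero, id] at h1
    rw [hanti u p (fun h => sg (h.2 p)) (sg_flp p) u] at h1
    have h3 := hsq u p (hin 0 hj)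
    have h4 : 0 ≤ Var u j := by rw [← hV0 u]; exact hmono u 0 j (Nat.zero_le _) hju
    by_cases h5 : 0 ≤ ψ p u
    · nlinarith
    · nlinarith
  · classical
    have hΔ : 0 ≤ Var u (n + j) - Var u n := sub_nonneg.2 (hmono u _ _ (Nat.le_add_right _ _) hju)
    rcases h0.eq_or_lt with h0 | h0
    · rw [← h0]; positivity
    obtain ⟨e, bad, he0, he, -, hb, hk⟩ := hkey u n (by omega) y hy
    set t := E.par^[n] u with ht
    set η := ψ p y with hη
    set ω := K * η / C with hω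
    set Γ := C * (dist u y + η) / (8 * J) with hΓ
    have hd0 : 0 ≤ dist u y := dist_nonneg
    have hω0 : 0 ≤ ω := by positivity
    have hω1 : ω ≤ η / 24 := by
      rw [hω, div_le_div_iff₀ (by linarith) (by norm_num)]; nlinarith
    have hΓ1 : (80 * K + 2) * (dist u y + η) ≤ Γ := by
      rw [hΓ, le_div_iff₀ (by positivity)]; nlinarith
    have hΓ2 : 80 * K * dist u y + η ≤ Γ - ω := by nlinarith
    have hΓ3 : 0 < Γ - ω := by nlinarith
    have hΓ4 : Γ ≤ C * (∑ x : V, ∑ y : V, dist x y + ∑ p, ∑ y, |ψ p y|) := by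
      have h1 : dist u y ≤ ∑ x : V, ∑ y : V, dist x y :=
        (single_le_sum (f := fun y => dist u y) (fun _ _ => dist_nonneg) (mem_univ y)).trans
          (single_le_sum (f := fun x => ∑ y : V, dist x y)
            (fun _ _ => sum_nonneg fun _ _ => dist_nonneg) (mem_univ u))
      have h2 : η ≤ ∑ p, ∑ y, |ψ p y| :=
        (le_abs_self _).trans ((single_le_sum (f := fun y => |ψ p y|)
          (fun _ _ => abs_nonneg _) (mem_univ y)).trans
          (single_le_sum (f := fun p => ∑ y, |ψ p y|)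
            (fun _ _ => sum_nonneg fun _ _ => abs_nonneg _) (mem_univ p)))
      refine (div_le_self (by positivity) (by linarith)).trans ?_
      gcongr
    have hyu := hup y u
    rw [dist_comm] at hyu
    obtain ⟨f, hf, hf1, h2, h5⟩ := level_gain hJ hJr (hW t) hG (hμ0 t) (hμ1 t) (Y.W0 t) (Y.W1 t)
      ha (E.card_le t) (hEa t) (hin 0 hj) (y := y) (e := e) (bad := bad) (ω := ω) (Γ := Γ) he0
      (by linarith) hΓ3 hω0 (fun h => hb h ω Γ hω0 (by linarith) hΓ4) (fun x hx => by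
        rcases hdi x hx with h1 | ⟨q, h1, h2⟩
        · refine Or.inl fun h hW0 => (Y.lip t h hW0 x y).trans ?_
          rw [hω, le_div_iff₀ (by linarith)]; nlinarith
        · refine Or.inr ⟨q, h1, le_trans (le_of_eq ?_) h2⟩
          rw [hΓ]; field_simp)
    have h1 := hk j f hju hf1 (level_back E hκ1 hκ2 p t j hj
      (fun i hi => by rw [ht, ← Function.iterate_add_apply, add_comm]; exact hin i hi)
      (by rw [ht, ← Function.iterate_add_apply, add_comm]; exact hout) f hf)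
    rw [hanti t p f hf y] at h1
    have h6 := mul_le_mul_of_nonneg_right h5 h0.le
    have h7 := mul_le_mul_of_nonneg_right hC1 hΔ
    linarith

end Vale.Agent.P235
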