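import Vale.Agent.P235.Basic

namespace Vale.Agent.P235

open Finset

section Ex

variable {X : Type}

theorem ex_zero (f : X → ℝ) : ex 0 f = 0 := Finsupp.sum_zero_index

theorem ex_add (μ ν : X →₀ ℝ) (f : X → ℝ) : ex (μ + ν) f = ex μ f + ex ν f :=
  Finsupp.sum_add_index' (h := fun x (w : ℝ) => w * f x) (fun _ => zero_mul _)
    fun _ _ _ => add_mul _ _ _

theorem ex_sum {I : Type} (s : Finset I) (ν : I → X →₀ ℝ) (f : X → ℝ) :
    ex (∑ i ∈ s, ν i) f = ∑ i ∈ s, ex (ν i) f :=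
  (Finsupp.sum_finsetSum_index (h := fun x (w : ℝ) => w * f x) (fun _ => zero_mul _)
    fun _ _ _ => add_mul _ _ _).symm

theorem ex_single (x : X) (w : ℝ) (f : X → ℝ) : ex (Finsupp.single x w) f = w * f x :=
  Finsupp.sum_single_index (zero_mul _)

theorem mass_eq_ex (μ : X →₀ ℝ) : mass μ = ex μ (fun _ => 1) := by
  simp [mass, ex]

theorem ex_lin (μ : X →₀ ℝ) (f g : X → ℝ) (a b : ℝ) :
    ex μ (fun x => a * f x + b * g x) = a * ex μ f + b * ex μ g := by
  simp only [ex, Finsupp.sum, mul_sum, ← sum_add_distrib]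
  exact sum_congr rfl fun _ _ => by ring

theorem ex_congr {μ : X →₀ ℝ} {f g : X → ℝ} (h : ∀ x ∈ μ.support, f x = g x) :
    ex μ f = ex μ g :=
  sum_congr rfl fun x hx => by simp only [h x hx]

theorem ex_mono {μ : X →₀ ℝ} (hμ : ∀ x, 0 ≤ μ x) {f g : X → ℝ}
    (h : ∀ x ∈ μ.support, f x ≤ g x) : ex μ f ≤ ex μ g :=
  sum_le_sum fun x hx => mul_le_mul_of_nonneg_left (h x hx) (hμ x)

theorem ex_eq_sum {μ : X →₀ ℝ} {U : Finset X} (h : μ.support ⊆ U) (f : X → ℝ) :
    ex μ f = ∑ x ∈ U, μ x * f x :=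
  Finsupp.sum_of_support_subset μ h _ fun _ _ => zero_mul _

theorem mass_nonneg {μ : X →₀ ℝ} (hμ : ∀ x, 0 ≤ μ x) : 0 ≤ mass μ :=
  sum_nonneg fun x _ => hμ x

theorem eq_zero_of_mass {μ : X →₀ ℝ} (hμ : ∀ x, 0 ≤ μ x) (h : mass μ = 0) : μ = 0 := by
  ext x
  by_contra hx
  exact hx ((sum_eq_zero_iff_of_nonneg fun x _ => hμ x).1 h x (Finsupp.mem_support_iff.2 hx))

theorem support_subset_of_sum {I : Type} (s : Finset I) (ν : I → X →₀ ℝ)
    (h : ∀ i ∈ s, ∀ x, 0 ≤ ν i x) {i : I} (hi : i ∈ s) :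
    (ν i).support ⊆ (∑ i ∈ s, ν i).support := by
  intro x hx
  rw [Finsupp.mem_support_iff] at hx ⊢
  rw [Finsupp.finsetSum_apply]
  exact fun h0 => hx ((sum_eq_zero_iff_of_nonneg fun j hj => h j hj x).1 h0 i hi)

theorem exists_of_mem_support_sum {I : Type} (s : Finset I) (ν : I → X →₀ ℝ) {x : X}
    (hx : x ∈ (∑ i ∈ s, ν i).support) : ∃ i ∈ s, x ∈ (ν i).support := by
  rw [Finsupp.mem_support_iff, Finsupp.finsetSum_apply] at hx
  obtain ⟨i, hi, h⟩ := exists_ne_zero_of_sum_ne_zero hx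
  exact ⟨i, hi, Finsupp.mem_support_iff.2 h⟩

variable {Z : Type} [Fintype Z]

theorem machA_push (φ : X → Z → X) (μ : X →₀ ℝ) : push φ μ =
    ∑ x ∈ μ.support, ∑ z, Finsupp.single (φ x z) (μ x / Fintype.card Z) := rfl

theorem ex_push (φ : X → Z → X) (μ : X →₀ ℝ) (f : X → ℝ) :
    ex (push φ μ) f = ex μ (fun x => (∑ z, f (φ x z)) / Fintype.card Z) := by
  simp only [machA_push, ex_sum, ex_single]
  refine sum_congr rfl fun x _ => ?_
  simp only [← mul_sum]
  ring

theorem push_nonneg (φ : X → Z → X) {μ : X →₀ ℝ} (hμ : ∀ x, 0 ≤ μ x) (x : X) :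
    0 ≤ push φ μ x := by
  classical
  simp only [machA_push, Finsupp.finsetSum_apply, Finsupp.single_apply]
  refine sum_nonneg fun y _ => sum_nonneg fun z _ => ?_
  split_ifs
  · exact div_nonneg (hμ y) (Nat.cast_nonneg _)
  · exact le_rfl

theorem mem_support_push {φ : X → Z → X} {μ : X →₀ ℝ} {x' : X}
    (h : x' ∈ (push φ μ).support) : ∃ x ∈ μ.support, ∃ z, x' = φ x z := by
  obtain ⟨x, hx, h⟩ := exists_of_mem_support_sum _ _ h
  obtain ⟨z, -, h⟩ := exists_of_mem_support_sum _ _ h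
  exact ⟨x, hx, z, mem_singleton.1 (Finsupp.support_single_subset h)⟩

theorem machA_push_sum {I : Type} (s : Finset I) (φ : X → Z → X) (ν : I → X →₀ ℝ) :
    ∑ i ∈ s, push φ (ν i) = push φ (∑ i ∈ s, ν i) :=
  Finsupp.sum_finsetSum_index
    (h := fun x (w : ℝ) => ∑ z, Finsupp.single (φ x z) (w / Fintype.card Z)) (fun _ => by simp)
    fun _ _ _ => by simp only [add_div, Finsupp.single_add, sum_add_distrib]

theorem machA_push_mass [Nonempty Z] (φ : X → Z → X) (μ : X →₀ ℝ) : mass (push φ μ) = mass μ := by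
  have : (Fintype.card Z : ℝ) ≠ 0 := by simp
  simp [mass_eq_ex, ex_push]

theorem machA_ex_const (μ : X →₀ ℝ) (a : ℝ) : ex μ (fun _ => a) = a * mass μ := by
  simp [ex, mass, Finsupp.sum, mul_sum, mul_comm]

end Ex

variable {X Y : Type} [AddCommGroup X] [Module ℝ X] [AddCommGroup Y] [Module ℝ Y]
  {p : Seminorm ℝ Y} {F : X →ₗ[ℝ] Y} {s : X →ₗ[ℝ] ℝ} {P M : ℝ}

theorem Good.nonneg {n : ℕ} {μ : X →₀ ℝ} {C : Y} (h : Good p F s P M n μ C) (x : X) :
    0 ≤ μ x := by
  cases n <;> exact h.1 x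

theorem Good.mean {n : ℕ} {μ : X →₀ ℝ} {C : Y} (h : Good p F s P M n μ C) :
    (μ.sum fun x w => w • F x) = mass μ • C := by
  cases n <;> exact h.2.1

theorem Good.sup {n : ℕ} {μ : X →₀ ℝ} {C : Y} (h : Good p F s P M n μ C) (hP : 0 ≤ P)
    (hM : 1 ≤ M) : ∀ x ∈ μ.support, p (F x - C) + s x ≤ M * 3 ^ n * P := by
  cases n with
  | zero => exact fun x hx => (h.2.2 x hx).trans (by nlinarith)
  | succ n => exact h.2.2.1

theorem Good.var {n : ℕ} {μ : X →₀ ℝ} {C : Y} (h : Good p F s P M n μ C) (hP : 0 ≤ P)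
    (hs : ∀ x ∈ μ.support, 0 ≤ s x) :
    ex μ (fun x => p (F x - C) ^ 2) ≤ 9 / 4 * (3 ^ n * P) ^ 2 * mass μ := by
  induction n generalizing μ C with
  | zero =>
    rw [← machA_ex_const]
    refine ex_mono h.1 fun x hx => ?_
    have h1 := h.2.2 x hx
    have h2 := hs x hx
    have h3 := apply_nonneg p (F x - C)
    nlinarith
  | succ n ih =>
    obtain ⟨-, -, -, N, ν, B, rfl, hG, hv⟩ := h
    have hm : mass (∑ b, ν b) = ∑ b, mass (ν b) := by simp only [mass_eq_ex, ex_sum]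
    have key : ∀ b, ex (ν b) (fun x => p (F x - C) ^ 2) ≤ 3 / 2 * (mass (ν b) * p (B b - C) ^ 2)
        + 3 * (9 / 4 * (3 ^ n * P) ^ 2 * mass (ν b)) := by
      intro b
      have h1 := ih (hG b) fun x hx =>
        hs x (support_subset_of_sum _ ν (fun b _ => (hG b).nonneg) (mem_univ b) hx)
      have h2 := ex_mono (hG b).nonneg (f := fun x => p (F x - C) ^ 2)
        (g := fun x => 3 / 2 * p (B b - C) ^ 2 + 3 * p (F x - B b) ^ 2) fun x _ => by
          have h3 := map_add_le_add p (B b - C) (F x - B b)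
          rw [show B b - C + (F x - B b) = F x - C by abel] at h3
          have h4 := pow_le_pow_left₀ (apply_nonneg p _) h3 2
          nlinarith [sq_nonneg (p (B b - C) - 2 * p (F x - B b))]
      rw [ex_lin _ (fun _ => p (B b - C) ^ 2), machA_ex_const] at h2
      linarith
    have h1 := sum_le_sum fun b (_ : b ∈ univ) => key b
    rw [sum_add_distrib, ← ex_sum, ← mul_sum, ← mul_sum, ← mul_sum, ← hm] at h1
    rw [pow_succ (3 : ℝ) n] at hv ⊢
    linarith

theorem good_single (n : ℕ) (x : X) {w : ℝ} (hw : 0 ≤ w) (hP : 0 ≤ P) (hM : 1 ≤ M)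
    (hx : s x ≤ P) : Good p F s P M n (Finsupp.single x w) (F x) := by
  classical
  have h0 : ∀ y, 0 ≤ Finsupp.single x w y := fun y => by
    rw [Finsupp.single_apply]; split_ifs
    · exact hw
    · exact le_rfl
  have hm : mass (Finsupp.single x w) = w := by rw [mass_eq_ex, ex_single, mul_one]
  have h1 : ((Finsupp.single x w).sum fun y v => v • F y) = mass (Finsupp.single x w) • F x := by
    rw [hm]; exact Finsupp.sum_single_index (zero_smul _ _)
  have h2 : ∀ y ∈ (Finsupp.single x w).support, p (F y - F x) + s y ≤ P := fun y hy => by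
    simpa [mem_singleton.1 (Finsupp.support_single_subset hy)] using hx
  induction n with
  | zero => exact ⟨h0, h1, h2⟩
  | succ n ih =>
    refine ⟨h0, h1, fun y hy => (h2 y hy).trans ?_, 1, fun _ => Finsupp.single x w, fun _ => F x,
      by simp, fun _ => ih, by simp only [sub_self, map_zero, hm]; simp; positivity⟩
    have h3 : (1 : ℝ) ≤ 3 ^ (n + 1) := one_le_pow₀ (by norm_num)
    exact le_mul_of_one_le_left hP (by nlinarith)

theorem Good.push {Z : Type} [Fintype Z] [Nonempty Z] (φ : X → Z → X) {n : ℕ} {μ : X →₀ ℝ}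
    {C : Y} (h : Good p F s P M n μ C)
    (hmean : ∀ x ∈ μ.support, ∑ z, F (φ x z) = (Fintype.card Z : ℝ) • F x)
    (hsup : ∀ x ∈ μ.support, ∀ z, p (F (φ x z) - F x) + s (φ x z) ≤ s x) :
    Good p F s P M n (push φ μ) C := by
  have hZ : (Fintype.card Z : ℝ) ≠ 0 := by simp
  induction n generalizing μ C
  all_goals
    have h1 : ((P235.push φ μ).sum fun x w => w • F x) = mass (P235.push φ μ) • C := by
      rw [machA_push_mass, ← h.mean, machA_push, ← Finsupp.sum_finsetSum_index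
        (h := fun x (w : ℝ) => w • F x) (fun _ => zero_smul _ _) fun _ _ _ => add_smul _ _ _]
      refine sum_congr rfl fun x hx => ?_
      rw [← Finsupp.sum_finsetSum_index
        (h := fun x (w : ℝ) => w • F x) (fun _ => zero_smul _ _) fun _ _ _ => add_smul _ _ _]
      simp only [Finsupp.sum_single_index (h := fun x (w : ℝ) => w • F x) (zero_smul _ _)]
      rw [← smul_sum, hmean x hx, smul_smul, div_mul_cancel₀ _ hZ]
    have h2 : ∀ K, (∀ x ∈ μ.support, p (F x - C) + s x ≤ K) →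
        ∀ x ∈ (P235.push φ μ).support, p (F x - C) + s x ≤ K := fun K hK x' hx' => by
      obtain ⟨x, hx, z, rfl⟩ := mem_support_push hx'
      have h3 := map_add_le_add p (F (φ x z) - F x) (F x - C)
      rw [sub_add_sub_cancel] at h3
      linarith [hK x hx, hsup x hx z]
  · exact ⟨push_nonneg φ h.1, h1, h2 _ h.2.2⟩
  · rename_i n ih
    obtain ⟨h0, -, h3, N, ν, B, rfl, hG, hv⟩ := h
    have sub : ∀ b, ∀ x ∈ (ν b).support, x ∈ (∑ b, ν b).support := fun b x hx =>
      support_subset_of_sum _ ν (fun b _ => (hG b).nonneg) (mem_univ b) hx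
    exact ⟨push_nonneg φ h0, h1, h2 _ h3, N, fun b => P235.push φ (ν b), B, machA_push_sum ..,
      fun b => ih (hG b) (fun x hx => hmean x (sub b x hx)) fun x hx => hsup x (sub b x hx),
      by simpa only [machA_push_mass] using hv⟩

/-- Jensen: a seminorm plus a linear functional at the barycentre -/
theorem bary_le {μ : X →₀ ℝ} (hμ : ∀ x, 0 ≤ μ x) (hm : mass μ ≠ 0) {z : X}
    (hz : (μ.sum fun x w => w • x) = mass μ • z) (C : Y) {K : ℝ}
    (h : ∀ x ∈ μ.support, p (F x - C) + s x ≤ K) : p (F z - C) + s z ≤ K := by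
  have h0 : 0 < mass μ := (mass_nonneg hμ).lt_of_ne' hm
  have h1 : mass μ • (F z - C) = ∑ x ∈ μ.support, μ x • (F x - C) := by
    rw [smul_sub, ← map_smul, ← hz]
    simp [Finsupp.sum, mass, smul_sub, sum_smul]
  have h2 : mass μ * s z = ∑ x ∈ μ.support, μ x * s x := by
    rw [← smul_eq_mul, ← map_smul, ← hz]
    simp [Finsupp.sum]
  have h3 : mass μ * p (F z - C) ≤ ∑ x ∈ μ.support, μ x * p (F x - C) := by
    rw [← Real.norm_of_nonneg h0.le, ← map_smul_eq_mul, h1]
    refine (le_sum_of_subadditive p (map_zero p).le (map_add_le_add p) _ _).trans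
      (sum_le_sum fun x _ => ?_)
    rw [map_smul_eq_mul, Real.norm_of_nonneg (hμ x)]
  have h4 := ex_mono hμ (f := fun x => 1 * p (F x - C) + 1 * s x) (g := fun _ => K)
    (by simpa using h)
  rw [ex_lin, machA_ex_const] at h4
  refine le_of_mul_le_mul_left ?_ h0
  simp only [ex, Finsupp.sum] at h4
  linarith

theorem bary_mem {μ : X →₀ ℝ} (hμ : ∀ x, 0 ≤ μ x) (hm : mass μ ≠ 0) {A : Set X}
    (hA : Convex ℝ A) (h : ∀ x ∈ μ.support, x ∈ A) :
    (mass μ)⁻¹ • (μ.sum fun x w => w • x) ∈ A :=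
  hA.centerMass_mem (t := μ.support) (w := μ) (z := id) (fun x _ => hμ x)
    ((mass_nonneg hμ).lt_of_ne' hm) h

omit [AddCommGroup X] [Module ℝ X] in
/-- Cauchy-Schwarz for a vector-valued weighted sum -/
theorem sq_sum_le {μ : X →₀ ℝ} (hμ : ∀ x, 0 ≤ μ x) (f : X → Y) :
    p (μ.sum fun x w => w • f x) ^ 2 ≤ mass μ * ex μ (fun x => p (f x) ^ 2) := by
  refine (pow_le_pow_left₀ (apply_nonneg p _) (le_sum_of_subadditive p (map_zero p).le
    (map_add_le_add p) _ _) 2).trans (sum_sq_le_sum_mul_sum_of_sq_le_mul _ (fun x _ => hμ x)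
      (fun x _ => mul_nonneg (hμ x) (sq_nonneg _)) fun x _ => ?_)
  rw [map_smul_eq_mul, Real.norm_of_nonneg (hμ x)]
  exact le_of_eq (by ring)

end Vale.Agent.P235
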