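import Vale.Agent.P235.MachA
import Vale.Agent.P235.Drop

namespace Vale.Agent.P235

open Finset

section Aux

variable {X C I W W' : Type} [AddCommGroup W] [Module ℝ W] [AddCommGroup W'] [Module ℝ W']

/-- vector-valued weighted sum -/
noncomputable def machVx (μ : X →₀ ℝ) (f : X → W) : W := μ.sum fun x w => w • f x

theorem machVx_sum (T : Finset I) (ν : I → X →₀ ℝ) (f : X → W) :
    machVx (∑ i ∈ T, ν i) f = ∑ i ∈ T, machVx (ν i) f :=
  (Finsupp.sum_finsetSum_index (h := fun x (w : ℝ) => w • f x) (fun _ => zero_smul _ _)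
    fun _ _ _ => add_smul _ _ _).symm

theorem machVx_single (x : X) (w : ℝ) (f : X → W) : machVx (Finsupp.single x w) f = w • f x :=
  Finsupp.sum_single_index (zero_smul _ _)

theorem machVx_map (F : W →ₗ[ℝ] W') (μ : X →₀ ℝ) (f : X → W) :
    F (machVx μ f) = machVx μ fun x => F (f x) := by
  simp [machVx, Finsupp.sum]

theorem machVx_sub (μ : X →₀ ℝ) (f : X → W) (c : W) :
    machVx μ (fun x => f x - c) = machVx μ f - mass μ • c := by
  simp [machVx, mass, Finsupp.sum, smul_sub, sum_smul]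

theorem mach_mass_sum (T : Finset I) (ν : I → X →₀ ℝ) :
    mass (∑ i ∈ T, ν i) = ∑ i ∈ T, mass (ν i) := by
  simp only [mass_eq_ex, ex_sum]

theorem mach_mass_single (x : X) (w : ℝ) : mass (Finsupp.single x w) = w := by
  rw [mass_eq_ex, ex_single, mul_one]

theorem mach_ex_map {X' : Type} (μ : X →₀ ℝ) (φ : X → X') (f : X' → ℝ) :
    ex (μ.mapDomain φ) f = ex μ fun x => f (φ x) :=
  Finsupp.sum_mapDomain_index (fun _ => zero_mul _) fun _ _ _ => add_mul _ _ _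

theorem mach_map_nonneg {X' : Type} {μ : X →₀ ℝ} (hμ : ∀ x, 0 ≤ μ x) (φ : X → X') (q : X') :
    0 ≤ μ.mapDomain φ q := by
  classical
  rw [Finsupp.mapDomain, Finsupp.sum_apply]
  refine sum_nonneg fun x _ => ?_
  simp only [Finsupp.single_apply]
  split_ifs
  · exact hμ x
  · exact le_rfl

theorem mach_sum_nonneg (T : Finset I) {ν : I → X →₀ ℝ} (h : ∀ i ∈ T, ∀ x, 0 ≤ ν i x) (x : X) :
    0 ≤ (∑ i ∈ T, ν i) x := by
  rw [Finsupp.finsetSum_apply]
  exact sum_nonneg fun i hi => h i hi x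

theorem mach_ex_nonneg {μ : X →₀ ℝ} (hμ : ∀ x, 0 ≤ μ x) {f : X → ℝ} (hf : ∀ x, 0 ≤ f x) :
    0 ≤ ex μ f :=
  sum_nonneg fun x _ => mul_nonneg (hμ x) (hf x)

open Classical in
/-- restriction to a class -/
noncomputable def machCls (π : X → C) (c : C) (μ : X →₀ ℝ) : X →₀ ℝ := μ.filter fun x => π x = c

theorem machCls_nonneg {μ : X →₀ ℝ} (hμ : ∀ x, 0 ≤ μ x) (π : X → C) (c : C) (x : X) :
    0 ≤ machCls π c μ x := by
  rw [machCls, Finsupp.filter_apply]
  split_ifs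
  · exact hμ x
  · exact le_rfl

theorem machCls_mem {μ : X →₀ ℝ} {π : X → C} {c : C} {x : X} (h : x ∈ (machCls π c μ).support) :
    x ∈ μ.support ∧ π x = c := by
  classical
  rwa [machCls, Finsupp.support_filter, mem_filter] at h

theorem machCls_total {μ : X →₀ ℝ} {π : X → C} {Cl : Finset C} (h : ∀ x ∈ μ.support, π x ∈ Cl) :
    ∑ c ∈ Cl, machCls π c μ = μ := by
  classical
  ext x
  simp only [Finsupp.finsetSum_apply, machCls, Finsupp.filter_apply, sum_ite_eq]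
  split_ifs with hx
  · rfl
  · by_contra h0
    exact hx (h x (Finsupp.mem_support_iff.2 (Ne.symm h0)))

theorem machCls_sum (T : Finset I) (ν : I → X →₀ ℝ) (π : X → C) (c : C) :
    machCls π c (∑ i ∈ T, ν i) = ∑ i ∈ T, machCls π c (ν i) := by
  classical
  unfold machCls
  convert Finsupp.filter_sum T ν

end Aux

variable {X Y C : Type} [AddCommGroup X] [Module ℝ X] [AddCommGroup Y] [Module ℝ Y]
  {p : Seminorm ℝ Y} {F : X →ₗ[ℝ] Y} {s : X →ₗ[ℝ] ℝ} {P M q0 : ℝ} {A : Set X} {st : X → X}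
  {π : X → C} {Cl : Finset C}

/-- barycentre -/
noncomputable def machBar (μ : X →₀ ℝ) : X := (mass μ)⁻¹ • μ.sum fun x w => w • x

theorem machBar_spec {μ : X →₀ ℝ} (hμ : ∀ x, 0 ≤ μ x) :
    (μ.sum fun x w => w • x) = mass μ • machBar μ := by
  by_cases h : mass μ = 0
  · rw [h, eq_zero_of_mass hμ h]; simp
  · rw [machBar, smul_smul, mul_inv_cancel₀ h, one_smul]

theorem machBar_map {μ : X →₀ ℝ} (hμ : ∀ x, 0 ≤ μ x) :
    machVx μ F = mass μ • F (machBar μ) := by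
  rw [← map_smul, ← machBar_spec hμ]
  exact (machVx_map F μ fun x => x).symm

theorem mach_good {I : Type} (T : Finset I) {n : ℕ} {ν : I → X →₀ ℝ} {B : I → Y} {c0 : Y}
    (hG : ∀ i ∈ T, Good p F s P M n (ν i) (B i))
    (hmean : ∑ i ∈ T, mass (ν i) • B i = (∑ i ∈ T, mass (ν i)) • c0)
    (hsup : ∀ i ∈ T, ∀ x ∈ (ν i).support, p (F x - c0) + s x ≤ M * 3 ^ (n + 1) * P)
    (hvar : ∑ i ∈ T, mass (ν i) * p (B i - c0) ^ 2 ≤ (3 ^ (n + 1) * P) ^ 2 * ∑ i ∈ T, mass (ν i)) :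
    Good p F s P M (n + 1) (∑ i ∈ T, ν i) c0 := by
  refine ⟨mach_sum_nonneg T fun i hi => (hG i hi).nonneg, ?_, fun x hx => ?_, T.card,
    fun b => ν (T.equivFin.symm b), fun b => B (T.equivFin.symm b), ?_,
    fun b => hG _ (T.equivFin.symm b).2, ?_⟩
  · rw [mach_mass_sum, ← hmean]
    exact (machVx_sum T ν F).trans (sum_congr rfl fun i hi => (hG i hi).mean)
  · obtain ⟨i, hi, hx⟩ := exists_of_mem_support_sum T ν hx
    exact hsup i hi x hx
  · rw [T.equivFin.symm.sum_comp fun i : T => ν i, sum_coe_sort]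
  · rw [T.equivFin.symm.sum_comp fun i : T => mass (ν i) * p (B i - c0) ^ 2,
      sum_coe_sort T fun i => mass (ν i) * p (B i - c0) ^ 2, mach_mass_sum]
    exact hvar

open Classical in
/-- indicator of failure -/
noncomputable def machInd (ok : Y → Prop) (y : Y) : ℝ := if ok y then 0 else 1

omit [AddCommGroup Y] [Module ℝ Y] in
theorem machInd_nonneg (ok : Y → Prop) (y : Y) : 0 ≤ machInd ok y := by
  unfold machInd; split_ifs <;> norm_num

theorem mach_cheb {n : ℕ} {μ : X →₀ ℝ} {c0 : Y} (h : Good p F s P M (n + 1) μ c0) (hP : 0 < P)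
    (hM : 1 ≤ M) (hs : ∀ x ∈ μ.support, 0 ≤ s x) (ok : Y → Prop) :
    ex μ (fun x => machInd (fun y => ok y ∧ p (y - c0) + P ≤ M * 3 ^ (n + 1) * P) (F x)) ≤
      ex μ (fun x => machInd ok (F x)) + 9 / M ^ 2 * mass μ := by
  have h3 : (3 : ℝ) ≤ 3 ^ (n + 1) := by
    rw [pow_succ]; nlinarith [one_le_pow₀ (show (1 : ℝ) ≤ 3 by norm_num) (n := n)]
  set K := M * 3 ^ (n + 1) * P with hK
  have hK2 : 2 * P ≤ K := by
    have : 2 ≤ M * 3 ^ (n + 1) := by nlinarith
    exact mul_le_mul_of_nonneg_right this hP.le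
  have hK0 : 0 < K := by linarith
  calc _ ≤ ex μ (fun x => 1 * machInd ok (F x) + 4 / K ^ 2 * p (F x - c0) ^ 2) := by
        refine ex_mono h.nonneg fun x _ => ?_
        have h0 : 0 ≤ 4 / K ^ 2 * p (F x - c0) ^ 2 := by positivity
        by_cases h1 : p (F x - c0) + P ≤ K
        · have : machInd (fun y => ok y ∧ p (y - c0) + P ≤ K) (F x) = machInd ok (F x) := by
            by_cases h2 : ok (F x) <;> simp [machInd, h1, h2]
          linarith
        · have h2 : machInd (fun y => ok y ∧ p (y - c0) + P ≤ K) (F x) = 1 := by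
            simp [machInd, h1]
          have h4 : 1 ≤ 4 / K ^ 2 * p (F x - c0) ^ 2 := by
            rw [div_mul_eq_mul_div, le_div_iff₀ (by positivity)]
            nlinarith
          linarith [machInd_nonneg ok (F x)]
    _ ≤ _ := by
        rw [ex_lin, one_mul]
        have h1 := mul_le_mul_of_nonneg_left (h.var hP.le hs) (show 0 ≤ 4 / K ^ 2 by positivity)
        have h2 : 4 / K ^ 2 * (9 / 4 * (3 ^ (n + 1) * P) ^ 2 * mass μ) = 9 / M ^ 2 * mass μ := by
          rw [hK]; field_simp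
        linarith

variable (p F s P M q0 A st π Cl) in
/-- the inductive conclusion -/
def MachOut (n : ℕ) (μ : X →₀ ℝ) (c0 : Y) (ok : Y → Prop) : Prop :=
  ∃ (μ' : X →₀ ℝ) (γ : X × X →₀ ℝ) (z : ℝ), Good p F s P M n μ' c0 ∧ mass μ' = mass μ ∧
    (∀ x ∈ μ'.support, (x ∈ A ∧ ∀ c' K', (∀ x0 ∈ μ.support, p (F x0 - c') + s x0 ≤ K') →
      p (F x - c') + s x ≤ K') ∨ ∃ z ∈ A, x = st z ∧ ok (F z)) ∧
    (∀ φ : X → ℝ, (∀ x ∈ A, φ x ≤ 1) → (∀ z ∈ A, φ (st z) ≤ 0) →
      ex μ' φ ≤ ex μ' (fun x => machInd ok (F x)) + n * (9 / M ^ 2) * mass μ + z) ∧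
    0 ≤ z ∧ z ≤ mass μ ∧ z * n / (160 * M) ≤ psi Cl q0 (mass μ) (fun c => mass (machCls π c μ)) ∧
    (∀ q, 0 ≤ γ q) ∧ (∀ g : X → ℝ, ex γ (fun q => g q.1) = ex μ g) ∧
    ∀ l : X → ℝ, (∀ z ∈ A, l (st z) = l z) →
      (∀ (ν : X →₀ ℝ) (c : C) (z : X), (∀ x, 0 ≤ ν x) →
        (∀ x ∈ ν.support, x ∈ μ.support ∧ π x = c) → mass ν ≠ 0 →
        (ν.sum fun x w => w • x) = mass ν • z → ex ν l = mass ν * l z) →
      ∀ g : X → ℝ, ex γ (fun q => l q.1 * g q.2) = ex μ' (fun x => l x * g x)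

theorem mach_zero (hq0 : 0 < q0) {μ : X →₀ ℝ} {c0 : Y} (hμ : ∀ x ∈ μ.support, x ∈ A)
    (h : Good p F s P M 0 μ c0) (ok : Y → Prop) : MachOut p F s P M q0 A st π Cl 0 μ c0 ok := by
  have h0 := mass_nonneg h.nonneg
  refine ⟨μ, μ.mapDomain fun x => (x, x), mass μ, h, rfl,
    fun x hx => Or.inl ⟨hμ x hx, fun _ _ h => h x hx⟩, fun φ h1 _ => ?_, h0, le_rfl, ?_,
    mach_map_nonneg h.nonneg _, fun g => mach_ex_map .., fun l _ _ g => mach_ex_map ..⟩
  · have h2 : ex μ φ ≤ mass μ := by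
      rw [mass_eq_ex]; exact ex_mono h.nonneg fun x hx => h1 x (hμ x hx)
    have h3 := mach_ex_nonneg h.nonneg fun x => machInd_nonneg ok (F x)
    simp only [Nat.cast_zero, zero_mul]
    linarith
  · simpa using psi_nonneg Cl hq0 h0 fun c _ => mass_nonneg (machCls_nonneg h.nonneg π c)

theorem mach_merge (hP : 0 < P) (hA : Convex ℝ A) (hM : 1 ≤ M) (hq0 : 0 < q0)
    (hst : ∀ x ∈ A, π x ∈ Cl ∧ 0 ≤ s x ∧ s x ≤ P ∧ 0 ≤ s (st x) ∧ s (st x) ≤ P ∧ F (st x) = F x)
    {n : ℕ} {μ : X →₀ ℝ} {c0 : Y} (hμ : ∀ x ∈ μ.support, x ∈ A)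
    (h : Good p F s P M (n + 1) μ c0) (ok : Y → Prop)
    (hsmall : ∑ c ∈ Cl, mass (machCls π c μ) * p (F (machBar (machCls π c μ)) - c0) ^ 2 ≤
      (3 ^ (n + 1) * P) ^ 2 * mass μ) : MachOut p F s P M q0 A st π Cl (n + 1) μ c0 ok := by
  classical
  set ν : C → X →₀ ℝ := fun c => machCls π c μ with hν
  have n0 : ∀ c x, 0 ≤ ν c x := fun c => machCls_nonneg h.nonneg π c
  have tot : ∑ c ∈ Cl, ν c = μ := machCls_total fun x hx => (hst x (hμ x hx)).1
  have mtot : ∑ c ∈ Cl, mass (ν c) = mass μ := by rw [← mach_mass_sum, tot]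
  have zA : ∀ c, mass (ν c) ≠ 0 → machBar (ν c) ∈ A := fun c hc =>
    bary_mem (n0 c) hc hA fun x hx => hμ x (machCls_mem hx).1
  set ok' : Y → Prop := fun y => ok y ∧ p (y - c0) + P ≤ M * 3 ^ (n + 1) * P with hok
  set y : C → X := fun c => if mass (ν c) ≠ 0 ∧ ok' (F (machBar (ν c))) then st (machBar (ν c))
    else machBar (ν c) with hy
  have y1 : ∀ c, F (y c) = F (machBar (ν c)) ∧ s (y c) ≤ P := by
    intro c
    simp only [hy]
    split_ifs with hc
    · exact ⟨(hst _ (zA c hc.1)).2.2.2.2.2, (hst _ (zA c hc.1)).2.2.2.2.1⟩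
    · refine ⟨rfl, ?_⟩
      by_cases h0 : mass (ν c) = 0
      · simp [machBar, h0, hP.le]
      · exact (hst _ (zA c h0)).2.2.1
  have y2 : ∀ c, mass (ν c) ≠ 0 → (y c = machBar (ν c) ∧ ¬ ok' (F (y c))) ∨
      (y c = st (machBar (ν c)) ∧ ok' (F (machBar (ν c)))) := by
    intro c hc
    by_cases h1 : ok' (F (machBar (ν c)))
    · exact Or.inr ⟨if_pos ⟨hc, h1⟩, h1⟩
    · exact Or.inl ⟨if_neg fun h => h1 h.2, by rwa [(y1 c).1]⟩
  have sup : ∀ c, ∀ x ∈ (Finsupp.single (y c) (mass (ν c))).support, mass (ν c) ≠ 0 ∧ x = y c :=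
    fun c x hx => ⟨fun h0 => by simp [h0] at hx, mem_singleton.1 (Finsupp.support_single_subset hx)⟩
  have y3 : ∀ c, mass (ν c) ≠ 0 → ∀ c' K', (∀ x0 ∈ μ.support, p (F x0 - c') + s x0 ≤ K') →
      p (F (machBar (ν c)) - c') + s (machBar (ν c)) ≤ K' := fun c hc c' K' hK =>
    bary_le (n0 c) hc (machBar_spec (n0 c)) c' fun x hx => hK x (machCls_mem hx).1
  have hG : Good p F s P M (n + 1) (∑ c ∈ Cl, Finsupp.single (y c) (mass (ν c))) c0 := by
    refine mach_good Cl (B := fun c => F (y c))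
      (fun c _ => good_single n _ (mass_nonneg (n0 c)) hP.le hM (y1 c).2) ?_ (fun c _ x hx => ?_) ?_
    · simp only [mach_mass_single, mtot, (y1 _).1, ← machBar_map (n0 _)]
      rw [← machVx_sum, tot]
      exact h.mean
    · obtain ⟨h0, rfl⟩ := sup c x hx
      rcases y2 c h0 with ⟨h1, -⟩ | ⟨-, h1⟩
      · rw [h1]; exact y3 c h0 _ _ h.2.2.1
      · have := h1.2
        rw [← (y1 c).1] at this
        linarith [(y1 c).2]
    · simpa only [mach_mass_single, mtot, (y1 _).1] using hsmall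
  have hm : mass (∑ c ∈ Cl, Finsupp.single (y c) (mass (ν c))) = mass μ := by
    simp only [mach_mass_sum, mach_mass_single, mtot]
  have h0 := mass_nonneg h.nonneg
  have hS : ∀ x ∈ (∑ c ∈ Cl, Finsupp.single (y c) (mass (ν c))).support,
      ∃ c, mass (ν c) ≠ 0 ∧ x = y c := fun x hx => by
    obtain ⟨c, -, hx⟩ := exists_of_mem_support_sum _ _ hx
    exact ⟨c, sup c x hx⟩
  refine ⟨_, μ.mapDomain fun x => (x, y (π x)), 0, hG, hm, fun x hx => ?_, fun φ h1 h2 => ?_,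
    le_rfl, h0, ?_, mach_map_nonneg h.nonneg _, fun g => mach_ex_map .., fun l l1 l2 g => ?_⟩
  · obtain ⟨c, h0, rfl⟩ := hS x hx
    rcases y2 c h0 with ⟨h1, -⟩ | ⟨h1, h2⟩
    · rw [h1]; exact Or.inl ⟨zA c h0, y3 c h0⟩
    · exact Or.inr ⟨_, zA c h0, h1, h2.1⟩
  · have h3 := mach_cheb hG hP hM (fun x hx => by
      obtain ⟨c, h0, rfl⟩ := hS x hx
      rcases y2 c h0 with ⟨h1, -⟩ | ⟨h1, -⟩ <;> rw [h1]
      · exact (hst _ (zA c h0)).2.1
      · exact (hst _ (zA c h0)).2.2.2.1) ok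
    have h4 := ex_mono hG.nonneg (f := φ) (g := fun x => machInd ok' (F x)) fun x hx => by
      obtain ⟨c, h0, rfl⟩ := hS x hx
      rcases y2 c h0 with ⟨h5, h6⟩ | ⟨h5, -⟩
      · rw [machInd, if_neg h6, h5]; exact h1 _ (zA c h0)
      · exact (h5 ▸ h2 _ (zA c h0)).trans (machInd_nonneg _ _)
    have h5 : 0 ≤ n * (9 / M ^ 2) * mass μ := by positivity
    rw [hm] at h3
    push_cast
    linarith
  · simpa using psi_nonneg Cl hq0 h0 fun c _ => mass_nonneg (n0 c)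
  · rw [mach_ex_map, ex_sum]
    conv_lhs => rw [← tot, ex_sum]
    refine sum_congr rfl fun c _ => ?_
    rw [ex_single, ex_congr (g := fun x => g (y c) * l x + 0 * l x) fun x hx => by
      rw [(machCls_mem hx).2]; ring, ex_lin]
    by_cases hc : mass (ν c) = 0
    · rw [hc, eq_zero_of_mass (n0 c) hc, ex_zero]; ring
    · rw [l2 (ν c) c _ (n0 c) (fun x hx => machCls_mem hx) hc (machBar_spec (n0 c))]
      have : l (y c) = l (machBar (ν c)) := by
        rcases y2 c hc with ⟨h1, -⟩ | ⟨h1, -⟩ <;> rw [h1]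
        exact l1 _ (zA c hc)
      rw [this]; ring

theorem mach_big (hP : 0 < P) {n N : ℕ} {ν : Fin N → X →₀ ℝ} {B : Fin N → Y} {c0 : Y}
    (hG : ∀ b, Good p F s P M n (ν b) (B b)) (hs : ∀ b, ∀ x ∈ (ν b).support, 0 ≤ s x)
    (hπ : ∀ b, ∀ x ∈ (ν b).support, π x ∈ Cl)
    (hbig : (3 ^ (n + 1) * P) ^ 2 * ∑ b, mass (ν b) < ∑ c ∈ Cl,
      mass (machCls π c (∑ b, ν b)) * p (F (machBar (machCls π c (∑ b, ν b))) - c0) ^ 2) :
    (3 ^ (n + 1) * P) ^ 2 * (∑ b, mass (ν b)) / 4 < ∑ c ∈ Cl,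
      p (∑ b, mass (machCls π c (ν b)) • (B b - c0)) ^ 2 / ∑ b, mass (machCls π c (ν b)) := by
  have n0 : ∀ c b x, 0 ≤ machCls π c (ν b) x := fun c b => machCls_nonneg (hG b).nonneg π c
  set e : C → Fin N → ℝ := fun c b => ex (machCls π c (ν b)) fun x => p (F x - B b) ^ 2 with he
  have e0 : ∀ c b, 0 ≤ e c b := fun c b => mach_ex_nonneg (n0 c b) fun _ => sq_nonneg _
  have key : ∀ c, mass (machCls π c (∑ b, ν b)) *
      p (F (machBar (machCls π c (∑ b, ν b))) - c0) ^ 2 ≤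
      2 * (p (∑ b, mass (machCls π c (ν b)) • (B b - c0)) ^ 2 / ∑ b, mass (machCls π c (ν b))) +
        2 * ∑ b, e c b := by
    intro c
    have m0 : ∀ x, 0 ≤ machCls π c (∑ b, ν b) x :=
      machCls_nonneg (mach_sum_nonneg _ fun b _ => (hG b).nonneg) π c
    have m1 : mass (machCls π c (∑ b, ν b)) = ∑ b, mass (machCls π c (ν b)) := by
      rw [machCls_sum, mach_mass_sum]
    have h1 : mass (machCls π c (∑ b, ν b)) • (F (machBar (machCls π c (∑ b, ν b))) - c0) =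
        ∑ b, mass (machCls π c (ν b)) • (B b - c0) +
          ∑ b, machVx (machCls π c (ν b)) fun x => F x - B b := by
      rw [smul_sub, ← machBar_map m0, m1, machCls_sum, machVx_sum, sum_smul, ← sum_sub_distrib,
        ← sum_add_distrib]
      refine sum_congr rfl fun b _ => ?_
      rw [machVx_sub, smul_sub]; abel
    have h2 : (∑ b, p (machVx (machCls π c (ν b)) fun x => F x - B b)) ^ 2 ≤
        (∑ b, mass (machCls π c (ν b))) * ∑ b, e c b :=
      sum_sq_le_sum_mul_sum_of_sq_le_mul _ (fun b _ => mass_nonneg (n0 c b)) (fun b _ => e0 c b)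
        fun b _ => sq_sum_le (n0 c b) _
    have h3 : p (∑ b, machVx (machCls π c (ν b)) fun x => F x - B b) ≤
        ∑ b, p (machVx (machCls π c (ν b)) fun x => F x - B b) :=
      le_sum_of_subadditive p (map_zero p).le (map_add_le_add p) _ _
    have h4 := map_add_le_add p (∑ b, mass (machCls π c (ν b)) • (B b - c0))
      (∑ b, machVx (machCls π c (ν b)) fun x => F x - B b)
    have h5 := mass_nonneg m0
    rw [← h1, map_smul_eq_mul, Real.norm_of_nonneg h5] at h4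
    rw [← m1] at h2 ⊢
    have h6 : 0 ≤ ∑ b, e c b := sum_nonneg fun b _ => e0 c b
    rcases h5.eq_or_lt with h5 | h5
    · rw [← h5]; simpa using h6
    generalize mass (machCls π c (∑ b, ν b)) = m at *
    have h7 := apply_nonneg p (F (machBar (machCls π c (∑ b, ν b))) - c0)
    generalize p (F (machBar (machCls π c (∑ b, ν b))) - c0) = a at *
    generalize p (∑ b, mass (machCls π c (ν b)) • (B b - c0)) = u at *
    generalize (∑ b, p (machVx (machCls π c (ν b)) fun x => F x - B b)) = r at *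
    have h8 : (m * a) ^ 2 ≤ (u + r) ^ 2 := pow_le_pow_left₀ (by positivity) (by linarith) 2
    have h9 : 2 * (u ^ 2 / m) + 2 * ∑ b, e c b = (2 * u ^ 2 + 2 * (m * ∑ b, e c b)) / m := by
      field_simp
    rw [h9, le_div_iff₀ h5]
    nlinarith [sq_nonneg (u - r)]
  have h1 : ∑ c ∈ Cl, ∑ b, e c b ≤ 9 / 4 * (3 ^ n * P) ^ 2 * ∑ b, mass (ν b) := by
    rw [sum_comm, mul_sum]
    refine sum_le_sum fun b _ => ?_
    rw [← ex_sum, machCls_total (hπ b)]
    exact (hG b).var hP.le (hs b)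
  have h2 := hbig.trans_le (sum_le_sum fun c _ => key c)
  rw [sum_add_distrib, ← mul_sum, ← mul_sum] at h2
  rw [pow_succ (3 : ℝ) n] at h2 ⊢
  linarith

theorem mach_all (hP : 0 < P) (hA : Convex ℝ A) (hM : 1 ≤ M) (hq0 : 0 < q0)
    (hq : Cl.card * q0 * (8 * M ^ 2) ≤ 1)
    (hst : ∀ x ∈ A, π x ∈ Cl ∧ 0 ≤ s x ∧ s x ≤ P ∧ 0 ≤ s (st x) ∧ s (st x) ≤ P ∧ F (st x) = F x)
    (n : ℕ) {μ : X →₀ ℝ} {c0 : Y} (hμ : ∀ x ∈ μ.support, x ∈ A)
    (h : Good p F s P M n μ c0) (ok : Y → Prop) : MachOut p F s P M q0 A st π Cl n μ c0 ok := by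
  induction n generalizing μ c0 ok with
  | zero => exact mach_zero hq0 hμ h ok
  | succ n ih =>
    by_cases hsmall : ∑ c ∈ Cl, mass (machCls π c μ) *
      p (F (machBar (machCls π c μ)) - c0) ^ 2 ≤ (3 ^ (n + 1) * P) ^ 2 * mass μ
    · exact mach_merge hP hA hM hq0 hst hμ h ok hsmall
    obtain ⟨h0, hmean, hsup, N, ν, B, rfl, hG, hvar⟩ := h
    have sub : ∀ b, ∀ x ∈ (ν b).support, x ∈ (∑ b, ν b).support := fun b x hx =>
      support_subset_of_sum _ ν (fun b _ => (hG b).nonneg) (mem_univ b) hx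
    have hA' : ∀ b, ∀ x ∈ (ν b).support, x ∈ A := fun b x hx => hμ x (sub b x hx)
    choose μ' γ z g1 g2 g3 g4 g5 g6 g7 g8 g9 g10 using fun b => ih (hA' b) (hG b)
      fun y => ok y ∧ p (y - c0) + P ≤ M * 3 ^ (n + 1) * P
    have hm : ∑ b, mass (ν b) • B b = (∑ b, mass (ν b)) • c0 := by
      rw [← mach_mass_sum, ← hmean]
      exact ((machVx_sum _ ν F).trans (sum_congr rfl fun b _ => (hG b).mean)).symm
    rw [mach_mass_sum] at hvar hsmall
    have hG' : Good p F s P M (n + 1) (∑ b, μ' b) c0 := by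
      refine mach_good univ (fun b _ => g1 b) (by simpa only [g2] using hm) (fun b _ x hx => ?_)
        (by simpa only [g2] using hvar)
      rcases g3 b x hx with h1 | ⟨y, hy, rfl, h1⟩
      · exact h1.2 _ _ fun x0 hx0 => hsup x0 (sub b x0 hx0)
      · rw [(hst y hy).2.2.2.2.2]
        linarith [h1.2, (hst y hy).2.2.2.2.1]
    have hm' : mass (∑ b, μ' b) = mass (∑ b, ν b) := by simp only [mach_mass_sum, g2]
    have hz : ∑ b, z b ≤ ∑ b, mass (ν b) := sum_le_sum fun b _ => g6 b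
    refine ⟨_, ∑ b, γ b, ∑ b, z b, hG', hm', fun x hx => ?_, fun φ h1 h2 => ?_,
      sum_nonneg fun b _ => g5 b, by rwa [mach_mass_sum], ?_, mach_sum_nonneg _ fun b _ => g8 b,
      fun g => by simp only [ex_sum, g9], fun l l1 l2 g => ?_⟩
    · obtain ⟨b, -, hx⟩ := exists_of_mem_support_sum _ _ hx
      rcases g3 b x hx with h1 | ⟨y, hy, rfl, h1⟩
      · exact Or.inl ⟨h1.1, fun c' K' hK => h1.2 c' K' fun x0 hx0 => hK x0 (sub b x0 hx0)⟩
      · exact Or.inr ⟨y, hy, rfl, h1.1⟩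
    · have h3 := mach_cheb hG' hP hM (fun x hx => by
        obtain ⟨b, -, hx⟩ := exists_of_mem_support_sum _ _ hx
        rcases g3 b x hx with h1 | ⟨y, hy, rfl, -⟩
        · exact (hst x h1.1).2.1
        · exact (hst y hy).2.2.2.1) ok
      have h4 := sum_le_sum fun b (_ : b ∈ univ) => g4 b φ h1 h2
      rw [sum_add_distrib, sum_add_distrib, ← ex_sum, ← ex_sum, ← mul_sum, ← mach_mass_sum] at h4
      rw [hm'] at h3
      push_cast
      linarith
    · have h3 := psi_drop p Cl (fun b => mass (ν b)) (fun b c => mass (machCls π c (ν b)))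
        (fun b => B b - c0) (η := 3 ^ (n + 1) * P) (M := M) (q0 := q0)
        (fun b c => mass_nonneg (machCls_nonneg (hG b).nonneg π c))
        (fun b => by rw [← mach_mass_sum, machCls_total fun x hx => (hst x (hA' b x hx)).1])
        (by simp only [smul_sub, sum_sub_distrib, hm, sum_smul, sub_self]) hvar
        (fun b hb => by
          have h1 := bary_le (hG b).nonneg hb (machBar_spec (hG b).nonneg) c0
            fun x hx => hsup x (sub b x hx)
          have h2 : F (machBar (ν b)) = B b :=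
            smul_right_injective _ hb ((machBar_map (hG b).nonneg).symm.trans (hG b).mean)
          have h3 : 0 ≤ s (machBar (ν b)) := (hst _ (bary_mem (hG b).nonneg hb hA (hA' b))).2.1
          rw [h2] at h1
          linarith)
        (by positivity) hM hq0 hq (mach_big hP hG (fun b x hx => (hst x (hA' b x hx)).2.1)
          (fun b x hx => (hst x (hA' b x hx)).1) (not_le.1 hsmall))
      have h4 := sum_le_sum fun b (_ : b ∈ univ) => g7 b
      rw [← sum_div, ← sum_mul] at h4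
      have h5 : (∑ b, z b) / (160 * M) ≤ (∑ b, mass (ν b)) / (160 * M) :=
        div_le_div_of_nonneg_right hz (by positivity)
      simp only [machCls_sum, mach_mass_sum]
      push_cast
      rw [mul_add, mul_one, add_div]
      linarith
    · simp only [ex_sum]
      exact sum_congr rfl fun b _ => g10 b l l1 (fun ν' c y k1 k2 =>
        l2 ν' c y k1 fun x hx => ⟨sub b x (k2 x hx).1, (k2 x hx).2⟩) g

/-- One step of the merging machine. -/
theorem machine (Q : ℕ) (δ : ℝ) (hδ : 0 < δ) : ∃ (m : ℕ) (M : ℝ), 1 ≤ M ∧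
    ∀ (X Y C : Type) [AddCommGroup X] [Module ℝ X] [AddCommGroup Y] [Module ℝ Y]
      (p : Seminorm ℝ Y) (F : X →ₗ[ℝ] Y) (s : X →ₗ[ℝ] ℝ) (P : ℝ) (A : Set X) (st : X → X)
      (π : X → C) (Cl : Finset C) (μ : X →₀ ℝ) (c0 : Y),
      0 < P → Convex ℝ A → Cl.card ≤ Q →
      (∀ x ∈ A, π x ∈ Cl ∧ 0 ≤ s x ∧ s x ≤ P ∧ 0 ≤ s (st x) ∧ s (st x) ≤ P ∧ F (st x) = F x) →
      (∀ x ∈ μ.support, x ∈ A) → Good p F s P M m μ c0 →
      ∃ (μ' : X →₀ ℝ) (γ : X × X →₀ ℝ), Good p F s P M m μ' c0 ∧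
        (∀ x ∈ μ'.support, x ∈ A ∨ ∃ z ∈ A, x = st z) ∧
        (∀ φ : X → ℝ, (∀ x ∈ A, φ x ≤ 1) → (∀ z ∈ A, φ (st z) ≤ 0) →
          ex μ' φ ≤ δ * mass μ) ∧
        (∀ q, 0 ≤ γ q) ∧ (∀ g : X → ℝ, ex γ (fun q => g q.1) = ex μ g) ∧
        ∀ l : X → ℝ, (∀ z ∈ A, l (st z) = l z) →
          (∀ (ν : X →₀ ℝ) (c : C) (z : X), (∀ x, 0 ≤ ν x) →
            (∀ x ∈ ν.support, x ∈ μ.support ∧ π x = c) → mass ν ≠ 0 →
            (ν.sum fun x w => w • x) = mass ν • z → ex ν l = mass ν * l z) →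
          ∀ g : X → ℝ, ex γ (fun q => l q.1 * g q.2) = ex μ' (fun x => l x * g x) := by
  obtain ⟨m, M, q0, hM, hq0, hq, hm, h1, h2⟩ := exists_params Q δ hδ
  refine ⟨m, M, hM, fun X Y C _ _ _ _ p F s P A st π Cl μ c0 hP hA hQ hst hμ hG => ?_⟩
  have hQ' : (Cl.card : ℝ) ≤ Q := by exact_mod_cast hQ
  obtain ⟨μ', γ, z, g1, g2, g3, g4, g5, g6, g7, g8⟩ := mach_all hP hA hM hq0
    (le_trans (by gcongr) hq) hst m hμ hG fun _ => True
  refine ⟨μ', γ, g1, fun x hx => (g3 x hx).imp And.left fun ⟨y, hy, e, _⟩ => ⟨y, hy, e⟩,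
    fun φ k1 k2 => ?_, g8⟩
  have h0 := mass_nonneg hG.nonneg
  have h3 := g4 φ k1 k2
  have h4 : ex μ' (fun x => machInd (fun _ => True) (F x)) = 0 := by simp [machInd, ex]
  have h5 := g7.trans (psi_le Cl hq0 h0 fun c hc =>
    ⟨mass_nonneg (machCls_nonneg hG.nonneg π c), by
      conv_rhs => rw [← machCls_total fun x hx => (hst x (hμ x hx)).1, mach_mass_sum]
      exact single_le_sum (f := fun c => mass (machCls π c μ))
        (fun c _ => mass_nonneg (machCls_nonneg hG.nonneg π c)) hc⟩)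
  have h6 : 0 ≤ Real.log ((1 + q0) / q0) :=
    Real.log_nonneg (by rw [le_div_iff₀ hq0]; linarith)
  rw [div_le_iff₀ (by positivity)] at h5
  have h7 : Cl.card * Real.log ((1 + q0) / q0) * mass μ * (160 * M) ≤ δ / 2 * mass μ * m := by
    calc _ = Cl.card * Real.log ((1 + q0) / q0) * (160 * M) * mass μ := by ring
      _ ≤ Q * Real.log ((1 + q0) / q0) * (160 * M) * mass μ := by gcongr
      _ ≤ δ / 2 * m * mass μ := by gcongr
      _ = _ := by ring
  have h8 : z ≤ δ / 2 * mass μ := le_of_mul_le_mul_right (h5.trans h7) (by exact_mod_cast hm)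
  have h9 := mul_le_mul_of_nonneg_right h1 h0
  linarith

end Vale.Agent.P235
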