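import Vale.Agent.P235.Basic

namespace Vale.Agent.P235

open Finset

variable {V : Type} [MetricSpace V] [Fintype V] [DecidableEq V] {k : ℕ} (E : Elim V k)

omit [Fintype V] [DecidableEq V] in
theorem sched_eq_of_dep {a b u : V} (ha : E.Anc a u) (hb : E.Anc b u) (hd : E.dep a = E.dep b) :
    a = b :=
  (ha.of_dep_le hb hd.le).eq_of_dep hd.ge

/-- generic drop-the-middle schedule -/
theorem sched {τ : Type} (act : V → Prop) (ty : V → V → τ) (T : ℕ)
    (hT : ∀ t, ∃ U : Finset τ, U.card ≤ T ∧ ∀ s, ty t s ∈ U) :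
    ∃ Kp : V → Finset V, IsKeep E (2 * T + 1) Kp ∧ (∀ v, ¬ act v → Kp v = ∅) ∧
      (∀ c, c ≠ E.r → act c → E.par c ∈ Kp c) ∧
      ∀ c, c ≠ E.r → act c → ∀ s ∈ Kp (E.par c), s ∉ Kp c →
        ∃ a ∈ Kp (E.par c), ∃ b ∈ Kp (E.par c), b ∈ Kp c ∧ E.dep a < E.dep s ∧
          E.dep s < E.dep b ∧ ty (E.par c) a = ty (E.par c) b := by
  classical
  obtain ⟨Kp, hP, hR⟩ := E.exists_rec (α := Finset V)
    (fun v A => (v = E.r → A = ∅) ∧ A.card ≤ 2 * T + 1 ∧
      (∀ s ∈ A, E.Anc s v ∧ E.dep s < E.dep v) ∧ (¬ act v → A = ∅))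
    (fun c A A' => (∀ s ∈ A', s = E.par c ∨ s ∈ A) ∧ (act c → E.par c ∈ A') ∧
      (act c → ∀ s ∈ A, s ∉ A' → ∃ a ∈ A, ∃ b ∈ A, b ∈ A' ∧ E.dep a < E.dep s ∧
        E.dep s < E.dep b ∧ ty (E.par c) a = ty (E.par c) b))
    ⟨∅, fun _ => rfl, by simp, by simp, fun _ => rfl⟩
    (by
      rintro c hc A ⟨-, -, hanc, -⟩
      have hdp := E.dep_par c hc
      by_cases hact : act c
      · set t := E.par c with ht
        set B := A.filter (fun s => ¬ ∃ a ∈ A, ∃ b ∈ A, ty t a = ty t s ∧ ty t b = ty t s ∧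
          E.dep a < E.dep s ∧ E.dep s < E.dep b) with hB
        have hBc : B.card ≤ 2 * T := by
          obtain ⟨U, hU, hU'⟩ := hT t
          refine (card_le_mul_card_image_of_maps_to (f := ty t) (t := U) (fun s _ => hU' s) 2
            fun q _ => ?_).trans (Nat.mul_le_mul_left 2 hU)
          by_contra hlt
          obtain ⟨x, y, z, hx, hy, hz, hxy, hxz, hyz⟩ := two_lt_card_iff.1 (not_le.1 hlt)
          have mid : ∀ a ∈ B.filter (fun s => ty t s = q), ∀ s ∈ B.filter (fun s => ty t s = q),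
              ∀ b ∈ B.filter (fun s => ty t s = q),
              ¬ (E.dep a < E.dep s ∧ E.dep s < E.dep b) := by
            rintro a ha s hs b hb ⟨h1, h2⟩
            rw [mem_filter, hB, mem_filter] at ha hs hb
            exact hs.1.2 ⟨a, ha.1.1, b, hb.1.1, ha.2.trans hs.2.symm, hb.2.trans hs.2.symm, h1, h2⟩
          have inj : ∀ a ∈ B.filter (fun s => ty t s = q), ∀ b ∈ B.filter (fun s => ty t s = q),
              a ≠ b → E.dep a ≠ E.dep b := by
            intro a ha b hb hab hd
            rw [mem_filter, hB, mem_filter] at ha hb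
            exact hab (sched_eq_of_dep E (hanc a ha.1.1).1 (hanc b hb.1.1).1 hd)
          have h1 := inj x hx y hy hxy
          have h2 := inj x hx z hz hxz
          have h3 := inj y hy z hz hyz
          have m1 := mid x hx y hy z hz
          have m2 := mid x hx z hz y hy
          have m3 := mid y hy x hx z hz
          have m4 := mid y hy z hz x hx
          have m5 := mid z hz x hx y hy
          have m6 := mid z hz y hy x hx
          omega
        refine ⟨insert t B, ⟨fun h => absurd h hc, (card_insert_le _ _).trans (by omega), ?_,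
          fun h => absurd hact h⟩, ?_, fun _ => mem_insert_self _ _, ?_⟩
        · intro s hs
          rcases mem_insert.1 hs with rfl | hs
          · exact ⟨E.anc_par c, by omega⟩
          · have := hanc s (mem_filter.1 hs).1
            exact ⟨this.1.trans (E.anc_par c), by omega⟩
        · intro s hs
          rcases mem_insert.1 hs with rfl | hs
          · exact Or.inl rfl
          · exact Or.inr (mem_filter.1 hs).1
        · intro _ s hs hs'
          have h1 : s ∉ B := fun h => hs' (mem_insert_of_mem h)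
          rw [hB, mem_filter, not_and, not_not] at h1
          obtain ⟨a, ha, b, hb, hta, htb, h2, h3⟩ := h1 hs
          obtain ⟨b', hb', hmax⟩ := exists_max_image (A.filter (fun x => ty t x = ty t s)) E.dep
            ⟨b, mem_filter.2 ⟨hb, htb⟩⟩
          rw [mem_filter] at hb'
          have h4 := hmax b (mem_filter.2 ⟨hb, htb⟩)
          refine ⟨a, ha, b', hb'.1, mem_insert_of_mem (mem_filter.2 ⟨hb'.1, ?_⟩), h2, by omega,
            hta.trans hb'.2.symm⟩
          rintro ⟨-, -, b'', hb'', -, h5, -, h6⟩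
          have := hmax b'' (mem_filter.2 ⟨hb'', h5.trans hb'.2⟩)
          omega
      · exact ⟨∅, ⟨fun _ => rfl, by simp, by simp, fun _ => rfl⟩, by simp,
          fun h => absurd h hact, fun h => absurd h hact⟩)
  exact ⟨Kp, ⟨(hP _).1 rfl, fun v => (hP v).2.1, fun v => (hP v).2.2.1, fun c hc => (hR c hc).1⟩,
    fun v => (hP v).2.2.2, fun c hc => (hR c hc).2.1, fun c hc => (hR c hc).2.2⟩

omit [Fintype V] [DecidableEq V] in
/-- downward induction along the path above a vertex -/
theorem sched_down {P : ℕ → Prop} {n : ℕ} (h0 : P n) (hs : ∀ m, m < n → P (m + 1) → P m) :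
    P 0 := by
  induction n with
  | zero => exact h0
  | succ n ih => exact ih (hs n (by omega) h0) fun m hm => hs m (by omega)

/-- the schedule of the levels of scale `R` -/
theorem sched_loc (R : ℝ) (hR : 0 < R) :
    ∃ Kp : V → Finset V, IsKeep E (2 * 2 ^ (k + 1) + 1) Kp ∧
      (∀ v, (¬ ∃ x ∈ E.S v, ∃ y ∈ E.S v, R / 2 ≤ dist x y ∧ dist x y ≤ 4 * R) → Kp v = ∅) ∧
      ∀ t, ∀ x ∈ E.S t, ∀ y ∈ E.S t, R ≤ dist x y → dist x y ≤ 2 * R →
        ∃ s ∈ Kp t, R / 8 ≤ E.ds x s ∨ R / 8 ≤ E.ds y s := by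
  classical
  obtain ⟨Kp, hK, hemp, hpar, hdrop⟩ := sched E
    (fun v => ∃ x ∈ E.S v, ∃ y ∈ E.S v, R / 2 ≤ dist x y ∧ dist x y ≤ 4 * R)
    (fun t s => (E.S t).filter (fun y => R / 8 ≤ E.ds y s)) (2 ^ (k + 1))
    (fun t => ⟨(E.S t).powerset, by
      rw [card_powerset]; exact Nat.pow_le_pow_right (by norm_num) (E.card_le t),
      fun s => mem_powerset.2 (filter_subset _ _)⟩)
  refine ⟨Kp, hK, hemp, fun t x hx y hy h1 h2 => ?_⟩
  have hex : ∃ n, R / 4 ≤ E.ds x (E.par^[n] t) ∨ R / 4 ≤ E.ds y (E.par^[n] t) := by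
    refine ⟨E.dep t, ?_⟩
    rw [E.iter_dep]
    obtain ⟨a, ha, ea⟩ := Elim.exists_ds (E := E) x E.r
    obtain ⟨b, hb, eb⟩ := Elim.exists_ds (E := E) y E.r
    rw [E.S_r a ha] at ea
    rw [E.S_r b hb] at eb
    have := dist_triangle_right x y E.r
    by_contra hn
    push_neg at hn
    linarith [hn.1, hn.2]
  have hn := Nat.find_spec hex
  have hmin : ∀ m, m < Nat.find hex →
      ¬ (R / 4 ≤ E.ds x (E.par^[m] t) ∨ R / 4 ≤ E.ds y (E.par^[m] t)) :=
    fun m hm => Nat.find_min hex hm
  have hle : Nat.find hex ≤ E.dep t := by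
    refine Nat.find_min' hex ?_
    have h3 := Elim.Rel.ds_mono (E := E) (z := x) (t := E.par^[Nat.find hex] t) (s := E.r)
      (Elim.Rel.anc (Or.inr hx) (E.anc_iter _ _)) (E.anc_r _)
    have h4 := Elim.Rel.ds_mono (E := E) (z := y) (t := E.par^[Nat.find hex] t) (s := E.r)
      (Elim.Rel.anc (Or.inr hy) (E.anc_iter _ _)) (E.anc_r _)
    rw [E.iter_dep]
    rcases hn with hn | hn
    · exact Or.inl (hn.trans h3)
    · exact Or.inr (hn.trans h4)
  generalize Nat.find hex = n at hn hmin hle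
  have hact : ∀ m, m < n → ∃ x ∈ E.S (E.par^[m] t), ∃ y ∈ E.S (E.par^[m] t),
      R / 2 ≤ dist x y ∧ dist x y ≤ 4 * R := by
    intro m hm
    have h3 := hmin m hm
    push_neg at h3
    obtain ⟨a, ha, ea⟩ := Elim.exists_ds (E := E) x (E.par^[m] t)
    obtain ⟨b, hb, eb⟩ := Elim.exists_ds (E := E) y (E.par^[m] t)
    have h4 := dist_triangle4 x a b y
    have h5 := dist_triangle4 a x y b
    rw [dist_comm b y] at h4
    rw [dist_comm a x] at h5
    exact ⟨a, ha, b, hb, by linarith [h3.1, h3.2], by linarith [h3.1, h3.2]⟩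
  obtain ⟨z, hz, hzi, hzo⟩ : ∃ z ∈ E.S t, R / 4 ≤ E.ds z (E.par^[n] t) ∧ (z = x ∨ z = y) := by
    rcases hn with hn | hn
    · exact ⟨x, hx, hn, Or.inl rfl⟩
    · exact ⟨y, hy, hn, Or.inr rfl⟩
  obtain ⟨n, rfl⟩ : ∃ n', n = n' + 1 := by
    cases n with
    | zero =>
      rw [Function.iterate_zero_apply, Elim.ds_of_mem hz] at hzi
      linarith
    | succ n => exact ⟨n, rfl⟩
  set i := E.par^[n + 1] t with hi
  have key : ∃ s ∈ Kp (E.par^[0] t), E.dep i ≤ E.dep s ∧
      (∀ s' ∈ Kp (E.par^[0] t), E.dep i ≤ E.dep s' → E.dep s ≤ E.dep s') ∧ R / 8 ≤ E.ds z s := by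
    refine sched_down (P := fun m => ∃ s ∈ Kp (E.par^[m] t), E.dep i ≤ E.dep s ∧
      (∀ s' ∈ Kp (E.par^[m] t), E.dep i ≤ E.dep s' → E.dep s ≤ E.dep s') ∧ R / 8 ≤ E.ds z s)
      (n := n) ?_ ?_
    · refine ⟨i, ?_, le_rfl, fun _ _ h => h, by linarith⟩
      rw [hi, Function.iterate_succ_apply']
      exact hpar _ (E.ne_r_of_lt (by omega)) (hact n (by omega))
    · rintro m hm ⟨s, hs, hs1, hs2, hs3⟩
      have hne : E.par^[m] t ≠ E.r := E.ne_r_of_lt (by omega)
      rw [Function.iterate_succ_apply'] at hs hs2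
      by_cases hk : s ∈ Kp (E.par^[m] t)
      · refine ⟨s, hk, hs1, fun s' hs' h => ?_, hs3⟩
        rcases hK.sub _ hne s' hs' with rfl | h'
        · exact (hK.anc _ s hs).2.le
        · exact hs2 s' h' h
      · obtain ⟨a, ha, b, hb, hb', hab1, hab2, hty⟩ := hdrop _ hne (hact m (by omega)) s hs hk
        obtain ⟨s', hs', hmin'⟩ := exists_min_image
          ((Kp (E.par^[m] t)).filter (fun s => E.dep i ≤ E.dep s)) E.dep
          ⟨b, mem_filter.2 ⟨hb', by omega⟩⟩
        rw [mem_filter] at hs'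
        refine ⟨s', hs'.1, hs'.2, fun s'' h1 h2 => hmin' s'' (mem_filter.2 ⟨h1, h2⟩), ?_⟩
        have hpt : E.Anc (E.par (E.par^[m] t)) t := (E.anc_par _).trans (E.anc_iter m t)
        have hrel : E.Rel z (E.par (E.par^[m] t)) := Elim.Rel.anc (Or.inr hz) hpt
        have hbA := (hK.anc _ b hb).1
        have haA := (hK.anc _ a ha).1
        have hs'b : E.Anc s' b := ((hK.anc _ s' hs'.1).1.trans (E.anc_iter m t)).of_dep_le
          (hbA.trans hpt) (hmin' b (mem_filter.2 ⟨hb', by omega⟩))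
        refine le_trans ?_ ((hrel.anc hbA).ds_mono hs'b)
        by_contra hlt
        obtain ⟨w, hw, ew⟩ := hrel.ds_split hbA
        have hwb : w ∉ (E.S (E.par (E.par^[m] t))).filter (fun y => R / 8 ≤ E.ds y b) := by
          rw [mem_filter]
          rintro ⟨-, h⟩
          linarith [dist_nonneg (x := z) (y := w)]
        rw [← hty, mem_filter, not_and, not_le] at hwb
        have hai : E.dep a < E.dep i := by
          by_contra h
          have := hs2 a ha (by omega)
          omega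
        have h3 := (Elim.Rel.anc (Or.inr hz) (E.anc_iter (n + 1) t)).ds_mono
          ((haA.trans hpt).of_dep_le (E.anc_iter (n + 1) t) hai.le)
        have h4 := Elim.ds_le_add (E := E) z w a
        have h5 := Elim.ds_nonneg (E := E) w b
        linarith [hwb hw]
  obtain ⟨s, hs, -, -, h3⟩ := key
  refine ⟨s, hs, ?_⟩
  rcases hzo with rfl | rfl
  · exact Or.inl h3
  · exact Or.inr h3

omit [Fintype V] [DecidableEq V] in
/-- the geometric part of a drop of the highest kept element -/
theorem sched_gain {Λ B : ℝ} (hΛ : 1 ≤ Λ) {u t a i r r' b : V} (htu : E.Anc t u) (hb : E.Anc b t)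
    (hr'b : E.Anc r' b) (hrb : E.Anc r b) (hir : E.Anc i r) (hai : E.Anc a i)
    (hB : (Λ ^ 2 + 1) * B = E.ds u i) (hbig : E.ds u r' < B)
    (hty : ∀ x ∈ E.S t, ∀ y ∈ E.S t, (Λ * E.ds y b ≤ dist x y → Λ * E.ds y a ≤ dist x y) ∧
      (E.ds y b ≤ Λ * dist x y → E.ds y a ≤ Λ * dist x y)) :
    ∃ y ∈ E.S t, 0 < E.ds y i ∧ E.ds y r ≤ E.ds y i ∧ dist u y ≤ E.ds y i ∧
      (∀ x ∈ E.S t, Λ * dist x y ≤ E.ds y r ∨ Λ * E.ds y i ≤ dist x y) ∧
      E.ds u r ≤ E.ds u r' + E.ds y r := by
  obtain ⟨y, hy, ey⟩ := Elim.Rel.ds_split (E := E) (z := u) (Or.inl htu) (hr'b.trans hb)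
  have hry : E.Rel y t := Or.inr hy
  have g1 := (hry.anc hb).ds_mono hr'b
  have g2 := (hry.anc hb).ds_mono hrb
  have g3 := (hry.anc (hrb.trans hb)).ds_mono hir
  have g4 := (hry.anc (hir.trans (hrb.trans hb))).ds_mono hai
  have g5 := Elim.ds_le_add (E := E) u y i
  have g6 := Elim.ds_le_add (E := E) u y r
  have g7 := Elim.ds_nonneg (E := E) y r'
  have g8 := dist_nonneg (x := u) (y := y)
  have hL : 0 < Λ ^ 2 + 1 := by positivity
  have g9 : Λ ^ 2 * dist u y + Λ ^ 2 * E.ds y r' < E.ds y i := by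
    have := mul_lt_mul_of_pos_left hbig hL
    rw [hB, ey] at this
    nlinarith
  have hΛ2 : 1 ≤ Λ ^ 2 := by nlinarith
  have g10 : dist u y ≤ Λ ^ 2 * dist u y := le_mul_of_one_le_left g8 hΛ2
  have g11 : 0 ≤ Λ ^ 2 * E.ds y r' := by positivity
  refine ⟨y, hy, by linarith, g3, by linarith, fun x hx => ?_, by linarith⟩
  by_contra hcon
  push_neg at hcon
  obtain ⟨t1, t2⟩ := hty x hx y hy
  have t3 : dist x y < Λ * E.ds y b := by
    by_contra h
    have h1 := t1 (not_lt.1 h)
    have h2 := mul_le_mul_of_nonneg_left g4 (by linarith : 0 ≤ Λ)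
    linarith [hcon.2]
  have t4 := t2 (by linarith [hcon.1])
  have t5 := mul_lt_mul_of_pos_left t3 (by linarith : 0 < Λ)
  have t6 := mul_le_mul_of_nonneg_left g1 (sq_nonneg Λ)
  have t7 : Λ * (Λ * E.ds y b) = Λ ^ 2 * E.ds y b := by ring
  linarith

/-- the schedule of the plain levels and the telescoping of the variance gains -/
theorem sched_plain (Λ : ℝ) (hΛ : 1 ≤ Λ) :
    ∃ Kp : V → Finset V, IsKeep E (2 * 4 ^ ((k + 1) ^ 2) + 1) Kp ∧
      ∀ (u : V) (Var : ℕ → ℝ) (c : ℝ), 0 ≤ c → Var 0 = 0 →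
        (∀ n < E.dep u, Var n ≤ Var (n + 1)) →
        (∀ j ≤ E.dep u, E.par^[j] u ∈ Kp u → c * E.ds u (E.par^[j] u) ≤ Var j) →
        (∀ (n j : ℕ) (y : V) (α : ℝ), n + j ≤ E.dep u →
          E.par^[n + j] u ∈ Kp (E.par^[n] u) → y ∈ E.S (E.par^[n] u) → 0 < α →
          E.ds y (E.par^[n + j] u) ≤ α → dist u y ≤ α →
          (∀ x ∈ E.S (E.par^[n] u),
            Λ * dist x y ≤ E.ds y (E.par^[n + j] u) ∨ Λ * α ≤ dist x y) →
          c * E.ds y (E.par^[n + j] u) ≤ Var (n + j) - Var n) →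
        ∀ n ≤ E.dep u, c * E.ds u (E.par^[n] u)
          ≤ (2 * 4 ^ ((k + 1) ^ 2) + 1) * (Λ ^ 2 + 1) * Var n := by
  classical
  obtain ⟨Kp, hK, -, hpar, hdrop⟩ := sched E (fun _ => True)
    (fun t s => ((E.S t ×ˢ E.S t).filter (fun q => Λ * E.ds q.2 s ≤ dist q.1 q.2),
      (E.S t ×ˢ E.S t).filter (fun q => E.ds q.2 s ≤ Λ * dist q.1 q.2))) (4 ^ ((k + 1) ^ 2))
    (fun t => ⟨(E.S t ×ˢ E.S t).powerset ×ˢ (E.S t ×ˢ E.S t).powerset, by
      rw [card_product, card_powerset, card_product, ← mul_pow]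
      refine Nat.pow_le_pow_right (by norm_num) ?_
      rw [sq]
      exact Nat.mul_le_mul (E.card_le t) (E.card_le t),
      fun s => mem_product.2 ⟨mem_powerset.2 (filter_subset _ _),
        mem_powerset.2 (filter_subset _ _)⟩⟩)
  refine ⟨Kp, hK, fun u Var c hc h0 hmono hdir hgain n hn => ?_⟩
  set N : ℝ := 2 * 4 ^ ((k + 1) ^ 2) + 1 with hN
  have hNc : ∀ v, ((Kp v).card : ℝ) ≤ N := fun v => by
    have := hK.card v
    rw [hN]; exact_mod_cast this
  have hN1 : 1 ≤ N := by
    have : (0 : ℝ) ≤ 2 * 4 ^ ((k + 1) ^ 2) := by positivity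
    linarith
  have hVm : ∀ a b, a ≤ b → b ≤ E.dep u → Var a ≤ Var b := by
    intro a b hab hb
    induction b, hab using Nat.le_induction with
    | base => exact le_rfl
    | succ b hab ih => exact (ih (by omega)).trans (hmono b (by omega))
  cases n with
  | zero =>
    rw [Function.iterate_zero_apply, Elim.ds_of_mem (E.self_mem u), h0]; simp
  | succ n =>
  set i := E.par^[n + 1] u with hi
  have hdi : E.dep i = E.dep u - (n + 1) := E.dep_iter _ _
  have hL : 0 < Λ ^ 2 + 1 := by positivity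
  set B := E.ds u i / (Λ ^ 2 + 1) with hB
  have hBD : (Λ ^ 2 + 1) * B = E.ds u i := by rw [hB]; field_simp
  have hB0 : 0 ≤ B := div_nonneg (Elim.ds_nonneg _ _) hL.le
  have key : ∃ r ∈ Kp (E.par^[0] u), E.dep i ≤ E.dep r ∧
      (∀ s' ∈ Kp (E.par^[0] u), E.dep i ≤ E.dep s' → E.dep r ≤ E.dep s') ∧
      c * max 0 (B - E.ds u r) + ∑ s ∈ (Kp (E.par^[0] u)).filter (fun s => E.dep i ≤ E.dep s),
        (Var (E.dep u - E.dep s) - Var 0) ≤ N * (Var (n + 1) - Var 0) := by
    refine sched_down (P := fun m => ∃ r ∈ Kp (E.par^[m] u), E.dep i ≤ E.dep r ∧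
      (∀ s' ∈ Kp (E.par^[m] u), E.dep i ≤ E.dep s' → E.dep r ≤ E.dep s') ∧
      c * max 0 (B - E.ds u r) + ∑ s ∈ (Kp (E.par^[m] u)).filter (fun s => E.dep i ≤ E.dep s),
        (Var (E.dep u - E.dep s) - Var m) ≤ N * (Var (n + 1) - Var m)) (n := n) ?_ ?_
    · have hmem : i ∈ Kp (E.par^[n] u) := by
        rw [hi, Function.iterate_succ_apply']
        exact hpar _ (E.ne_r_of_lt (by omega)) trivial
      refine ⟨i, hmem, le_rfl, fun _ _ h => h, ?_⟩
      have h1 : max 0 (B - E.ds u i) = 0 := max_eq_left (by nlinarith [sq_nonneg Λ])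
      rw [h1, mul_zero, zero_add]
      have h2 := hVm n (n + 1) (by omega) hn
      refine (sum_le_card_nsmul _ _ (Var (n + 1) - Var n) fun s hs => ?_).trans ?_
      · rw [mem_filter] at hs
        have := hVm (E.dep u - E.dep s) (n + 1) (by omega) hn
        linarith
      · rw [nsmul_eq_mul]
        refine mul_le_mul_of_nonneg_right (le_trans ?_ (hNc (E.par^[n] u))) (by linarith)
        exact_mod_cast card_filter_le _ _
    · rintro m hm ⟨r, hr, hr1, hr2, hr3⟩
      have hne : E.par^[m] u ≠ E.r := E.ne_r_of_lt (by omega)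
      have hsucc : E.par^[m + 1] u = E.par (E.par^[m] u) := Function.iterate_succ_apply' _ _ _
      have hdt : E.dep (E.par^[m + 1] u) = E.dep u - (m + 1) := E.dep_iter _ _
      have hδ := hVm m (m + 1) (by omega) (by omega)
      set K' := (Kp (E.par^[m + 1] u)).filter (fun s => E.dep i ≤ E.dep s) with hK'
      set K := (Kp (E.par^[m] u)).filter (fun s => E.dep i ≤ E.dep s) with hKK
      have hnn : ∀ s ∈ K', 0 ≤ Var (E.dep u - E.dep s) - Var (m + 1) := by
        intro s hs
        have h1 := (hK.anc _ s (mem_filter.1 hs).1).2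
        have := hVm (m + 1) (E.dep u - E.dep s) (by omega) (by omega)
        linarith
      have hsum : ∀ Q : Finset V, Q ⊆ K' → (∀ s ∈ K', s ∈ Kp (E.par^[m] u) → s ∈ Q) →
          ∑ s ∈ K, (Var (E.dep u - E.dep s) - Var m)
            ≤ ∑ s ∈ Q, (Var (E.dep u - E.dep s) - Var (m + 1)) + N * (Var (m + 1) - Var m) := by
        intro Q hQ hQ'
        have e1 : ∑ s ∈ K, (Var (E.dep u - E.dep s) - Var m)
            = ∑ s ∈ K, (Var (E.dep u - E.dep s) - Var (m + 1))
              + K.card * (Var (m + 1) - Var m) := by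
          rw [← nsmul_eq_mul, ← sum_const, ← sum_add_distrib]
          exact sum_congr rfl fun _ _ => by ring
        rw [e1]
        refine add_le_add ?_ (mul_le_mul_of_nonneg_right (le_trans ?_ (hNc (E.par^[m] u)))
          (by linarith))
        · have h1 : K ⊆ insert (E.par^[m + 1] u) Q := by
            intro s hs
            rw [hKK, mem_filter] at hs
            rcases hK.sub _ hne s hs.1 with h | h
            · rw [h, ← hsucc]; exact mem_insert_self _ _
            · rw [← hsucc] at h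
              exact mem_insert_of_mem (hQ' s (mem_filter.2 ⟨h, hs.2⟩) hs.1)
          have h2 : Var (E.dep u - E.dep (E.par^[m + 1] u)) - Var (m + 1) = 0 := by
            rw [hdt, show E.dep u - (E.dep u - (m + 1)) = m + 1 by omega, sub_self]
          refine (sum_le_sum_of_subset_of_nonneg h1 fun s hs _ => ?_).trans ?_
          · rcases mem_insert.1 hs with rfl | hs
            · exact h2.ge
            · exact hnn s (hQ hs)
          · exact (sum_insert_of_eq_zero_if_notMem
              (f := fun s => Var (E.dep u - E.dep s) - Var (m + 1)) fun _ => h2).le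
        · exact_mod_cast card_filter_le _ _
      by_cases hk : r ∈ Kp (E.par^[m] u)
      · refine ⟨r, hk, hr1, fun s' hs' h => ?_, ?_⟩
        · rcases hK.sub _ hne s' hs' with h' | h'
          · rw [h', ← hsucc]; exact (hK.anc _ r hr).2.le
          · rw [← hsucc] at h'; exact hr2 s' h' h
        · have := hsum K' Subset.rfl fun s hs _ => hs
          linarith
      · obtain ⟨a, ha, b, hb, hb', hab1, hab2, hty⟩ := hdrop _ hne trivial r (hsucc ▸ hr) hk
        rw [← hsucc] at ha hb hty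
        obtain ⟨r', hr', hmin'⟩ := exists_min_image K E.dep ⟨b, mem_filter.2 ⟨hb', by omega⟩⟩
        have hr'b := hmin' b (mem_filter.2 ⟨hb', by omega⟩)
        rw [hKK, mem_filter] at hr'
        refine ⟨r', hr'.1, hr'.2, fun s'' h1 h2 => hmin' s'' (mem_filter.2 ⟨h1, h2⟩), ?_⟩
        have hrK : r ∈ K' := mem_filter.2 ⟨hr, hr1⟩
        have h1 := hsum (K'.erase r) (erase_subset _ _) fun s hs hs' =>
          mem_erase.2 ⟨fun h => hk (h ▸ hs'), hs⟩
        have h2 := sum_erase_add K' (fun s => Var (E.dep u - E.dep s) - Var (m + 1)) hrK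
        have h3 : c * max 0 (B - E.ds u r')
            ≤ c * max 0 (B - E.ds u r) + (Var (E.dep u - E.dep r) - Var (m + 1)) := by
          have h4 := mul_nonneg hc (le_max_left 0 (B - E.ds u r))
          by_cases hbig : B ≤ E.ds u r'
          · rw [max_eq_left (by linarith), mul_zero]
            linarith [hnn r hrK]
          push_neg at hbig
          have hτu := E.anc_iter (m + 1) u
          have hbA := (hK.anc _ b hb).1
          have haA := (hK.anc _ a ha).1
          have hrA := hK.anc _ r hr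
          have hr'u : E.Anc r' u := (hK.anc _ r' hr'.1).1.trans (E.anc_iter m u)
          have hr'b' : E.Anc r' b := hr'u.of_dep_le (hbA.trans hτu) hr'b
          have hrb : E.Anc r b := hrA.1.of_dep_le hbA hab2.le
          have hir : E.Anc i r := (E.anc_iter (n + 1) u).of_dep_le (hrA.1.trans hτu) hr1
          have hai : E.dep a < E.dep i := by
            by_contra h
            have := hr2 a ha (by omega)
            omega
          have hai' : E.Anc a i := (haA.trans hτu).of_dep_le (E.anc_iter (n + 1) u) hai.le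
          obtain ⟨y, hy, g1, g2, g3, g4, g5⟩ := sched_gain E hΛ hτu hbA hr'b' hrb hir hai' hBD hbig
            (fun x hx y hy => by
              have hxy : (x, y) ∈ E.S (E.par^[m + 1] u) ×ˢ E.S (E.par^[m + 1] u) :=
                mem_product.2 ⟨hx, hy⟩
              have t1 := congrArg (fun p => (x, y) ∈ p.1) hty
              have t2 := congrArg (fun p => (x, y) ∈ p.2) hty
              simp only [mem_filter, hxy, true_and, eq_iff_iff] at t1 t2
              exact ⟨t1.2, t2.2⟩)
          have hri : E.par^[m + 1 + (E.dep u - E.dep r - (m + 1))] u = r := by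
            rw [show m + 1 + (E.dep u - E.dep r - (m + 1)) = E.dep u - E.dep r by omega]
            exact (hrA.1.trans hτu).eq_iter
          have h5 := hgain (m + 1) (E.dep u - E.dep r - (m + 1)) y (E.ds y i) (by omega)
            (by rw [hri]; exact hr) hy g1 (by rw [hri]; exact g2) g3 (by rw [hri]; exact g4)
          rw [hri, show m + 1 + (E.dep u - E.dep r - (m + 1)) = E.dep u - E.dep r by omega] at h5
          have h6 : max 0 (B - E.ds u r') ≤ max 0 (B - E.ds u r) + E.ds y r := by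
            rw [max_eq_right (by linarith)]
            linarith [le_max_right 0 (B - E.ds u r)]
          have h7 := mul_le_mul_of_nonneg_left h6 hc
          rw [mul_add] at h7
          linarith
        linarith
  obtain ⟨r, hr, hr1, -, hr3⟩ := key
  rw [Function.iterate_zero_apply] at hr hr3
  have hrA := hK.anc _ r hr
  have h1 := hdir (E.dep u - E.dep r) (by omega) (by rw [hrA.1.eq_iter]; exact hr)
  rw [hrA.1.eq_iter] at h1
  have h2 := single_le_sum (f := fun s => Var (E.dep u - E.dep s) - Var 0)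
    (s := (Kp u).filter (fun s => E.dep i ≤ E.dep s))
    (fun s _ => sub_nonneg.2 (hVm 0 _ (by omega) (by omega))) (mem_filter.2 ⟨hr, hr1⟩)
  have h3 := mul_le_mul_of_nonneg_left (le_max_right 0 (B - E.ds u r)) hc
  rw [h0] at h2 hr3
  have h4 : c * B ≤ N * Var (n + 1) := by linarith
  rw [← hBD]
  have h5 := mul_le_mul_of_nonneg_left h4 hL.le
  linarith

end Vale.Agent.P235
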