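import Vale.Agent.P235.Level
import Vale.Agent.P235.KPR
import Vale.Agent.P235.Sched
import Vale.Agent.P235.Cut

namespace Vale.Agent.P235

open Finset

theorem main_avg {B : Type} [Fintype B] [Nonempty B] (X : B → ℝ) (hX : ∀ b, 0 ≤ X b)
    (A : Finset B) (g : ℕ) (hA : Fintype.card B ≤ g * A.card) {a : ℝ} (ha : 0 ≤ a)
    (h : ∀ b ∈ A, a ≤ X b) : a ≤ g * ((∑ b, X b) / Fintype.card B) := by
  have hc : (0 : ℝ) < Fintype.card B := Nat.cast_pos.2 Fintype.card_pos
  have h1 : (A.card : ℝ) * a ≤ ∑ b, X b := by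
    calc (A.card : ℝ) * a = ∑ b ∈ A, a := by simp
      _ ≤ ∑ b ∈ A, X b := sum_le_sum h
      _ ≤ ∑ b, X b := sum_le_sum_of_subset_of_nonneg (subset_univ _) fun b _ _ => hX b
  have h2 : (Fintype.card B : ℝ) ≤ g * A.card := by exact_mod_cast hA
  rw [← mul_div_assoc, le_div_iff₀ hc]
  have hg : (0 : ℝ) ≤ g := Nat.cast_nonneg _
  nlinarith [mul_le_mul_of_nonneg_left h1 hg, mul_le_mul_of_nonneg_left h2 ha]

theorem main_avg_le {B : Type} [Fintype B] [Nonempty B] (X : B → ℝ) {a : ℝ}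
    (h : ∀ b, X b ≤ a) : (∑ b, X b) / Fintype.card B ≤ a := by
  have hc : (0 : ℝ) < Fintype.card B := Nat.cast_pos.2 Fintype.card_pos
  rw [div_le_iff₀ hc]
  calc ∑ b, X b ≤ ∑ _b : B, a := sum_le_sum fun b _ => h b
    _ = _ := by simp [mul_comm]

theorem main_avg_mono {B : Type} [Fintype B] {X Y : B → ℝ} (h : ∀ b, X b ≤ Y b) :
    (∑ b, X b) / Fintype.card B ≤ (∑ b, Y b) / Fintype.card B :=
  div_le_div_of_nonneg_right (sum_le_sum fun b _ => h b) (Nat.cast_nonneg _)

theorem main_mono {f : ℕ → ℝ} {N : ℕ} (h : ∀ n, n < N → f n ≤ f (n + 1)) {a b : ℕ}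
    (hab : a ≤ b) (hb : b ≤ N) : f a ≤ f b := by
  induction b, hab using Nat.le_induction with
  | base => exact le_rfl
  | succ b _ ih => exact (ih (by omega)).trans (h b (by omega))

theorem main_event {L B : Type} [Fintype L] [DecidableEq L] [Fintype B] [DecidableEq B]
    (D : Finset L) (Ev : L → Finset B) (g n : ℕ) (hg : 1 ≤ g) (hD : D.card ≤ n)
    (hEv : ∀ l ∈ D, Fintype.card B ≤ g * (Ev l).card) :
    ∃ A : Finset (L → B), Fintype.card (L → B) ≤ g ^ n * A.card ∧
      ∀ β ∈ A, ∀ l ∈ D, β l ∈ Ev l :=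
  ⟨_, card_le_pow_mul D Ev g n hg hD hEv, fun _ h => (mem_filter.1 h).2⟩

variable {V : Type} [MetricSpace V] {k : ℕ} {E : Elim V k}

theorem main_final {ρ : V → V → ℝ} (hcut : IsCut ρ) {K c1 c2 : ℝ} (hK : 0 ≤ K) (hc1 : 0 < c1)
    (hc2 : 0 < c2) (hup : ∀ x y, ρ x y ≤ K * dist x y)
    (hbag : ∀ t, ∀ x ∈ E.S t, ∀ y ∈ E.S t, c2 * dist x y ≤ ρ x y) {u w t : V}
    (h1 : c1 * E.ds u t ≤ ρ u w) (h2 : c1 * E.ds w t ≤ ρ u w) :
    c2 / (1 + 2 * (K + c2) / c1) * dist u w ≤ ρ u w := by
  obtain ⟨y, hy, e1⟩ := Elim.exists_ds (E := E) u t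
  obtain ⟨y', hy', e2⟩ := Elim.exists_ds (E := E) w t
  rw [e1] at h1
  rw [e2] at h2
  have h3 := hbag _ y hy y' hy'
  have h4 := hcut.tri y u y'
  have h5 := hcut.tri u w y'
  have h6 := hup y u
  have h7 := hup w y'
  have h8 := dist_triangle4 u y y' w
  rw [dist_comm y u] at h6
  rw [dist_comm y' w] at h8
  have h9 : dist u y ≤ ρ u w / c1 := by rw [le_div_iff₀ hc1]; linarith
  have h10 : dist w y' ≤ ρ u w / c1 := by rw [le_div_iff₀ hc1]; linarith
  have h0 : 0 ≤ ρ u w / c1 := dist_nonneg.trans h9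
  rw [div_mul_eq_mul_div, div_le_iff₀ (by positivity)]
  have h11 : ρ u w * (1 + 2 * (K + c2) / c1) = ρ u w + 2 * (K + c2) * (ρ u w / c1) := by
    field_simp
  rw [h11]
  nlinarith [mul_le_mul_of_nonneg_left h8 hc2.le,
    mul_le_mul_of_nonneg_left (add_le_add h9 h10) (by positivity : 0 ≤ K + c2)]

theorem IsKeep.range {N : ℕ} {Kp : V → Finset V} (h : IsKeep E N Kp) {u : V} {n j : ℕ}
    (hj : n + j ≤ E.dep u) (hs : E.par^[n + j] u ∈ Kp (E.par^[n] u)) :
    0 < j ∧ (∀ i < j, E.par^[n + j] u ∈ Kp (E.par^[n + i] u)) ∧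
      E.par^[n + j] u ∉ Kp (E.par^[n + j] u) := by
  refine ⟨?_, fun i hi => ?_, fun h' => lt_irrefl _ (h.anc _ _ h').2⟩
  · have := (h.anc _ _ hs).2
    rw [E.dep_iter, E.dep_iter] at this
    omega
  · induction i with
    | zero => exact hs
    | succ i ih =>
      have h1 := h.sub _ (E.ne_r_of_lt (u := u) (n := n + i) (by omega)) _ (ih (by omega))
      rw [← Function.iterate_succ_apply' E.par] at h1
      rcases h1 with h1 | h1
      · have := congrArg E.dep h1
        rw [E.dep_iter, E.dep_iter] at this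
        omega
      · exact h1

theorem main_lca (u w : V) : ∃ n n', n ≤ E.dep u ∧ n' ≤ E.dep w ∧ E.par^[n] u = E.par^[n'] w ∧
    ∀ a a', a ≤ E.dep u → a' ≤ E.dep w → E.par^[a] u = E.par^[a'] w → n ≤ a ∧ n' ≤ a' := by
  classical
  have hex : ∃ n, n ≤ E.dep u ∧ ∃ n', n' ≤ E.dep w ∧ E.par^[n] u = E.par^[n'] w :=
    ⟨E.dep u, le_rfl, E.dep w, le_rfl, by rw [E.iter_dep, E.iter_dep]⟩
  obtain ⟨h1, n', h2, h3⟩ := Nat.find_spec hex
  refine ⟨_, n', h1, h2, h3, fun a a' ha ha' e => ?_⟩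
  have h4 := Nat.find_min' hex ⟨ha, a', ha', e⟩
  have h5 := congrArg E.dep h3
  have h6 := congrArg E.dep e
  rw [E.dep_iter, E.dep_iter] at h5 h6
  omega

omit [MetricSpace V] in
theorem main_idx (S : Finset V) (hS : S.card ≤ k + 1) :
    ∃ idx : V → Fin (k + 1), ∀ x ∈ S, ∀ y ∈ S, idx x = idx y → x = y := by
  classical
  refine ⟨fun x => if h : x ∈ S then Fin.castLE hS (S.equivFin ⟨x, h⟩) else 0,
    fun x hx y hy e => ?_⟩
  simp only [dif_pos hx, dif_pos hy] at e
  have := S.equivFin.injective (Fin.castLE_injective hS e)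
  exact congrArg Subtype.val this

theorem main_elim (k : ℕ) : ∃ c K : ℝ, 0 < c ∧
    ∀ (V : Type) [MetricSpace V] [Fintype V] (_ : Elim V k), ∃ ρ : V → V → ℝ, IsCut ρ ∧
      (∀ x y, c * dist x y ≤ ρ x y) ∧ ∀ x y, ρ x y ≤ K * dist x y := by
  set N1 : ℕ := 2 * 4 ^ ((k + 1) ^ 2) + 1 with hN1
  set N2 : ℕ := 2 * 2 ^ (k + 1) + 1 with hN2
  obtain ⟨K, C, hK, hC, hlev⟩ := level k (N1 + 4 * (k + 1) ^ 2 * (k + 1) * N2)
  set g : ℕ := (2 ^ (k + 4)) ^ (k + 1) with hg
  have hg1 : (1 : ℝ) ≤ g := by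
    have : 1 ≤ g := Nat.one_le_iff_ne_zero.2 (by positivity)
    exact_mod_cast this
  have hk0 : (0 : ℝ) ≤ k := Nat.cast_nonneg k
  set Λ : ℝ := 44 * (k + 1) * C with hΛ
  have hΛC : C ≤ Λ := by rw [hΛ]; nlinarith
  set c1 : ℝ := 1 / (C * g) / ((2 * 4 ^ ((k + 1) ^ 2) + 1) * (Λ ^ 2 + 1)) with hc1
  set c2 : ℝ := 1 / (176 * (k + 1) * g) with hc2
  have hc1p : 0 < c1 := by positivity
  have hc2p : 0 < c2 := by positivity
  refine ⟨c2 / (1 + 2 * (K + c2) / c1), K, by positivity, ?_⟩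
  intro V _ _ E
  classical
  obtain ⟨K0, hK0, hplain⟩ := sched_plain E Λ (hC.trans hΛC)
  choose Kl hKl hoff hloc using fun j : ℤ => sched_loc E ((2 : ℝ) ^ j) (by positivity)
  choose Z hZ using fun j : ℤ => kpr E ((2 : ℝ) ^ j / (11 * (k + 1))) (by positivity)
  let Sc : Finset ℤ := univ.image fun q : V × V => Int.log 2 (dist q.1 q.2)
  let Lv : Type := Option (Sc × Fin (k + 1)) × V
  let B : Type := (Fin (k + 2) → Bool) × (Finset V → Bool)
  let Kc : Option (Sc × Fin (k + 1)) → V → Finset V := fun o => o.elim K0 fun q => Kl q.1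
  let Act : V → Finset Lv := fun v => univ.filter fun l => l.2 ∈ Kc l.1 v
  let ψ : (Lv → B) → Lv → V → ℝ := fun β l y => l.1.elim (E.ds y l.2)
    fun q => min (E.ds y l.2) (Metric.infDist y (Z q.1 (β l) : Set V))
  have hmem : ∀ v (l : Lv), l ∈ Act v ↔ l.2 ∈ Kc l.1 v := fun v l => by simp [Act]
  have hKc : ∀ o, ∃ N, IsKeep E N (Kc o) := by
    rintro (_ | q)
    · exact ⟨_, hK0⟩
    · exact ⟨_, hKl q.1⟩
  have hcard : ∀ v, (Act v).card ≤ N1 + 4 * (k + 1) ^ 2 * (k + 1) * N2 := by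
    intro v
    let Sa := Sc.filter fun j : ℤ =>
      ∃ x ∈ E.S v, ∃ y ∈ E.S v, (2 : ℝ) ^ j / 2 ≤ dist x y ∧ dist x y ≤ 4 * (2 : ℝ) ^ j
    have hSa : Sa.card ≤ 4 * (k + 1) ^ 2 :=
      (card_scales (E.S v) Sc).trans (by have := E.card_le v; gcongr)
    let T : Finset (Sc × Fin (k + 1)) := (univ.filter fun j : Sc => j.1 ∈ Sa) ×ˢ univ
    have hT : T.card ≤ 4 * (k + 1) ^ 2 * (k + 1) := by
      rw [card_product, card_univ, Fintype.card_fin]
      refine Nat.mul_le_mul_right _ (le_trans ?_ hSa)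
      exact card_le_card_of_injOn Subtype.val (fun j hj => by simpa using hj)
        (Subtype.val_injective.injOn)
    have hsub : Act v ⊆ (K0 v).image (fun s => ((none, s) : Lv)) ∪
        T.biUnion fun q => (Kl q.1 v).image fun s => ((some q, s) : Lv) := by
      rintro ⟨_ | q, s⟩ hl
      · exact mem_union_left _ (mem_image_of_mem _ ((hmem v _).1 hl))
      · have h1 : s ∈ Kl q.1 v := (hmem v _).1 hl
        refine mem_union_right _ (mem_biUnion.2 ⟨q, ?_, mem_image_of_mem _ h1⟩)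
        refine mem_product.2 ⟨mem_filter.2 ⟨mem_univ _, mem_filter.2 ⟨q.1.2, ?_⟩⟩, mem_univ _⟩
        by_contra h2
        rw [hoff _ v h2] at h1
        exact notMem_empty _ h1
    refine (card_le_card hsub).trans ((card_union_le _ _).trans (Nat.add_le_add
      (card_image_le.trans (hK0.card v)) (card_biUnion_le.trans ?_)))
    refine (sum_le_card_nsmul _ _ N2 fun q _ => card_image_le.trans ((hKl _).card v)).trans ?_
    exact Nat.mul_le_mul_right _ hT
  have hroot : Act E.r = ∅ := by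
    refine eq_empty_of_forall_notMem fun l hl => ?_
    obtain ⟨N, hN⟩ := hKc l.1
    have := (hmem _ _).1 hl
    rw [hN.root] at this
    exact notMem_empty _ this
  have hlip : ∀ β l x y, |ψ β l x - ψ β l y| ≤ dist x y := by
    rintro β ⟨_ | q, s⟩ x y
    · exact Elim.ds_lip x y s
    · refine (abs_min_sub_min_le_max _ _ _ _).trans (max_le (Elim.ds_lip x y s) ?_)
      have := (Metric.lipschitz_infDist_pt (Z q.1 (β (some q, s)) : Set V)).dist_le_mul x y
      simpa [Real.dist_eq] using this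
  have hvan : ∀ β c, c ≠ E.r → ∀ p ∈ Act c, p ∉ Act (E.par c) → ∀ y ∈ E.S (E.par c),
      ψ β p y = 0 := by
    intro β c hc p hp hp' y hy
    obtain ⟨N, hN⟩ := hKc p.1
    have h1 : p.2 = E.par c :=
      (hN.sub c hc _ ((hmem _ _).1 hp)).resolve_right fun h => hp' ((hmem _ _).2 h)
    have h2 : E.ds y p.2 = 0 := by rw [h1]; exact Elim.ds_of_mem hy
    obtain ⟨_ | q, s⟩ := p
    · exact h2
    · change min _ _ = 0
      rw [h2]; exact min_eq_left Metric.infDist_nonneg
  choose ρ Var hcut hup hlca hV0 hVm hsame hdir hgain using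
    fun β => hlev V E Lv Act (ψ β) hcard hroot (hlip β) (hvan β)
  -- localized separation
  have hsep : ∀ t, ∀ x ∈ E.S t, ∀ y ∈ E.S t, x ≠ y → ∀ n : Fin (k + 1),
      ∃ (j : Sc) (s : V) (Ev : Finset B), ((some (j, n), s) : Lv) ∈ Act t ∧
        Fintype.card B ≤ 2 ^ (k + 4) * Ev.card ∧ ∀ β : Lv → B, β (some (j, n), s) ∈ Ev →
          dist x y / (22 * (k + 1)) ≤ |ψ β (some (j, n), s) y - ψ β (some (j, n), s) x| := by
    intro t x hx y hy hxy n
    have hd : 0 < dist x y := dist_pos.2 hxy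
    set j := Int.log 2 (dist x y) with hj
    have h1 : (2 : ℝ) ^ j ≤ dist x y := by
      exact_mod_cast Int.zpow_log_le_self (b := 2) one_lt_two hd
    have h2 : dist x y < 2 * (2 : ℝ) ^ j := by
      have := Int.lt_zpow_succ_log_self (b := 2) one_lt_two (dist x y)
      rw [zpow_add_one₀ (by norm_num)] at this
      push_cast at this
      linarith
    have hR : (0 : ℝ) < 2 ^ j := by positivity
    obtain ⟨s, hs, hfar⟩ := hloc j t x hx y hy h1 h2.le
    have hjS : j ∈ Sc := mem_image.2 ⟨(x, y), mem_univ _, rfl⟩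
    have h10 : 10 * ((k : ℝ) + 1) * (2 ^ j / (11 * (k + 1))) < dist x y := by
      have : 10 * ((k : ℝ) + 1) * (2 ^ j / (11 * (k + 1))) = 10 / 11 * 2 ^ j := by
        field_simp
      rw [this]; linarith
    have h11 : dist x y / (22 * ((k : ℝ) + 1)) ≤ 2 ^ j / (11 * (k + 1)) := by
      rw [div_le_div_iff₀ (by positivity) (by positivity)]; nlinarith
    have h12 : (2 : ℝ) ^ j / (11 * (k + 1)) ≤ 2 ^ j / 8 :=
      div_le_div_of_nonneg_left hR.le (by norm_num) (by linarith)
    have main : ∀ z z' : V, dist z z' = dist x y → 2 ^ j / 8 ≤ E.ds z s →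
        ∃ Ev : Finset B, Fintype.card B ≤ 2 ^ (k + 4) * Ev.card ∧
          ∀ β : Lv → B, β (some (⟨j, hjS⟩, n), s) ∈ Ev → dist x y / (22 * (k + 1)) ≤
            ψ β (some (⟨j, hjS⟩, n), s) z - ψ β (some (⟨j, hjS⟩, n), s) z' := by
      intro z z' e hz
      obtain ⟨Ev, hEv, hin⟩ := hZ j z z' (by rw [e]; exact h10)
      refine ⟨Ev, hEv, fun β hβ => ?_⟩
      obtain ⟨h3, h4⟩ := hin _ hβ
      have h5 : ψ β (some (⟨j, hjS⟩, n), s) z' ≤ 0 :=
        (min_le_right _ _).trans (le_of_eq (Metric.infDist_zero_of_mem (mem_coe.2 h3)))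
      have h6 : 2 ^ j / (11 * ((k : ℝ) + 1)) ≤ ψ β (some (⟨j, hjS⟩, n), s) z :=
        le_min (h12.trans hz) ((Metric.le_infDist ⟨z', mem_coe.2 h3⟩).2
          fun w hw => h4 w (mem_coe.1 hw))
      linarith
    rcases hfar with hfar | hfar
    · obtain ⟨Ev, h3, h4⟩ := main x y rfl hfar
      exact ⟨⟨j, hjS⟩, s, Ev, (hmem _ _).2 hs, h3, fun β hβ => by
        rw [abs_sub_comm]; exact (h4 β hβ).trans (le_abs_self _)⟩
    · obtain ⟨Ev, h3, h4⟩ := main y x (dist_comm _ _) hfar
      exact ⟨⟨j, hjS⟩, s, Ev, (hmem _ _).2 hs, h3, fun β hβ => (h4 β hβ).trans (le_abs_self _)⟩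
  let ρa : V → V → ℝ := fun x y => (∑ β, ρ β x y) / Fintype.card (Lv → B)
  let Va : V → ℕ → ℝ := fun u n => (∑ β, Var β u n) / Fintype.card (Lv → B)
  have hcuta : IsCut ρa := IsCut.avg ρ hcut
  have hupa : ∀ x y, ρa x y ≤ K * dist x y := fun x y => main_avg_le _ fun β => hup β x y
  have hone : 1 ≤ 2 ^ (k + 4) := Nat.one_le_two_pow
  have hbag : ∀ t, ∀ x ∈ E.S t, ∀ y ∈ E.S t, c2 * dist x y ≤ ρa x y := by
    intro t x hx y hy
    by_cases hxy : x = y
    · rw [hxy, dist_self, mul_zero]; exact hcuta.nonneg _ _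
    obtain ⟨j, s, Ev, h1, h2, h3⟩ := hsep t x hx y hy hxy 0
    obtain ⟨A, h4, hA⟩ := main_event (L := Lv) {(some (j, 0), s)} (fun _ => Ev) _ (k + 1) hone
      (by simp) (fun _ _ => h2)
    have h5 := main_avg (fun β => ρ β x y) (fun β => (hcut β).nonneg x y) _ g h4
      (a := dist x y / (22 * (k + 1)) / 8) (by positivity) (fun β hβ => by
        have h6 := h3 β (hA β hβ _ (mem_singleton_self _))
        have h7 := hsame β t _ h1 y hy x hx
        rw [(hcut β).symm y x] at h7
        linarith)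
    have h6 : c2 * dist x y = dist x y / (22 * (k + 1)) / 8 / g := by
      rw [hc2]; field_simp; ring
    rw [h6, div_le_iff₀ (by linarith), mul_comm (ρa x y)]
    exact h5
  have hvar : ∀ u n, n ≤ E.dep u → c1 * E.ds u (E.par^[n] u) ≤ Va u n := by
    intro u n hn
    have hCg : 0 < C * g := by positivity
    have h1 := hplain u (Va u) (1 / (C * g)) (by positivity) (by simp [Va, hV0])
      (fun n hn => main_avg_mono fun β => hVm β u n hn)
      (fun j hj hs => by
        obtain ⟨h1, h2, h3⟩ := hK0.range (n := 0) (u := u) (j := j) (by omega) (by simpa using hs)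
        simp only [zero_add] at h2 h3
        have h4 := main_avg (fun β => Var β u j) (fun β => by
          rw [← hV0 β u]; exact main_mono (hVm β u) (Nat.zero_le _) hj) univ g
          (by rw [card_univ]; exact Nat.le_mul_of_pos_left _ (by positivity))
          (a := E.ds u (E.par^[j] u) / C) (div_nonneg (Elim.ds_nonneg _ _) (by linarith))
          (fun β _ => by
            rw [div_le_iff₀ (by linarith), mul_comm]
            exact hdir β u j (none, E.par^[j] u) h1 hj (fun i hi => (hmem _ _).2 (h2 i hi))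
              (fun h => h3 ((hmem _ _).1 h)))
        rw [div_le_iff₀ (by linarith)] at h4
        rw [one_div, inv_mul_le_iff₀ hCg]
        linarith)
      (fun n j y α hj hs hy hα hh hu hdich => by
        obtain ⟨h1, h2, h3⟩ := hK0.range hj hs
        obtain ⟨idx, hidx⟩ := main_idx (E.S (E.par^[n] u)) (E.card_le _)
        let Fx := (E.S (E.par^[n] u)).filter fun x => Λ * α ≤ dist x y
        have hne : ∀ x ∈ Fx, x ≠ y := by
          intro x hx e
          have := (mem_filter.1 hx).2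
          rw [e, dist_self] at this
          have : 0 < Λ * α := by positivity
          linarith
        have : Nonempty V := ⟨E.r⟩
        have : Nonempty Sc := ⟨⟨_, mem_image.2 ⟨(E.r, E.r), mem_univ _, rfl⟩⟩⟩
        choose! jj ss Ev q1 q2 q3 using fun x (hx : x ∈ Fx) =>
          hsep _ x (mem_filter.1 hx).1 y hy (hne x hx) (idx x)
        let q : V → Lv := fun x => (some (jj x, idx x), ss x)
        let EvL : Lv → Finset B := fun l => if h : ∃ x ∈ Fx, q x = l then Ev h.choose else univ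
        have hEvL : ∀ x ∈ Fx, EvL (q x) = Ev x := by
          intro x hx
          have h : ∃ x' ∈ Fx, q x' = q x := ⟨x, hx, rfl⟩
          simp only [EvL, dif_pos h]
          have h5 := h.choose_spec
          have h6 : idx h.choose = idx x := by
            have := congrArg (fun l : Lv => l.1.map Prod.snd) h5.2
            simpa [q] using this
          rw [hidx _ (mem_filter.1 h5.1).1 _ (mem_filter.1 hx).1 h6]
        obtain ⟨A, h4, hA⟩ := main_event (L := Lv) (Fx.image q) EvL _ (k + 1) hone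
          (card_image_le.trans ((card_filter_le _ _).trans (E.card_le _))) (fun l hl => by
            obtain ⟨x, hx, rfl⟩ := mem_image.1 hl
            rw [hEvL x hx]; exact q2 x hx)
        have h5 := main_avg (fun β => Var β u (n + j) - Var β u n) (fun β =>
          sub_nonneg.2 (main_mono (hVm β u) (Nat.le_add_right _ _) hj)) _ g h4
          (a := E.ds y (E.par^[n + j] u) / C) (div_nonneg (Elim.ds_nonneg _ _) (by linarith))
          (fun β hβ => by
            rw [div_le_iff₀ (by linarith), mul_comm]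
            refine hgain β u n j (none, E.par^[n + j] u) h1 hj
              (fun i hi => (hmem _ _).2 (h2 i hi)) (fun h => h3 ((hmem _ _).1 h)) y hy
              (Elim.ds_nonneg _ _) fun x hx => ?_
            change C * dist x y ≤ E.ds y _ ∨ ∃ q ∈ Act _, C * (dist u y + E.ds y _) ≤ _
            rcases hdich x hx with h6 | h6
            · exact Or.inl ((mul_le_mul_of_nonneg_right hΛC dist_nonneg).trans h6)
            · have hxF : x ∈ Fx := mem_filter.2 ⟨hx, h6⟩
              refine Or.inr ⟨q x, q1 x hxF, le_trans ?_ (q3 x hxF β ?_)⟩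
              · rw [le_div_iff₀ (by positivity)]
                have h7 : C * (dist u y + E.ds y (E.par^[n + j] u)) ≤ C * (2 * α) :=
                  mul_le_mul_of_nonneg_left (by linarith) (by linarith)
                calc _ ≤ C * (2 * α) * (22 * (k + 1)) := by gcongr
                  _ = Λ * α := by rw [hΛ]; ring
                  _ ≤ _ := h6
              · rw [← hEvL x hxF]
                exact hA β hβ _ (mem_image_of_mem _ hxF))
        rw [div_le_iff₀ (by linarith), sum_sub_distrib, sub_div] at h5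
        rw [one_div, inv_mul_le_iff₀ hCg]
        linarith) n hn
    rw [hc1, div_mul_eq_mul_div, div_le_iff₀ (by positivity), mul_comm (Va u n)]
    exact h1
  refine ⟨ρa, hcuta, fun u w => ?_, hupa⟩
  obtain ⟨n, n', hn, hn', e, hmin⟩ := main_lca (E := E) u w
  have hu : Va u n ≤ ρa u w := main_avg_mono fun β => by
    obtain ⟨a, a', h1, h2, h3, h4, -⟩ := hlca β u w
    exact (main_mono (hVm β u) (hmin a a' h1 h2 h3).1 h1).trans h4
  have hw : Va w n' ≤ ρa u w := main_avg_mono fun β => by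
    obtain ⟨a, a', h1, h2, h3, -, h4⟩ := hlca β u w
    exact (main_mono (hVm β w) (hmin a a' h1 h2 h3).2 h2).trans h4
  have h1 := (hvar u n hn).trans hu
  have h2 := (hvar w n' hn').trans hw
  rw [← e] at h2
  exact main_final hcuta (by linarith) hc1p hc2p hupa hbag h1 h2

end Vale.Agent.P235
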