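import Vale.Agent.P235.Basic

namespace Vale.Agent.P235

open Finset

section Markov

variable {V Ω : Type}

/-- the state of `v` after `n` random steps from the top -/
def markovX (par : V → V) : ℕ → V → Ω × (V → Ω → Ω) → Ω
  | 0, _, i => i.1
  | n + 1, v, i => i.2 v (markovX par n (par v) i)

theorem markov_eval [Fintype Ω] [DecidableEq Ω] (T : Ω → Ω → ℝ) (hT1 : ∀ s, ∑ s', T s s' = 1)
    (s0 : Ω) (f : Ω → ℝ) :
    ∑ φ : Ω → Ω, (∏ s, T s (φ s)) * f (φ s0) = ∑ s', T s0 s' * f s' := by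
  have h := prod_univ_sum (fun _ : Ω => (univ : Finset Ω))
    (fun s j => T s j * if s = s0 then f j else 1)
  rw [Fintype.piFinset_univ, Fintype.prod_eq_single s0 fun s hs => by simp [hs, hT1]] at h
  simp only [prod_mul_distrib, prod_ite_eq', mem_univ, if_true] at h
  exact h.symm

theorem markov_one [Fintype Ω] [DecidableEq Ω] (T : Ω → Ω → ℝ) (hT1 : ∀ s, ∑ s', T s s' = 1) :
    ∑ φ : Ω → Ω, ∏ s, T s (φ s) = 1 := by
  have h := prod_univ_sum (fun _ : Ω => (univ : Finset Ω)) T
  rw [Fintype.piFinset_univ] at h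
  rw [← h]; simp [hT1]

/-- resampling the random map at `a` -/
theorem markov_resample [Fintype V] [DecidableEq V] [Fintype Ω] [DecidableEq Ω]
    (T : V → Ω → Ω → ℝ) (hT1 : ∀ v s, ∑ s', T v s s' = 1) (m0 : Ω → ℝ) (a : V)
    (Φ : Ω × (V → Ω → Ω) → ℝ) :
    ∑ i : Ω × (V → Ω → Ω), (m0 i.1 * ∏ v, ∏ s, T v s (i.2 v s)) * Φ i
      = ∑ i : Ω × (V → Ω → Ω), (m0 i.1 * ∏ v, ∏ s, T v s (i.2 v s)) *
        ∑ φ : Ω → Ω, (∏ s, T a s (φ s)) * Φ (i.1, Function.update i.2 a φ) := by
  have hinv : Function.Involutive (fun q : (Ω × (V → Ω → Ω)) × (Ω → Ω) =>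
      ((q.1.1, Function.update q.1.2 a q.2), q.1.2 a)) := by
    rintro ⟨⟨s, ξ⟩, φ⟩
    simp
  have h := hinv.bijective.sum_comp (fun q : (Ω × (V → Ω → Ω)) × (Ω → Ω) =>
    (m0 q.1.1 * ∏ v, ∏ s, T v s (q.1.2 v s)) * ((∏ s, T a s (q.2 s)) * Φ q.1))
  rw [Fintype.sum_prod_type, Fintype.sum_prod_type (f := fun q : (Ω × (V → Ω → Ω)) × (Ω → Ω) =>
    (m0 q.1.1 * ∏ v, ∏ s, T v s (q.1.2 v s)) * ((∏ s, T a s (q.2 s)) * Φ q.1))] at h
  simp only [← mul_sum, ← sum_mul, markov_one (T a) (hT1 a), one_mul] at h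
  rw [← h]
  refine sum_congr rfl fun i _ => ?_
  rw [mul_sum]
  refine sum_congr rfl fun φ _ => ?_
  have h1 : ∏ v ∈ univ.erase a, ∏ s, T v s (Function.update i.2 a φ v s)
      = ∏ v ∈ univ.erase a, ∏ s, T v s (i.2 v s) :=
    prod_congr rfl fun v hv => by rw [Function.update_of_ne (ne_of_mem_erase hv)]
  rw [← mul_prod_erase univ (fun v => ∏ s, T v s (Function.update i.2 a φ v s)) (mem_univ a),
    ← mul_prod_erase univ (fun v => ∏ s, T v s (i.2 v s)) (mem_univ a), h1, Function.update_self]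
  ring

theorem markovX_update [MetricSpace V] [DecidableEq V] {k : ℕ} (E : Elim V k) {a : V}
    (i : Ω × (V → Ω → Ω)) (φ : Ω → Ω) (n : ℕ) (v : V) (h : ¬ E.Anc a v) :
    markovX E.par n v (i.1, Function.update i.2 a φ) = markovX E.par n v i := by
  induction n generalizing v with
  | zero => rfl
  | succ n ih =>
    have h1 : v ≠ a := fun e => h (e ▸ E.anc_refl v)
    simp only [markovX, Function.update_of_ne h1]
    rw [ih _ fun h' => h (h'.trans (E.anc_par v))]

end Markov

/-- Tree-indexed Markov field with kernels `T` and masses `m`. -/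
theorem markov {V Ω : Type} [MetricSpace V] [Fintype V] [DecidableEq V] [Fintype Ω]
    [DecidableEq Ω] {k : ℕ} (E : Elim V k) (T : V → Ω → Ω → ℝ) (m : V → Ω → ℝ)
    (hT0 : ∀ v s s', 0 ≤ T v s s') (hT1 : ∀ v s, ∑ s', T v s s' = 1)
    (hm0 : ∀ s, 0 ≤ m E.r s)
    (hm : ∀ v, v ≠ E.r → ∀ s', ∑ s, m (E.par v) s * T v s s' = m v s') :
    ∃ (I : Type) (_ : Fintype I) (w : I → ℝ) (X : V → I → Ω), (∀ i, 0 ≤ w i) ∧
      (∀ i, w i ≠ 0 → ∀ v, v ≠ E.r → T v (X (E.par v) i) (X v i) ≠ 0) ∧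
      (∀ a n, n ≤ E.dep a → ∀ f g : Ω → ℝ,
        ∑ i, w i * (f (X (E.par^[n] a) i) * g (X a i))
          = ∑ s, m (E.par^[n] a) s * (f s * back T E.par n a g s)) ∧
      (∀ a b, ∃ n n', n ≤ E.dep a ∧ n' ≤ E.dep b ∧ E.par^[n] a = E.par^[n'] b ∧
        ∀ f g : Ω → ℝ, ∑ i, w i * (f (X a i) * g (X b i))
          = ∑ s, m (E.par^[n] a) s * (back T E.par n a f s * back T E.par n' b g s)) := by
  classical
  set w : Ω × (V → Ω → Ω) → ℝ := fun i => m E.r i.1 * ∏ v, ∏ s, T v s (i.2 v s) with hw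
  set X : V → Ω × (V → Ω → Ω) → Ω := fun v => markovX E.par (E.dep v) v with hX
  have hXs : ∀ v, v ≠ E.r → ∀ i, X v i = i.2 v (X (E.par v) i) := by
    intro v hv i
    simp only [hX]
    rw [E.dep_par v hv]; rfl
  have hXu : ∀ a v, ¬ E.Anc a v → ∀ (i : Ω × (V → Ω → Ω)) φ,
      X v (i.1, Function.update i.2 a φ) = X v i := fun a v h i φ => markovX_update E i φ _ v h
  have step : ∀ a, a ≠ E.r → ∀ (f : Ω → ℝ) (Y : Ω × (V → Ω → Ω) → ℝ),
      (∀ i φ, Y (i.1, Function.update i.2 a φ) = Y i) →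
      ∑ i, w i * (f (X a i) * Y i) = ∑ i, w i * ((∑ s', T a (X (E.par a) i) s' * f s') * Y i) := by
    intro a ha f Y hY
    have hna : ¬ E.Anc a (E.par a) := fun h => by
      have := h.dep_le
      have := E.dep_par a ha
      omega
    rw [markov_resample T hT1 (m E.r) a fun i => f (X a i) * Y i]
    refine sum_congr rfl fun i _ => ?_
    rw [← markov_eval (T a) (hT1 a), sum_mul]
    congr 1
    refine sum_congr rfl fun φ _ => ?_
    rw [hY, hXs a ha, hXu a _ hna, mul_assoc]
    simp only [Function.update_self]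
  have law : ∀ a (f : Ω → ℝ), ∑ i, w i * f (X a i) = ∑ s, m a s * f s := by
    intro a
    induction hn : E.dep a generalizing a with
    | zero =>
      intro f
      have h1 := prod_univ_sum (fun _ : V => (univ : Finset (Ω → Ω)))
        (fun v φ => ∏ s, T v s (φ s))
      rw [Fintype.piFinset_univ] at h1
      simp only [markov_one _ (hT1 _), prod_const_one] at h1
      rw [Fintype.sum_prod_type, E.eq_r_of_dep hn]
      refine sum_congr rfl fun s _ => ?_
      simp only [hw, hX, E.dep_r, markovX]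
      rw [← sum_mul, ← mul_sum, ← h1, mul_one]
    | succ n ih =>
      intro f
      have ha : a ≠ E.r := fun h => by rw [h, E.dep_r] at hn; omega
      have h1 := step a ha f (fun _ => 1) fun _ _ => rfl
      simp only [mul_one] at h1
      rw [h1, ih (E.par a) (by have := E.dep_par a ha; omega)
        fun s => ∑ s', T a s s' * f s']
      simp only [mul_sum]
      rw [sum_comm]
      refine sum_congr rfl fun s' _ => ?_
      rw [← hm a ha s', sum_mul]
      exact sum_congr rfl fun _ _ => by ring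
  have path : ∀ n a, n ≤ E.dep a → ∀ (g : Ω → ℝ) (Y : Ω × (V → Ω → Ω) → ℝ),
      (∀ j < n, ∀ i φ, Y (i.1, Function.update i.2 (E.par^[j] a) φ) = Y i) →
      ∑ i, w i * (g (X a i) * Y i)
        = ∑ i, w i * (back T E.par n a g (X (E.par^[n] a) i) * Y i) := by
    intro n
    induction n with
    | zero => intro a _ g Y _; rfl
    | succ n ih =>
      intro a hn g Y hY
      have ha : a ≠ E.r := E.ne_r_of_lt (n := 0) (u := a) (by omega)
      rw [step a ha g Y (hY 0 (by omega)), back_succ', Function.iterate_succ_apply]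
      exact ih (E.par a) (by have := E.dep_par a ha; omega) (fun s => ∑ s', T a s s' * g s') Y
        fun j hj => hY (j + 1) (by omega)
  have hlow : ∀ a n j, j < n → n ≤ E.dep a → ¬ E.Anc (E.par^[j] a) (E.par^[n] a) := by
    intro a n j hj hn h
    have := h.dep_le
    rw [E.dep_iter, E.dep_iter] at this
    omega
  refine ⟨Ω × (V → Ω → Ω), inferInstance, w, X, fun i => mul_nonneg (hm0 _)
    (prod_nonneg fun _ _ => prod_nonneg fun _ _ => hT0 _ _ _), ?_, ?_, ?_⟩
  · intro i hi v hv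
    rw [hXs v hv]
    exact prod_ne_zero_iff.1 (prod_ne_zero_iff.1 (right_ne_zero_of_mul hi) v (mem_univ v)) _
      (mem_univ _)
  · intro a n hn f g
    have h1 := path n a hn g (fun i => f (X (E.par^[n] a) i)) fun j hj i φ => by
      rw [hXu _ _ (hlow a n j hj hn)]
    rw [← law _ fun s => f s * back T E.par n a g s]
    simp only [mul_comm (f _)]
    exact h1
  · intro a b
    have hex : ∃ n, E.Anc (E.par^[n] a) b := ⟨E.dep a, by rw [E.iter_dep]; exact E.anc_r b⟩
    have h1 := Nat.find_spec hex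
    have h2 : ∀ j, j < Nat.find hex → ¬ E.Anc (E.par^[j] a) b := fun j hj => Nat.find_min hex hj
    have h3 : Nat.find hex ≤ E.dep a :=
      Nat.find_min' hex (by rw [E.iter_dep]; exact E.anc_r b)
    generalize Nat.find hex = n at h1 h2 h3
    have h4 := h1.eq_iter
    generalize hn' : E.dep b - E.dep (E.par^[n] a) = n' at h4
    refine ⟨n, n', h3, by omega, h4.symm, fun f g => ?_⟩
    rw [path n a h3 f (fun i => g (X b i)) fun j hj i φ => by rw [hXu _ _ (h2 j hj)], ← h4]
    have h5 := path n' b (by omega) g (fun i => back T E.par n a f (X (E.par^[n'] b) i))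
      fun j hj i φ => by rw [hXu _ _ (hlow b n' j hj (by omega))]
    rw [← law _ fun s => back T E.par n a f s * back T E.par n' b g s]
    simp only [mul_comm (back T E.par n a f _)]
    exact h5

end Vale.Agent.P235
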