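import Vale.Agent.P235.Defs
import Vale.Agent.P235.Basic

namespace Vale.Agent.P235

open Finset

namespace TDAux

/-- a rooted tree given by its parent map -/
structure RT (ι : Type) where
  r : ι
  par : ι → ι
  dep : ι → ℕ
  dep_r : dep r = 0
  par_r : par r = r
  dep_par : ∀ v, v ≠ r → dep v = dep (par v) + 1

namespace RT

variable {ι : Type} (R : RT ι)

/-- ancestor relation -/
def Anc (s t : ι) : Prop := ∃ n, R.par^[n] t = s

theorem dep_iter (n : ℕ) (u : ι) : R.dep (R.par^[n] u) = R.dep u - n := by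
  induction n with
  | zero => simp
  | succ n ih =>
    rw [Function.iterate_succ_apply']
    by_cases h : R.par^[n] u = R.r
    · rw [h, R.par_r, R.dep_r]; rw [h, R.dep_r] at ih; omega
    · have := R.dep_par _ h; omega

theorem eq_r {v : ι} (h : R.dep v = 0) : v = R.r := by
  by_contra hv
  have := R.dep_par v hv
  omega

theorem anc_r (u : ι) : R.Anc R.r u := ⟨R.dep u, R.eq_r (by rw [R.dep_iter]; omega)⟩

variable {R}

theorem Anc.trans {a b c : ι} (h1 : R.Anc a b) (h2 : R.Anc b c) : R.Anc a c := by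
  obtain ⟨n, rfl⟩ := h1
  obtain ⟨m, rfl⟩ := h2
  exact ⟨n + m, by rw [Function.iterate_add_apply]⟩

theorem Anc.dep_le {a b : ι} (h : R.Anc a b) : R.dep a ≤ R.dep b := by
  obtain ⟨n, rfl⟩ := h
  rw [R.dep_iter]; omega

theorem Anc.of_dep_le {a b u : ι} (ha : R.Anc a u) (hb : R.Anc b u) (hd : R.dep a ≤ R.dep b) :
    R.Anc a b := by
  obtain ⟨n, rfl⟩ := ha
  obtain ⟨m, rfl⟩ := hb
  by_cases h : m ≤ n
  · exact ⟨n - m, by rw [← Function.iterate_add_apply, Nat.sub_add_cancel h]⟩
  · rw [R.dep_iter, R.dep_iter] at hd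
    rw [R.eq_r (v := R.par^[n] u) (by rw [R.dep_iter]; omega)]
    exact R.anc_r _

end RT

theorem exists_rt {ι : Type} {T : SimpleGraph ι} (hT : T.IsTree) (t0 : ι) :
    ∃ R : RT ι, R.r = t0 ∧ ∀ a b, T.Adj a b → (a = R.par b ∧ b ≠ t0) ∨ (b = R.par a ∧ a ≠ t0) := by
  classical
  have h1 : ∀ t, t ≠ t0 → ∃ p, T.dist t0 t = T.dist t0 p + 1 ∧
      ∀ b, T.Adj t b → T.dist t0 t = T.dist t0 b + 1 → b = p := by
    intro t ht
    have key : ∀ b, T.Adj t b → T.dist t0 t = T.dist t0 b + 1 →
        ∃ q : T.Walk t t0, q.IsPath ∧ q.getVert 1 = b := by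
      intro b hb e
      obtain ⟨q, hq⟩ := hT.connected.exists_walk_length_eq_dist b t0
      exact ⟨.cons hb q, SimpleGraph.Walk.isPath_of_length_eq_dist _ (by
        rw [SimpleGraph.Walk.length_cons, hq, T.dist_comm, ← e, T.dist_comm]), by simp⟩
    obtain ⟨q, hq⟩ := hT.connected.exists_walk_length_eq_dist t t0
    cases q with
    | nil => exact absurd rfl ht
    | @cons _ p _ hp q =>
      have e : T.dist t0 t = T.dist t0 p + 1 := by
        have h2 := T.dist_le q
        rw [SimpleGraph.Walk.length_cons, T.dist_comm] at hq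
        rw [T.dist_comm] at h2
        rcases hT.dist_eq_dist_add_one_of_adj t0 hp with h | h <;> omega
      refine ⟨p, e, fun b hb e' => ?_⟩
      obtain ⟨q1, h3, h4⟩ := key b hb e'
      obtain ⟨q2, h5, h6⟩ := key p hp e
      rw [← h4, ← h6, (hT.existsUnique_path t t0).unique h3 h5]
  choose p hp1 hp2 using h1
  refine ⟨⟨t0, fun t => if h : t = t0 then t0 else p t h, T.dist t0, T.dist_self, by simp,
    fun v hv => by simp only [hv, dite_false]; exact hp1 v hv⟩, rfl, fun a b hab => ?_⟩
  rcases hT.dist_eq_dist_add_one_of_adj t0 hab with h | h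
  · have ha : a ≠ t0 := by rintro rfl; simp at h
    exact Or.inr ⟨by simp only [ha, dite_false]; exact hp2 a ha b hab h, ha⟩
  · have hb : b ≠ t0 := by rintro rfl; simp at h
    exact Or.inl ⟨by simp only [hb, dite_false]; exact hp2 b hb a hab.symm h, hb⟩

theorem exists_top {ι : Type} {T : SimpleGraph ι} {R : RT ι}
    (hR : ∀ a b, T.Adj a b → (a = R.par b ∧ b ≠ R.r) ∨ (b = R.par a ∧ a ≠ R.r)) {S : Set ι}
    (hS : (T.induce S).Connected) : ∃ c ∈ S, ∀ t ∈ S, R.Anc c t ∧
      ∀ s, R.Anc s t → R.dep c ≤ R.dep s → s ∈ S := by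
  obtain ⟨⟨c0, hc0⟩⟩ := hS.nonempty
  obtain ⟨c, hc, hmin⟩ := WellFounded.has_min (measure R.dep).wf S ⟨c0, hc0⟩
  let Q : ι → Prop := fun t =>
    Relation.ReflTransGen (fun a b => a ≠ R.r ∧ b = R.par a ∧ b ∈ S) t c
  have h1 : ∀ (a b : S) (_ : (T.induce S).Walk a b), Q a → Q b := by
    intro a b w
    induction w with
    | nil => exact id
    | @cons a b _ hab _ ih =>
      refine fun ha => ih ?_
      rcases hR a b hab with h | h
      · exact .head ⟨h.2, h.1, a.2⟩ ha
      · rcases ha.cases_head with h2 | ⟨x, h2, h3⟩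
        · refine absurd ?_ (hmin b b.2)
          have := R.dep_par a h.2
          change R.dep b < R.dep c
          rw [← h2, h.1]; omega
        · rw [h2.2.1, ← h.1] at h3; exact h3
  refine ⟨c, hc, fun t ht => ?_⟩
  obtain ⟨w⟩ := hS.preconnected ⟨c, hc⟩ ⟨t, ht⟩
  have h2 : Q t := h1 _ _ w .refl
  clear w
  induction h2 using Relation.ReflTransGen.head_induction_on with
  | refl =>
    refine ⟨⟨0, rfl⟩, ?_⟩
    rintro _ ⟨n, rfl⟩ h
    rw [R.dep_iter] at h
    rcases Nat.eq_zero_or_pos n with rfl | hn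
    · exact hc
    · rw [R.eq_r (v := R.par^[n] c) (by rw [R.dep_iter]; omega), ← R.eq_r (v := c) (by omega)]
      exact hc
  | head h _ ih =>
    obtain ⟨-, rfl, h3⟩ := h
    refine ⟨(ih h3).1.trans ⟨1, rfl⟩, ?_⟩
    rintro _ ⟨n, rfl⟩ h
    cases n with
    | zero => exact ht
    | succ n => exact (ih h3).2 _ ⟨n, rfl⟩ h

theorem rt_of_order {V : Type} [Fintype V] (lt : V → V → Prop) (irr : ∀ v, ¬ lt v v)
    (tr : ∀ a b c, lt a b → lt b c → lt a c)
    (ch : ∀ a b v, lt a v → lt b v → a = b ∨ lt a b ∨ lt b a) (r : V) (hr : ∀ v, v ≠ r → lt r v) :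
    ∃ R : RT V, R.r = r ∧ (∀ v w, lt w v → w = R.par v ∨ lt w (R.par v)) ∧
      ∀ w v, R.Anc w v ↔ w = v ∨ lt w v := by
  classical
  let d : V → ℕ := fun v => (univ.filter fun w => lt w v).card
  have hd : ∀ a b, lt a b → d a < d b := fun a b h => card_lt_card
    ⟨fun w hw => by simp only [mem_filter, mem_univ, true_and] at hw ⊢; exact tr _ _ _ hw h,
      fun hs => irr a (by simpa using hs (mem_filter.2 ⟨mem_univ _, h⟩))⟩
  have hnr : ∀ w, ¬ lt w r := fun w h => by
    by_cases e : w = r
    · exact irr r (e ▸ h)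
    · exact irr r (tr _ _ _ (hr w e) h)
  have h1 : ∀ v, v ≠ r → ∃ p, lt p v ∧ ∀ w, lt w v → w = p ∨ lt w p := by
    intro v hv
    obtain ⟨p, hp, hmax⟩ := exists_max_image (univ.filter fun w => lt w v) d
      ⟨r, mem_filter.2 ⟨mem_univ _, hr v hv⟩⟩
    refine ⟨p, (mem_filter.1 hp).2, fun w hw => ?_⟩
    rcases ch w p v hw (mem_filter.1 hp).2 with h | h | h
    · exact Or.inl h
    · exact Or.inr h
    · exact absurd (hd _ _ h) (not_lt.2 (hmax w (mem_filter.2 ⟨mem_univ _, hw⟩)))
  choose p hp1 hp2 using h1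
  let R : RT V := ⟨r, fun v => if h : v = r then r else p v h, d, by simp [d, hnr], by simp,
    fun v hv => by
      simp only [hv, dite_false, d]
      rw [← card_insert_of_notMem (a := p v hv) (by simp [irr])]
      congr 1
      ext w
      simp only [mem_filter, mem_univ, true_and, mem_insert]
      exact ⟨hp2 v hv w, fun h => h.elim (fun h => h ▸ hp1 v hv) fun h => tr _ _ _ h (hp1 v hv)⟩⟩
  have h2 : ∀ v w, lt w v → w = R.par v ∨ lt w (R.par v) := fun v w h => by
    have hv : v ≠ r := fun e => hnr w (e ▸ h)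
    simp only [R, hv, dite_false]
    exact hp2 v hv w h
  have h3 : ∀ v, R.par v = v ∨ lt (R.par v) v := fun v => by
    by_cases hv : v = r
    · left; simp [R, hv]
    · right; simp only [R, hv, dite_false]; exact hp1 v hv
  refine ⟨R, rfl, h2, fun w v => ⟨?_, ?_⟩⟩
  · rintro ⟨n, rfl⟩
    induction n with
    | zero => exact Or.inl rfl
    | succ n ih =>
      rw [Function.iterate_succ_apply']
      rcases h3 (R.par^[n] v) with h | h
      · rw [h]; exact ih
      · exact Or.inr (ih.elim (fun e => by rw [e] at h ⊢; exact h) fun h' => tr _ _ _ h h')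
  · rintro (rfl | h)
    · exact ⟨0, rfl⟩
    · induction hn : d v using Nat.strong_induction_on generalizing v with
      | _ n ih =>
        rcases h2 v w h with e | h'
        · exact ⟨1, e.symm⟩
        · have hv : v ≠ r := fun e => hnr w (e ▸ h)
          have := R.dep_par v hv
          exact (ih (d (R.par v)) (by change d v = d (R.par v) + 1 at this; omega) _ h' rfl).trans
            ⟨1, rfl⟩

section metric

variable {V : Type} {G : SimpleGraph V} {len : Sym2 V → ℝ}

theorem wl_nonneg (hlen : ∀ e ∈ G.edgeSet, 0 < len e) {u v : V} (w : G.Walk u v) :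
    0 ≤ (w.edges.map len).sum :=
  List.sum_nonneg fun x hx => by
    obtain ⟨e, he, rfl⟩ := List.mem_map.1 hx
    exact (hlen e (w.edges_subset_edgeSet he)).le

theorem pd_le (hlen : ∀ e ∈ G.edgeSet, 0 < len e) {u v : V} (w : G.Walk u v) :
    pathDist G len u v ≤ (w.edges.map len).sum :=
  csInf_le ⟨0, by rintro _ ⟨w, rfl⟩; exact wl_nonneg hlen w⟩ ⟨w, rfl⟩

theorem le_pd (hG : G.Connected) {u v : V} {c : ℝ}
    (h : ∀ w : G.Walk u v, c ≤ (w.edges.map len).sum) : c ≤ pathDist G len u v := by
  obtain ⟨w⟩ := hG.preconnected u v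
  exact le_csInf ⟨_, w, rfl⟩ (by rintro _ ⟨w, rfl⟩; exact h w)

theorem pd_tri (hG : G.Connected) (hlen : ∀ e ∈ G.edgeSet, 0 < len e) (x y z : V) :
    pathDist G len x z ≤ pathDist G len x y + pathDist G len y z := by
  rw [← sub_le_iff_le_add]
  refine le_pd hG fun p => ?_
  rw [sub_le_comm]
  refine le_pd hG fun q => ?_
  have := pd_le hlen (p.append q)
  simp only [SimpleGraph.Walk.edges_append, List.map_append, List.sum_append] at this
  linarith

theorem exists_metric [Fintype V] (hG : G.Connected) (hlen : ∀ e ∈ G.edgeSet, 0 < len e) :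
    ∃ M : MetricSpace V, ∀ x y, M.dist x y = pathDist G len x y := by
  have hs : ∀ x y, pathDist G len x y ≤ pathDist G len y x := fun x y => le_pd hG fun w => by
    simpa [List.map_reverse, List.sum_reverse] using pd_le hlen w.reverse
  refine ⟨{ dist := pathDist G len
            dist_self := fun x => le_antisymm (by simpa using pd_le hlen (.nil : G.Walk x x))
              (le_pd hG (wl_nonneg hlen))
            dist_comm := fun x y => le_antisymm (hs x y) (hs y x)
            dist_triangle := pd_tri hG hlen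
            eq_of_dist_eq_zero := fun {x y} h => ?_ }, fun _ _ => rfl⟩
  by_contra hne
  obtain ⟨w⟩ := hG.preconnected x y
  have hx : ∃ b, G.Adj x b := by
    cases w with
    | nil => exact absurd rfl hne
    | cons h _ => exact ⟨_, h⟩
  obtain ⟨b, hb, hmin⟩ := Set.exists_min_image {b | G.Adj x b} (fun b => len s(x, b))
    (Set.toFinite _) hx
  refine absurd (le_pd hG (c := len s(x, b)) (u := x) (v := y) fun w => ?_)
    (not_le.2 (lt_of_eq_of_lt h (hlen _ hb)))
  cases w with
  | nil => exact absurd rfl hne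
  | cons h q =>
    have h1 := hmin _ h
    have h2 := wl_nonneg hlen q
    simp only [SimpleGraph.Walk.edges_cons, List.map_cons, List.sum_cons]
    linarith

end metric

end TDAux

open TDAux

/-- A connected graph of treewidth at most `k` with positive edge lengths carries an
elimination tree of width `k` for its shortest-path metric. -/
theorem exists_elim {V : Type} [Fintype V] (G : SimpleGraph V) (hG : G.Connected) (k : ℕ)
    (hk : TreewidthLE G k) (len : Sym2 V → ℝ) (hlen : ∀ e ∈ G.edgeSet, 0 < len e) :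
    ∃ M : MetricSpace V, (∀ x y, M.dist x y = pathDist G len x y) ∧
      Nonempty (@Elim V M k) := by
  classical
  obtain ⟨M, hM⟩ := exists_metric hG hlen
  refine ⟨M, hM, ?_⟩
  obtain ⟨ι, -, T, bag, hT, hedge, hconn, hcard⟩ := hk
  obtain ⟨v0⟩ := hG.nonempty
  obtain ⟨⟨t0, ht0⟩⟩ := (hconn v0).nonempty
  obtain ⟨R, rfl, hR⟩ := exists_rt hT t0
  choose top htop hA using fun v => exists_top hR (hconn v)
  let idx : V → ℕ := fun v => Fintype.equivFin V v
  have hidx : ∀ a b, idx a = idx b → a = b := fun a b h =>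
    (Fintype.equivFin V).injective (Fin.ext h)
  let lt : V → V → Prop := fun a b => R.Anc (top a) (top b) ∧
    (R.dep (top a) < R.dep (top b) ∨ (R.dep (top a) = R.dep (top b) ∧ idx a < idx b))
  have cmp : ∀ a b t, R.Anc (top a) t → R.Anc (top b) t → a = b ∨ lt a b ∨ lt b a := by
    intro a b t ha hb
    by_cases e : a = b
    · exact Or.inl e
    · have : idx a ≠ idx b := fun h => e (hidx a b h)
      by_cases h : R.dep (top a) < R.dep (top b) ∨ (R.dep (top a) = R.dep (top b) ∧ idx a < idx b)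
      · exact Or.inr (Or.inl ⟨ha.of_dep_le hb (by omega), h⟩)
      · exact Or.inr (Or.inr ⟨hb.of_dep_le ha (by omega), by omega⟩)
  have tr : ∀ a b c, lt a b → lt b c → lt a c := fun a b c h1 h2 =>
    ⟨h1.1.trans h2.1, by have := h1.2; have := h2.2; omega⟩
  obtain ⟨r, hr, hmin⟩ := exists_min_image (bag R.r) idx ⟨v0, ht0⟩
  have hr0 : top r = R.r := R.eq_r (by have := (hA r _ hr).1.dep_le; rw [R.dep_r] at this; omega)
  obtain ⟨Q, rfl, hQ1, hQ2⟩ := rt_of_order lt (fun v h => by have := h.2; omega) tr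
    (fun a b v ha hb => cmp a b _ ha.1 hb.1) r fun v hv => by
      refine ⟨hr0 ▸ R.anc_r _, ?_⟩
      rw [hr0, R.dep_r]
      rcases Nat.eq_zero_or_pos (R.dep (top v)) with h | h
      · have h1 := hmin v (R.eq_r h ▸ htop v)
        have : idx r ≠ idx v := fun h => hv (hidx _ _ h).symm
        omega
      · exact Or.inl h
  let S : V → Finset V := fun v => (bag (top v)).filter fun w => w = v ∨ lt w v
  have hS : ∀ y v t, y ∈ bag t → R.Anc (top v) t → lt y v → y ∈ S v := fun y v t hy ht h =>
    mem_filter.2 ⟨(hA y t hy).2 _ ht h.1.dep_le, Or.inr h⟩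
  have hself : ∀ v, v ∈ S v := fun v => mem_filter.2 ⟨htop v, Or.inl rfl⟩
  have hanc : ∀ w v, Q.Anc w v → R.Anc (top w) (top v) := fun w v h =>
    ((hQ2 w v).1 h).elim (fun e => e ▸ ⟨0, rfl⟩) fun h => h.1
  refine ⟨⟨Q.r, Q.par, Q.dep, S, Q.dep_r, Q.par_r, Q.dep_par, hself, fun y hy => ?_,
    fun v y hy hne => ?_, fun v => (card_filter_le _ _).trans (hcard _), fun v u w hu hw => ?_⟩⟩
  · have := ((hQ2 y Q.r).2 (mem_filter.1 hy).2).dep_le
    rw [Q.dep_r] at this
    exact Q.eq_r (by omega)
  · obtain ⟨h1, h2⟩ := mem_filter.1 hy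
    rcases hQ1 v y (h2.resolve_left hne) with e | h
    · exact e ▸ hself y
    · exact hS y _ _ h1 (hanc _ _ ⟨1, rfl⟩) h
  · have key : ∀ a w (p : G.Walk a w), Q.Anc v a → ¬ Q.Anc v w → ∃ y ∈ (S v).erase v,
        pathDist G len a y + pathDist G len y w ≤ (p.edges.map len).sum := by
      intro a w p
      induction p with
      | nil => exact fun h h' => absurd h h'
      | @cons a b w hab q ih =>
        intro ha hw
        have h1 : pathDist G len a b ≤ len s(a, b) := by simpa using pd_le hlen hab.toWalk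
        simp only [SimpleGraph.Walk.edges_cons, List.map_cons, List.sum_cons]
        by_cases hb : Q.Anc v b
        · obtain ⟨y, hy, h2⟩ := ih hb hw
          exact ⟨y, hy, by linarith [pd_tri hG hlen a b y]⟩
        · refine ⟨b, mem_erase.2 ⟨fun e => hb (e ▸ ⟨0, rfl⟩), ?_⟩, by linarith [pd_le hlen q]⟩
          obtain ⟨t, hat, hbt⟩ := hedge a b hab
          have h3 := (hanc v a ha).trans (hA a t hat).1
          rcases cmp a b t (hA a t hat).1 (hA b t hbt).1 with h | h | h
          · exact absurd h hab.ne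
          · exact absurd (ha.trans ((hQ2 a b).2 (Or.inr h))) hb
          · rcases cmp v b t h3 (hA b t hbt).1 with h | h | h
            · exact absurd ((hQ2 v b).2 (Or.inl h)) hb
            · exact absurd ((hQ2 v b).2 (Or.inr h)) hb
            · exact hS b v t hbt h3 h
    obtain ⟨p⟩ := hG.preconnected u w
    obtain ⟨y0, hy0, -⟩ := key u w p hu hw
    obtain ⟨y, hy, hmin⟩ := exists_min_image ((S v).erase v)
      (fun y => pathDist G len u y + pathDist G len y w) ⟨y0, hy0⟩
    refine ⟨y, (mem_erase.1 hy).2, (mem_erase.1 hy).1, ?_⟩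
    rw [hM, hM, hM]
    refine le_antisymm (pd_tri hG hlen u y w) (le_pd hG fun p => ?_)
    obtain ⟨y', hy', h⟩ := key u w p hu hw
    exact (hmin y' hy').trans h

end Vale.Agent.P235
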